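import Mathlib

/-!
Basic objects for the three-marginal Coulomb transport problem on three-dimensional
Euclidean space: the Coulomb cost, couplings with three equal marginals, and the
Kantorovich value.
-/

open MeasureTheory ENNReal

namespace Vale.Agent.Lib.P121

/-- Three-dimensional Euclidean space. -/
abbrev E3 := EuclideanSpace ℝ (Fin 3)

/-- The Coulomb cost `1/|x-y| + 1/|x-z| + 1/|y-z|`, with value `∞` when two points coincide. -/
noncomputable def coulomb (x y z : E3) : ℝ≥0∞ :=
  (edist x y)⁻¹ + (edist x z)⁻¹ + (edist y z)⁻¹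

/-- `π` is a probability measure on triples whose three coordinate marginals all equal `μ`. -/
def IsCoupling (μ : Measure E3) (π : Measure (E3 × E3 × E3)) : Prop :=
  IsProbabilityMeasure π ∧ π.map (fun p => p.1) = μ ∧ π.map (fun p => p.2.1) = μ ∧
    π.map (fun p => p.2.2) = μ

/-- The Kantorovich value: the infimum of the Coulomb cost over all couplings of `μ, μ, μ`. -/
noncomputable def kantorovichValue (μ : Measure E3) : ℝ≥0∞ :=
  ⨅ (π : Measure (E3 × E3 × E3)) (_ : IsCoupling μ π), ∫⁻ p, coulomb p.1 p.2.1 p.2.2 ∂π

end Vale.Agent.Lib.P121
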