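import Mathlib
import Vale.Agent.Lib.P121.Defs

open MeasureTheory ENNReal Set

namespace Vale.Agent.Lib.P121

lemma measurable_coulomb : Measurable (fun p : E3 × E3 × E3 => coulomb p.1 p.2.1 p.2.2) := by
  unfold coulomb
  fun_prop

lemma coulomb_cyc (x y z : E3) : coulomb y z x = coulomb x y z := by
  unfold coulomb
  rw [edist_comm y x, edist_comm z x]
  ring

lemma coulomb_cyc2 (x y z : E3) : coulomb z x y = coulomb x y z := by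
  rw [← coulomb_cyc z x y]

lemma coulomb_swap (x y z : E3) : coulomb x z y = coulomb x y z := by
  unfold coulomb
  rw [edist_comm z y]
  ring

/-- The data of the dual certificate. -/
structure Cert where
  β : Measure E3
  prob : IsProbabilityMeasure β
  Box : Set E3
  Box_meas : MeasurableSet Box
  Box_ae : ∀ᵐ p ∂β, p ∈ Box
  X : E3 → E3
  Y1 : E3 → E3
  Z1 : E3 → E3
  Y2 : E3 → E3
  Z2 : E3 → E3
  X_meas : Measurable X
  Y1_meas : Measurable Y1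
  Z1_meas : Measurable Z1
  Y2_meas : Measurable Y2
  Z2_meas : Measurable Z2
  SX : Set E3
  S1 : Set E3
  T1 : Set E3
  S2 : Set E3
  SX_meas : MeasurableSet SX
  S1_meas : MeasurableSet S1
  T1_meas : MeasurableSet T1
  S2_meas : MeasurableSet S2
  disj_X1 : Disjoint SX S1
  disj_XT : Disjoint SX T1
  disj_X2 : Disjoint SX S2
  disj_1T : Disjoint S1 T1
  disj_12 : Disjoint S1 S2
  disj_T2 : Disjoint T1 S2
  X_maps : ∀ p ∈ Box, X p ∈ SX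
  Y1_maps : ∀ p ∈ Box, Y1 p ∈ S1
  Z1_maps : ∀ p ∈ Box, Z1 p ∈ T1
  Y2_maps : ∀ p ∈ Box, Y2 p ∈ S2
  Z2_maps : ∀ p ∈ Box, Z2 p ∈ S2
  X_inj : InjOn X Box
  Y1_inj : InjOn Y1 Box
  Z1_inj : InjOn Z1 Box
  X_ac : β.map X ≪ volume
  Y1_ac : β.map Y1 ≪ volume
  Z1_ac : β.map Z1 ≪ volume
  Y2_ac : β.map Y2 ≪ volume
  Z2_ac : β.map Z2 ≪ volume
  h : E3 → ℝ≥0∞
  h_meas : Measurable h
  K : ℝ≥0∞
  K_ne_top : K ≠ ⊤
  h_le : ∀ x, h x ≤ K
  C : ℝ≥0∞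
  C_ne_top : C ≠ ⊤
  ineq : ∀ x ∈ SX ∪ S1 ∪ T1 ∪ S2, ∀ y ∈ SX ∪ S1 ∪ T1 ∪ S2, ∀ z ∈ SX ∪ S1 ∪ T1 ∪ S2,
    h x + h y + h z ≤ coulomb x y z + C
  contact1 : ∀ p ∈ Box, h (X p) + h (Y1 p) + h (Z1 p) = coulomb (X p) (Y1 p) (Z1 p) + C
  contact2 : ∀ p ∈ Box, h (X p) + h (Y2 p) + h (Z2 p) = coulomb (X p) (Y2 p) (Z2 p) + C
  classify : ∀ p ∈ Box, ∀ y ∈ SX ∪ S1 ∪ T1 ∪ S2, ∀ z ∈ SX ∪ S1 ∪ T1 ∪ S2,
    h (X p) + h y + h z = coulomb (X p) y z + C →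
      (y ∈ S1 → y = Y1 p) ∧ (y ∈ T1 → y = Z1 p) ∧ y ∉ SX

namespace Cert

variable (c : Cert)

/-- The measure: total mass `1/3` on the inner shell, weights `3/4` and `1/4` on the outer parts. -/
noncomputable def μ : Measure E3 :=
  (12 : ℝ≥0∞)⁻¹ • ((4 : ℝ≥0∞) • c.β.map c.X + (3 : ℝ≥0∞) • c.β.map c.Y1 +
    (3 : ℝ≥0∞) • c.β.map c.Z1 + c.β.map c.Y2 + c.β.map c.Z2)

lemma μ_apply {A : Set E3} (hA : MeasurableSet A) :
    c.μ A = (12 : ℝ≥0∞)⁻¹ * (4 * c.β (c.X ⁻¹' A) + 3 * c.β (c.Y1 ⁻¹' A) + 3 * c.β (c.Z1 ⁻¹' A)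
      + c.β (c.Y2 ⁻¹' A) + c.β (c.Z2 ⁻¹' A)) := by
  simp only [μ, Measure.smul_apply, Measure.add_apply, smul_eq_mul]
  rw [Measure.map_apply c.X_meas hA, Measure.map_apply c.Y1_meas hA, Measure.map_apply c.Z1_meas hA,
    Measure.map_apply c.Y2_meas hA, Measure.map_apply c.Z2_meas hA]

lemma lintegral_μ {f : E3 → ℝ≥0∞} (hf : Measurable f) :
    ∫⁻ x, f x ∂c.μ = (12 : ℝ≥0∞)⁻¹ * (4 * ∫⁻ p, f (c.X p) ∂c.β + 3 * ∫⁻ p, f (c.Y1 p) ∂c.β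
      + 3 * ∫⁻ p, f (c.Z1 p) ∂c.β + ∫⁻ p, f (c.Y2 p) ∂c.β + ∫⁻ p, f (c.Z2 p) ∂c.β) := by
  simp only [μ, lintegral_smul_measure, lintegral_add_measure, smul_eq_mul]
  rw [lintegral_map hf c.X_meas, lintegral_map hf c.Y1_meas, lintegral_map hf c.Z1_meas,
    lintegral_map hf c.Y2_meas, lintegral_map hf c.Z2_meas]

lemma twelve_inv_mul : (12 : ℝ≥0∞)⁻¹ * 12 = 1 :=
  ENNReal.inv_mul_cancel (by norm_num) (by norm_num)

lemma μ_prob : IsProbabilityMeasure c.μ := by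
  have := c.prob
  constructor
  rw [c.μ_apply MeasurableSet.univ]
  simp only [preimage_univ, measure_univ, mul_one]
  have : (4 : ℝ≥0∞) + 3 + 3 + 1 + 1 = 12 := by norm_num
  rw [this]
  exact twelve_inv_mul

lemma μ_ac : c.μ ≪ volume := by
  refine Measure.AbsolutelyContinuous.mk ?_
  intro A hA h0
  have h1 := c.X_ac h0
  have h2 := c.Y1_ac h0
  have h3 := c.Z1_ac h0
  have h4 := c.Y2_ac h0
  have h5 := c.Z2_ac h0
  rw [Measure.map_apply c.X_meas hA] at h1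
  rw [Measure.map_apply c.Y1_meas hA] at h2
  rw [Measure.map_apply c.Z1_meas hA] at h3
  rw [Measure.map_apply c.Y2_meas hA] at h4
  rw [Measure.map_apply c.Z2_meas hA] at h5
  rw [c.μ_apply hA, h1, h2, h3, h4, h5]
  simp

/-- If a map sends the box into `S` and `A` misses `S`, the preimage of `A` is `β`-null. -/
lemma preimage_null {F : E3 → E3} {S A : Set E3} (hF : ∀ p ∈ c.Box, F p ∈ S) (hd : Disjoint A S) :
    c.β (F ⁻¹' A) = 0 := by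
  have : ∀ᵐ p ∂c.β, p ∉ F ⁻¹' A := by
    filter_upwards [c.Box_ae] with p hp hpA
    exact (Set.disjoint_left.mp hd) hpA (hF p hp)
  exact measure_eq_zero_iff_ae_notMem.mpr this

lemma μ_SX_sub {A : Set E3} (hA : MeasurableSet A) (hs : A ⊆ c.SX) :
    c.μ A = (12 : ℝ≥0∞)⁻¹ * (4 * c.β (c.X ⁻¹' A)) := by
  rw [c.μ_apply hA]
  have h1 : c.β (c.Y1 ⁻¹' A) = 0 :=
    c.preimage_null c.Y1_maps (c.disj_X1.mono_left hs)
  have h2 : c.β (c.Z1 ⁻¹' A) = 0 :=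
    c.preimage_null c.Z1_maps (c.disj_XT.mono_left hs)
  have h3 : c.β (c.Y2 ⁻¹' A) = 0 :=
    c.preimage_null c.Y2_maps (c.disj_X2.mono_left hs)
  have h4 : c.β (c.Z2 ⁻¹' A) = 0 :=
    c.preimage_null c.Z2_maps (c.disj_X2.mono_left hs)
  rw [h1, h2, h3, h4]; simp

lemma μ_S1_sub {A : Set E3} (hA : MeasurableSet A) (hs : A ⊆ c.S1) :
    c.μ A = (12 : ℝ≥0∞)⁻¹ * (3 * c.β (c.Y1 ⁻¹' A)) := by
  rw [c.μ_apply hA]
  have h0 : c.β (c.X ⁻¹' A) = 0 :=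
    c.preimage_null c.X_maps (c.disj_X1.symm.mono_left hs)
  have h2 : c.β (c.Z1 ⁻¹' A) = 0 :=
    c.preimage_null c.Z1_maps (c.disj_1T.mono_left hs)
  have h3 : c.β (c.Y2 ⁻¹' A) = 0 :=
    c.preimage_null c.Y2_maps (c.disj_12.mono_left hs)
  have h4 : c.β (c.Z2 ⁻¹' A) = 0 :=
    c.preimage_null c.Z2_maps (c.disj_12.mono_left hs)
  rw [h0, h2, h3, h4]; simp

lemma μ_T1_sub {A : Set E3} (hA : MeasurableSet A) (hs : A ⊆ c.T1) :
    c.μ A = (12 : ℝ≥0∞)⁻¹ * (3 * c.β (c.Z1 ⁻¹' A)) := by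
  rw [c.μ_apply hA]
  have h0 : c.β (c.X ⁻¹' A) = 0 :=
    c.preimage_null c.X_maps (c.disj_XT.symm.mono_left hs)
  have h1 : c.β (c.Y1 ⁻¹' A) = 0 :=
    c.preimage_null c.Y1_maps (c.disj_1T.symm.mono_left hs)
  have h3 : c.β (c.Y2 ⁻¹' A) = 0 :=
    c.preimage_null c.Y2_maps (c.disj_T2.mono_left hs)
  have h4 : c.β (c.Z2 ⁻¹' A) = 0 :=
    c.preimage_null c.Z2_maps (c.disj_T2.mono_left hs)
  rw [h0, h1, h3, h4]; simp

lemma μ_SX : c.μ c.SX = (12 : ℝ≥0∞)⁻¹ * 4 := by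
  have := c.prob
  rw [c.μ_SX_sub c.SX_meas subset_rfl]
  have : c.β (c.X ⁻¹' c.SX) = 1 := by
    have h : ∀ᵐ p ∂c.β, p ∈ c.X ⁻¹' c.SX := by
      filter_upwards [c.Box_ae] with p hp using c.X_maps p hp
    exact (prob_compl_eq_zero_iff (c.X_meas c.SX_meas)).mp (mem_ae_iff.mp h)
  rw [this, mul_one]

lemma μ_S2 : c.μ c.S2 ≤ (12 : ℝ≥0∞)⁻¹ * 2 := by
  have := c.prob
  rw [c.μ_apply c.S2_meas]
  have h0 : c.β (c.X ⁻¹' c.S2) = 0 :=
    c.preimage_null c.X_maps c.disj_X2.symm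
  have h1 : c.β (c.Y1 ⁻¹' c.S2) = 0 :=
    c.preimage_null c.Y1_maps c.disj_12.symm
  have h2 : c.β (c.Z1 ⁻¹' c.S2) = 0 :=
    c.preimage_null c.Z1_maps c.disj_T2.symm
  rw [h0, h1, h2]
  gcongr
  simp only [mul_zero, zero_add]
  have h3 : c.β (c.Y2 ⁻¹' c.S2) ≤ 1 := prob_le_one
  have h4 : c.β (c.Z2 ⁻¹' c.S2) ≤ 1 := prob_le_one
  calc c.β (c.Y2 ⁻¹' c.S2) + c.β (c.Z2 ⁻¹' c.S2) ≤ 1 + 1 := add_le_add h3 h4
    _ = 2 := by norm_num

/-- Almost every point of the measure lies in the union of the shells. -/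
lemma ae_shell : ∀ᵐ x ∂c.μ, x ∈ c.SX ∪ c.S1 ∪ c.T1 ∪ c.S2 := by
  have hm : MeasurableSet (c.SX ∪ c.S1 ∪ c.T1 ∪ c.S2) :=
    ((c.SX_meas.union c.S1_meas).union c.T1_meas).union c.S2_meas
  have hd (S : Set E3) (hS : S ⊆ c.SX ∪ c.S1 ∪ c.T1 ∪ c.S2) :
      Disjoint (c.SX ∪ c.S1 ∪ c.T1 ∪ c.S2)ᶜ S :=
    (Set.disjoint_compl_left_iff_subset.mpr hS)
  have h : c.μ (c.SX ∪ c.S1 ∪ c.T1 ∪ c.S2)ᶜ = 0 := by
    rw [c.μ_apply hm.compl]
    rw [c.preimage_null c.X_maps (hd _ (fun x hx => Or.inl (Or.inl (Or.inl hx)))),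
      c.preimage_null c.Y1_maps (hd _ (fun x hx => Or.inl (Or.inl (Or.inr hx)))),
      c.preimage_null c.Z1_maps (hd _ (fun x hx => Or.inl (Or.inr hx))),
      c.preimage_null c.Y2_maps (hd _ (fun x hx => Or.inr hx)),
      c.preimage_null c.Z2_maps (hd _ (fun x hx => Or.inr hx))]
    simp
  exact (measure_eq_zero_iff_ae_notMem.mp h).mono (fun x hx => not_not.mp hx)

/-- The symmetrised plan. -/
noncomputable def plan : Measure (E3 × E3 × E3) :=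
  (12 : ℝ≥0∞)⁻¹ • ((3 : ℝ≥0∞) • (c.β.map (fun p => (c.X p, c.Y1 p, c.Z1 p))
      + c.β.map (fun p => (c.Y1 p, c.Z1 p, c.X p)) + c.β.map (fun p => (c.Z1 p, c.X p, c.Y1 p)))
    + (c.β.map (fun p => (c.X p, c.Y2 p, c.Z2 p))
      + c.β.map (fun p => (c.Y2 p, c.Z2 p, c.X p)) + c.β.map (fun p => (c.Z2 p, c.X p, c.Y2 p))))

lemma meas_triple {F G H : E3 → E3} (hF : Measurable F) (hG : Measurable G) (hH : Measurable H) :
    Measurable (fun p => (F p, G p, H p)) := hF.prodMk (hG.prodMk hH)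

lemma plan_isCoupling : IsCoupling c.μ c.plan := by
  have := c.prob
  have hX := c.X_meas
  have hY1 := c.Y1_meas
  have hZ1 := c.Z1_meas
  have hY2 := c.Y2_meas
  have hZ2 := c.Z2_meas
  have key : ∀ {g : E3 × E3 × E3 → E3}, Measurable g →
      (g = (fun p => p.1) ∨ g = (fun p => p.2.1) ∨ g = (fun p => p.2.2)) →
      c.plan.map g = c.μ := by
    intro g hg hcases
    refine Measure.ext (fun A hA => ?_)
    rw [Measure.map_apply hg hA, c.μ_apply hA]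
    simp only [plan, Measure.smul_apply, Measure.add_apply, smul_eq_mul]
    have hm := hg hA
    rw [Measure.map_apply (meas_triple hX hY1 hZ1) hm, Measure.map_apply (meas_triple hY1 hZ1 hX) hm,
      Measure.map_apply (meas_triple hZ1 hX hY1) hm, Measure.map_apply (meas_triple hX hY2 hZ2) hm,
      Measure.map_apply (meas_triple hY2 hZ2 hX) hm, Measure.map_apply (meas_triple hZ2 hX hY2) hm]
    rcases hcases with rfl | rfl | rfl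
    · change (12 : ℝ≥0∞)⁻¹ * (3 * (c.β (c.X ⁻¹' A) + c.β (c.Y1 ⁻¹' A) + c.β (c.Z1 ⁻¹' A))
        + (c.β (c.X ⁻¹' A) + c.β (c.Y2 ⁻¹' A) + c.β (c.Z2 ⁻¹' A))) = _
      ring
    · change (12 : ℝ≥0∞)⁻¹ * (3 * (c.β (c.Y1 ⁻¹' A) + c.β (c.Z1 ⁻¹' A) + c.β (c.X ⁻¹' A))
        + (c.β (c.Y2 ⁻¹' A) + c.β (c.Z2 ⁻¹' A) + c.β (c.X ⁻¹' A))) = _
      ring
    · change (12 : ℝ≥0∞)⁻¹ * (3 * (c.β (c.Z1 ⁻¹' A) + c.β (c.X ⁻¹' A) + c.β (c.Y1 ⁻¹' A))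
        + (c.β (c.Z2 ⁻¹' A) + c.β (c.X ⁻¹' A) + c.β (c.Y2 ⁻¹' A))) = _
      ring
  refine ⟨⟨?_⟩, key measurable_fst (Or.inl rfl), key (measurable_fst.comp measurable_snd) (Or.inr (Or.inl rfl)),
    key (measurable_snd.comp measurable_snd) (Or.inr (Or.inr rfl))⟩
  simp only [plan, Measure.smul_apply, Measure.add_apply, smul_eq_mul]
  have h1 : ∀ {F : E3 → E3 × E3 × E3}, Measurable F → (c.β.map F) univ = 1 := by
    intro F hF
    rw [Measure.map_apply hF MeasurableSet.univ]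
    simp
  rw [h1 (meas_triple hX hY1 hZ1), h1 (meas_triple hY1 hZ1 hX), h1 (meas_triple hZ1 hX hY1),
    h1 (meas_triple hX hY2 hZ2), h1 (meas_triple hY2 hZ2 hX), h1 (meas_triple hZ2 hX hY2)]
  have : (3 : ℝ≥0∞) * (1 + 1 + 1) + (1 + 1 + 1) = 12 := by norm_num
  rw [this]
  exact twelve_inv_mul

/-- The cost of the plan. -/
lemma lintegral_plan :
    ∫⁻ q, coulomb q.1 q.2.1 q.2.2 ∂c.plan = (12 : ℝ≥0∞)⁻¹ *
      (9 * ∫⁻ p, coulomb (c.X p) (c.Y1 p) (c.Z1 p) ∂c.β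
        + 3 * ∫⁻ p, coulomb (c.X p) (c.Y2 p) (c.Z2 p) ∂c.β) := by
  have hX := c.X_meas
  have hY1 := c.Y1_meas
  have hZ1 := c.Z1_meas
  have hY2 := c.Y2_meas
  have hZ2 := c.Z2_meas
  simp only [plan, lintegral_smul_measure, lintegral_add_measure, smul_eq_mul]
  rw [lintegral_map measurable_coulomb (meas_triple hX hY1 hZ1),
    lintegral_map measurable_coulomb (meas_triple hY1 hZ1 hX),
    lintegral_map measurable_coulomb (meas_triple hZ1 hX hY1),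
    lintegral_map measurable_coulomb (meas_triple hX hY2 hZ2),
    lintegral_map measurable_coulomb (meas_triple hY2 hZ2 hX),
    lintegral_map measurable_coulomb (meas_triple hZ2 hX hY2)]
  simp only [coulomb_cyc]
  ring

lemma measurable_coulomb_comp {F G H : E3 → E3} (hF : Measurable F) (hG : Measurable G)
    (hH : Measurable H) : Measurable (fun p => coulomb (F p) (G p) (H p)) := by
  unfold coulomb
  fun_prop

/-- Integrated contact identity for the plan. -/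
lemma plan_eq :
    ∫⁻ q, coulomb q.1 q.2.1 q.2.2 ∂c.plan + c.C = 3 * ∫⁻ x, c.h x ∂c.μ := by
  have := c.prob
  have hX := c.X_meas
  have hY1 := c.Y1_meas
  have hZ1 := c.Z1_meas
  have hY2 := c.Y2_meas
  have hZ2 := c.Z2_meas
  have hh := c.h_meas
  have e1 : ∫⁻ p, c.h (c.X p) ∂c.β + ∫⁻ p, c.h (c.Y1 p) ∂c.β + ∫⁻ p, c.h (c.Z1 p) ∂c.β
      = ∫⁻ p, coulomb (c.X p) (c.Y1 p) (c.Z1 p) ∂c.β + c.C := by
    rw [← lintegral_add_left (show Measurable (fun p => c.h (c.X p)) from hh.comp hX),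
      ← lintegral_add_left (show Measurable (fun p => c.h (c.X p) + c.h (c.Y1 p)) from
        (hh.comp hX).add (hh.comp hY1))]
    have : ∫⁻ p, coulomb (c.X p) (c.Y1 p) (c.Z1 p) ∂c.β + c.C
        = ∫⁻ p, (coulomb (c.X p) (c.Y1 p) (c.Z1 p) + c.C) ∂c.β := by
      rw [lintegral_add_right _ measurable_const]
      simp
    rw [this]
    refine lintegral_congr_ae ?_
    filter_upwards [c.Box_ae] with p hp using c.contact1 p hp
  have e2 : ∫⁻ p, c.h (c.X p) ∂c.β + ∫⁻ p, c.h (c.Y2 p) ∂c.β + ∫⁻ p, c.h (c.Z2 p) ∂c.β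
      = ∫⁻ p, coulomb (c.X p) (c.Y2 p) (c.Z2 p) ∂c.β + c.C := by
    rw [← lintegral_add_left (show Measurable (fun p => c.h (c.X p)) from hh.comp hX),
      ← lintegral_add_left (show Measurable (fun p => c.h (c.X p) + c.h (c.Y2 p)) from
        (hh.comp hX).add (hh.comp hY2))]
    have : ∫⁻ p, coulomb (c.X p) (c.Y2 p) (c.Z2 p) ∂c.β + c.C
        = ∫⁻ p, (coulomb (c.X p) (c.Y2 p) (c.Z2 p) + c.C) ∂c.β := by
      rw [lintegral_add_right _ measurable_const]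
      simp
    rw [this]
    refine lintegral_congr_ae ?_
    filter_upwards [c.Box_ae] with p hp using c.contact2 p hp
  rw [c.lintegral_μ hh, c.lintegral_plan]
  set a := ∫⁻ p, c.h (c.X p) ∂c.β
  set b1 := ∫⁻ p, c.h (c.Y1 p) ∂c.β
  set d1 := ∫⁻ p, c.h (c.Z1 p) ∂c.β
  set b2 := ∫⁻ p, c.h (c.Y2 p) ∂c.β
  set d2 := ∫⁻ p, c.h (c.Z2 p) ∂c.β
  set I1 := ∫⁻ p, coulomb (c.X p) (c.Y1 p) (c.Z1 p) ∂c.β
  set I2 := ∫⁻ p, coulomb (c.X p) (c.Y2 p) (c.Z2 p) ∂c.β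
  have hC : c.C = (12 : ℝ≥0∞)⁻¹ * (12 * c.C) := by
    rw [← mul_assoc, twelve_inv_mul, one_mul]
  have e3 : 3 * ((12 : ℝ≥0∞)⁻¹ * (4 * a + 3 * b1 + 3 * d1 + b2 + d2))
      = (12 : ℝ≥0∞)⁻¹ * (9 * (a + b1 + d1) + 3 * (a + b2 + d2)) := by ring
  rw [e3, e1, e2]
  conv_lhs => rw [hC]
  ring

lemma lintegral_h_ne_top : ∫⁻ x, c.h x ∂c.μ ≠ ⊤ := by
  have := c.μ_prob
  have : ∫⁻ x, c.h x ∂c.μ ≤ ∫⁻ _, c.K ∂c.μ := lintegral_mono c.h_le
  have h2 : ∫⁻ _, c.K ∂c.μ = c.K := by simp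
  exact ne_top_of_le_ne_top c.K_ne_top (this.trans h2.le)

lemma plan_ne_top : ∫⁻ q, coulomb q.1 q.2.1 q.2.2 ∂c.plan ≠ ⊤ := by
  have h := c.plan_eq
  have h3 : 3 * ∫⁻ x, c.h x ∂c.μ ≠ ⊤ := ENNReal.mul_ne_top (by norm_num) c.lintegral_h_ne_top
  rw [← h] at h3
  exact (ENNReal.add_ne_top.mp h3).1

lemma value_le_plan : kantorovichValue c.μ ≤ ∫⁻ q, coulomb q.1 q.2.1 q.2.2 ∂c.plan :=
  iInf₂_le c.plan c.plan_isCoupling

lemma value_lt_top : kantorovichValue c.μ < ⊤ :=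
  lt_of_le_of_lt c.value_le_plan (lt_top_iff_ne_top.mpr c.plan_ne_top)

/-- An optimal Monge pair makes the dual inequality an equality almost everywhere. -/
lemma ae_contact {T₂ T₃ : E3 → E3} (h2 : Measurable T₂) (h3 : Measurable T₃)
    (m2 : c.μ.map T₂ = c.μ) (m3 : c.μ.map T₃ = c.μ)
    (opt : ∫⁻ x, coulomb x (T₂ x) (T₃ x) ∂c.μ = kantorovichValue c.μ) :
    ∀ᵐ x ∂c.μ, x ∈ c.SX ∪ c.S1 ∪ c.T1 ∪ c.S2 ∧ T₂ x ∈ c.SX ∪ c.S1 ∪ c.T1 ∪ c.S2 ∧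
      T₃ x ∈ c.SX ∪ c.S1 ∪ c.T1 ∪ c.S2 ∧
      c.h x + c.h (T₂ x) + c.h (T₃ x) = coulomb x (T₂ x) (T₃ x) + c.C := by
  have hh := c.h_meas
  have hs := c.ae_shell
  have hs2 : ∀ᵐ x ∂c.μ, T₂ x ∈ c.SX ∪ c.S1 ∪ c.T1 ∪ c.S2 := by
    have : ∀ᵐ x ∂(c.μ.map T₂), x ∈ c.SX ∪ c.S1 ∪ c.T1 ∪ c.S2 := by rw [m2]; exact hs
    exact ae_of_ae_map h2.aemeasurable this
  have hs3 : ∀ᵐ x ∂c.μ, T₃ x ∈ c.SX ∪ c.S1 ∪ c.T1 ∪ c.S2 := by
    have : ∀ᵐ x ∂(c.μ.map T₃), x ∈ c.SX ∪ c.S1 ∪ c.T1 ∪ c.S2 := by rw [m3]; exact hs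
    exact ae_of_ae_map h3.aemeasurable this
  have hle : (fun x => c.h x + c.h (T₂ x) + c.h (T₃ x)) ≤ᵐ[c.μ]
      (fun x => coulomb x (T₂ x) (T₃ x) + c.C) := by
    filter_upwards [hs, hs2, hs3] with x a b d using c.ineq x a _ b _ d
  have hint : ∫⁻ x, (c.h x + c.h (T₂ x) + c.h (T₃ x)) ∂c.μ = 3 * ∫⁻ x, c.h x ∂c.μ := by
    rw [lintegral_add_left (show Measurable (fun x => c.h x + c.h (T₂ x)) from hh.add (hh.comp h2)),
      lintegral_add_left hh]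
    have e2 : ∫⁻ x, c.h (T₂ x) ∂c.μ = ∫⁻ x, c.h x ∂c.μ := by
      conv_rhs => rw [← m2]
      rw [lintegral_map hh h2]
    have e3 : ∫⁻ x, c.h (T₃ x) ∂c.μ = ∫⁻ x, c.h x ∂c.μ := by
      conv_rhs => rw [← m3]
      rw [lintegral_map hh h3]
    rw [e2, e3]; ring
  have hfin : ∫⁻ x, (c.h x + c.h (T₂ x) + c.h (T₃ x)) ∂c.μ ≠ ⊤ := by
    rw [hint]; exact ENNReal.mul_ne_top (by norm_num) c.lintegral_h_ne_top
  have hge : ∫⁻ x, (coulomb x (T₂ x) (T₃ x) + c.C) ∂c.μ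
      ≤ ∫⁻ x, (c.h x + c.h (T₂ x) + c.h (T₃ x)) ∂c.μ := by
    have := c.μ_prob
    rw [hint, lintegral_add_right _ measurable_const, opt, ← c.plan_eq]
    simp only [lintegral_const, measure_univ, mul_one]
    gcongr
    exact c.value_le_plan
  have hmeas : Measurable (fun x => coulomb x (T₂ x) (T₃ x) + c.C) :=
    (measurable_coulomb_comp measurable_id h2 h3).add measurable_const
  have hae := ae_eq_of_ae_le_of_lintegral_le hle hfin hmeas.aemeasurable hge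
  filter_upwards [hs, hs2, hs3, hae] with x a b d e using ⟨a, b, d, e⟩

/-- The thin argument for one family: a measure preserving map cannot follow a graph of weight `3/4`. -/
lemma thin_null {T : E3 → E3} (hT : Measurable T) (mT : c.μ.map T = c.μ)
    {F : E3 → E3} {S : Set E3} (hF : Measurable F) (hFinj : InjOn F c.Box)
    (hFS : ∀ p ∈ c.Box, F p ∈ S)
    (hμS : ∀ {A : Set E3}, MeasurableSet A → A ⊆ S →
      c.μ A = (12 : ℝ≥0∞)⁻¹ * (3 * c.β (F ⁻¹' A)))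
    {A : Set E3} (hA : MeasurableSet A) (hAs : A ⊆ c.SX)
    (hprop : ∀ᵐ x ∂c.μ, x ∈ A → ∃ p ∈ c.Box, c.X p = x ∧ T x = F p) : c.μ A = 0 := by
  have := c.prob
  set Q := c.Box ∩ c.X ⁻¹' A with hQ
  have hQm : MeasurableSet Q := c.Box_meas.inter (c.X_meas hA)
  set B := F '' Q with hB
  have hBm : MeasurableSet B := hQm.image_of_measurable_injOn hF (hFinj.mono inter_subset_left)
  have hBS : B ⊆ S := by
    rintro _ ⟨p, hp, rfl⟩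
    exact hFS p hp.1
  have hpre : c.β (F ⁻¹' B) ≤ c.β Q := by
    refine measure_mono_ae ?_
    filter_upwards [c.Box_ae] with p hp hpB
    obtain ⟨q, hq, hqp⟩ := hpB
    have : q = p := hFinj hq.1 hp hqp
    rw [← this]; exact hq
  have hAeq : c.μ A = (12 : ℝ≥0∞)⁻¹ * (4 * c.β Q) := by
    rw [c.μ_SX_sub hA hAs]
    congr 2
    refine measure_congr ?_
    have : ∀ᵐ p ∂c.β, (p ∈ c.X ⁻¹' A ↔ p ∈ Q) := by
      filter_upwards [c.Box_ae] with p hp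
      exact ⟨fun h => ⟨hp, h⟩, fun h => h.2⟩
    exact this.mono (fun p hp => propext hp)
  have hle1 : c.μ A ≤ c.μ (T ⁻¹' B) := by
    refine measure_mono_ae ?_
    filter_upwards [hprop] with x hx hxA
    obtain ⟨p, hp, hpx, hTx⟩ := hx hxA
    have : T x ∈ B := ⟨p, ⟨hp, by rw [mem_preimage, hpx]; exact hxA⟩, hTx.symm⟩
    exact this
  have hle2 : c.μ (T ⁻¹' B) = c.μ B := by
    conv_rhs => rw [← mT]
    rw [Measure.map_apply hT hBm]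
  have hle3 : c.μ B ≤ (12 : ℝ≥0∞)⁻¹ * (3 * c.β Q) := by
    rw [hμS hBm hBS]
    gcongr
  have hmain : (12 : ℝ≥0∞)⁻¹ * (4 * c.β Q) ≤ (12 : ℝ≥0∞)⁻¹ * (3 * c.β Q) := by
    rw [← hAeq]
    exact hle1.trans (hle2.le.trans hle3)
  have hb : c.β Q ≠ ⊤ := measure_ne_top _ _
  have h12 : (12 : ℝ≥0∞)⁻¹ ≠ 0 := by simp
  have h12' : (12 : ℝ≥0∞)⁻¹ ≠ ⊤ := by simp
  have h43 : 4 * c.β Q ≤ 3 * c.β Q :=
    (ENNReal.mul_le_mul_iff_right h12 h12').mp hmain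
  have hQ0 : c.β Q = 0 := by
    have h3ne : 3 * c.β Q ≠ ⊤ := ENNReal.mul_ne_top (by norm_num) hb
    have h4 : 3 * c.β Q + c.β Q ≤ 3 * c.β Q + 0 := by
      rw [add_zero]
      calc 3 * c.β Q + c.β Q = 4 * c.β Q := by ring
        _ ≤ 3 * c.β Q := h43
    exact le_antisymm ((ENNReal.add_le_add_iff_left h3ne).mp h4) zero_le
  rw [hAeq, hQ0]; simp

/-- No optimal Monge pair exists. -/
theorem no_monge {T₂ T₃ : E3 → E3} (h2 : Measurable T₂) (h3 : Measurable T₃)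
    (m2 : c.μ.map T₂ = c.μ) (m3 : c.μ.map T₃ = c.μ)
    (opt : ∫⁻ x, coulomb x (T₂ x) (T₃ x) ∂c.μ = kantorovichValue c.μ) : False := by
  have := c.prob
  have hcon := c.ae_contact h2 h3 m2 m3 opt
  -- almost every point of the inner shell is in the image of the box
  have hC : MeasurableSet (c.X '' c.Box) :=
    c.Box_meas.image_of_measurable_injOn c.X_meas c.X_inj
  have himg : c.μ (c.SX \ (c.X '' c.Box)) = 0 := by
    have hm : MeasurableSet (c.SX \ (c.X '' c.Box)) := c.SX_meas.diff hC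
    rw [c.μ_SX_sub hm sdiff_subset]
    have : c.β (c.X ⁻¹' (c.SX \ (c.X '' c.Box))) = 0 := by
      refine measure_eq_zero_iff_ae_notMem.mpr ?_
      filter_upwards [c.Box_ae] with p hp hpm
      exact hpm.2 ⟨p, hp, rfl⟩
    rw [this]; simp
  have hpar : ∀ᵐ x ∂c.μ, x ∈ c.SX → ∃ p ∈ c.Box, c.X p = x := by
    have := measure_eq_zero_iff_ae_notMem.mp himg
    filter_upwards [this] with x hx hxS
    by_contra hne
    exact hx ⟨hxS, fun ⟨p, hp, hpx⟩ => hne ⟨p, hp, hpx⟩⟩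
  have hA1 : c.μ (c.SX ∩ T₂ ⁻¹' c.S1) = 0 := by
    refine c.thin_null h2 m2 c.Y1_meas c.Y1_inj c.Y1_maps (fun hA hs => c.μ_S1_sub hA hs)
      (c.SX_meas.inter (h2 c.S1_meas)) inter_subset_left ?_
    filter_upwards [hcon, hpar] with x hx hp hxA
    obtain ⟨p, hpB, rfl⟩ := hp hxA.1
    refine ⟨p, hpB, rfl, ?_⟩
    obtain ⟨_, hy, hz, he⟩ := hx
    exact (c.classify p hpB _ hy _ hz he).1 hxA.2
  have hA2 : c.μ (c.SX ∩ T₂ ⁻¹' c.T1) = 0 := by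
    refine c.thin_null h2 m2 c.Z1_meas c.Z1_inj c.Z1_maps (fun hA hs => c.μ_T1_sub hA hs)
      (c.SX_meas.inter (h2 c.T1_meas)) inter_subset_left ?_
    filter_upwards [hcon, hpar] with x hx hp hxA
    obtain ⟨p, hpB, rfl⟩ := hp hxA.1
    refine ⟨p, hpB, rfl, ?_⟩
    obtain ⟨_, hy, hz, he⟩ := hx
    exact (c.classify p hpB _ hy _ hz he).2.1 hxA.2
  have hsub : ∀ᵐ x ∂c.μ, x ∈ c.SX → x ∈ T₂ ⁻¹' c.S2 := by
    have e1 := measure_eq_zero_iff_ae_notMem.mp hA1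
    have e2 := measure_eq_zero_iff_ae_notMem.mp hA2
    filter_upwards [hcon, hpar, e1, e2] with x hx hp n1 n2 hxS
    obtain ⟨p, hpB, rfl⟩ := hp hxS
    obtain ⟨_, hy, hz, he⟩ := hx
    have hcl := c.classify p hpB _ hy _ hz he
    rcases hy with ((hy | hy) | hy) | hy
    · exact absurd hy hcl.2.2
    · exact absurd ⟨hxS, hy⟩ n1
    · exact absurd ⟨hxS, hy⟩ n2
    · exact hy
  have hle : c.μ c.SX ≤ c.μ c.S2 := by
    calc c.μ c.SX ≤ c.μ (T₂ ⁻¹' c.S2) := measure_mono_ae hsub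
      _ = c.μ c.S2 := by
        conv_rhs => rw [← m2]
        rw [Measure.map_apply h2 c.S2_meas]
  have hcontra : (12 : ℝ≥0∞)⁻¹ * 4 ≤ (12 : ℝ≥0∞)⁻¹ * 2 := by
    rw [← c.μ_SX]; exact hle.trans c.μ_S2
  have h12 : (12 : ℝ≥0∞)⁻¹ ≠ 0 := by simp
  have h12' : (12 : ℝ≥0∞)⁻¹ ≠ ⊤ := by simp
  have h42 : (4 : ℝ≥0∞) ≤ 2 := (ENNReal.mul_le_mul_iff_right h12 h12').mp hcontra
  norm_num at h42

/-- The summary statement of a certificate. -/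
theorem conclusion :
    IsProbabilityMeasure c.μ ∧ c.μ ≪ volume ∧ kantorovichValue c.μ < ⊤ ∧
      ¬ ∃ T₂ T₃ : E3 → E3, Measurable T₂ ∧ Measurable T₃ ∧ c.μ.map T₂ = c.μ ∧ c.μ.map T₃ = c.μ ∧
        ∫⁻ x, coulomb x (T₂ x) (T₃ x) ∂c.μ = kantorovichValue c.μ := by
  refine ⟨c.μ_prob, c.μ_ac, c.value_lt_top, ?_⟩
  rintro ⟨T₂, T₃, h2, h3, m2, m3, opt⟩
  exact c.no_monge h2 h3 m2 m3 opt

end Cert

end Vale.Agent.Lib.P121
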