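import Mathlib

/-!
The parameter functions of the isosceles family and their numerical enclosures.
The parameter `ν` ranges over the short interval `[9/5, 18001/10000]`.
-/

open Real

namespace Vale.Agent.Lib.P121

/-- The cube root of `ν ^ 3 + 2`. -/
noncomputable def mf (ν : ℝ) : ℝ := (ν ^ 3 + 2) ^ ((1 : ℝ) / 3)

/-- The square root of `4 - ν ^ 2`. -/
noncomputable def βf (ν : ℝ) : ℝ := √(4 - ν ^ 2)

/-- The radius of the inner shell. -/
noncomputable def rf (ν : ℝ) : ℝ := βf ν / (ν * mf ν ^ 2)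

/-- The radial force on the inner shell. -/
noncomputable def αf (ν : ℝ) : ℝ := rf ν * ν ^ 3

/-- The radius of the isosceles partners. -/
noncomputable def s2f (ν : ℝ) : ℝ := √((αf ν / 2) ^ 2 + (mf ν / 2) ^ 2)

/-- The affine functions of the squared radius whose envelope is the inner potential. -/
noncomputable def Tf (ν a : ℝ) : ℝ := 3 / 2 * ((2 * ν + 1) / mf ν) - 1 / 2 * ν ^ 3 * a

/-- The inner potential along the family. -/
noncomputable def Ubar (ν : ℝ) : ℝ := Tf ν (rf ν ^ 2)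

/-- Range of the parameter. -/
def InN (ν : ℝ) : Prop := 9 / 5 ≤ ν ∧ ν ≤ 18001 / 10000

section basics

variable {ν : ℝ}

lemma InN.pos (h : InN ν) : 0 < ν := by have := h.1; linarith

lemma InN.cube_lo (h : InN ν) : (5.832 : ℝ) ≤ ν ^ 3 := by
  have h1 : ((9 / 5 : ℝ)) ^ 3 ≤ ν ^ 3 := pow_le_pow_left₀ (by norm_num) h.1 3
  norm_num at h1 ⊢
  linarith

lemma InN.cube_hi (h : InN ν) : ν ^ 3 ≤ (5.83298 : ℝ) := by
  have h1 : ν ^ 3 ≤ (18001 / 10000 : ℝ) ^ 3 := pow_le_pow_left₀ h.pos.le h.2 3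
  norm_num at h1 ⊢
  linarith

lemma mf_cube (h : InN ν) : mf ν ^ 3 = ν ^ 3 + 2 := by
  have hp : 0 ≤ ν ^ 3 + 2 := by have := h.cube_lo; linarith
  unfold mf
  rw [← Real.rpow_natCast, ← Real.rpow_mul hp]
  norm_num

lemma mf_pos (h : InN ν) : 0 < mf ν := by
  have hp : 0 < ν ^ 3 + 2 := by have := h.cube_lo; linarith
  exact Real.rpow_pos_of_pos hp _

lemma mf_lo (h : InN ν) : (1.9858 : ℝ) ≤ mf ν := by
  have hc := mf_cube h
  have hl := h.cube_lo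
  have hp := mf_pos h
  refine (pow_le_pow_iff_left₀ (by norm_num) hp.le (n := 3) (by norm_num)).mp ?_
  rw [hc]
  norm_num
  linarith

lemma mf_hi (h : InN ν) : mf ν ≤ (1.986 : ℝ) := by
  have hc := mf_cube h
  have hl := h.cube_hi
  have hp := mf_pos h
  refine (pow_le_pow_iff_left₀ hp.le (by norm_num) (n := 3) (by norm_num)).mp ?_
  rw [hc]
  norm_num
  linarith

lemma InN.sq_lo (h : InN ν) : (3.24 : ℝ) ≤ ν ^ 2 := by
  have h1 : ((9 / 5 : ℝ)) ^ 2 ≤ ν ^ 2 := pow_le_pow_left₀ (by norm_num) h.1 2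
  norm_num at h1 ⊢
  linarith

lemma InN.sq_hi (h : InN ν) : ν ^ 2 ≤ (3.2404 : ℝ) := by
  have h1 : ν ^ 2 ≤ (18001 / 10000 : ℝ) ^ 2 := pow_le_pow_left₀ h.pos.le h.2 2
  norm_num at h1 ⊢
  linarith

lemma βf_sq (h : InN ν) : βf ν ^ 2 = 4 - ν ^ 2 := by
  have := h.sq_hi
  unfold βf
  exact Real.sq_sqrt (by linarith)

lemma βf_lo (h : InN ν) : (0.8715 : ℝ) ≤ βf ν := by
  have := h.sq_hi
  unfold βf
  refine Real.le_sqrt_of_sq_le ?_
  norm_num
  linarith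

lemma βf_hi (h : InN ν) : βf ν ≤ (0.8718 : ℝ) := by
  have := h.sq_lo
  unfold βf
  refine Real.sqrt_le_iff.mpr ⟨by norm_num, ?_⟩
  norm_num
  linarith

lemma rf_mul (h : InN ν) : rf ν * (ν * mf ν ^ 2) = βf ν := by
  have h1 := mf_pos h
  have h2 := h.pos
  unfold rf
  field_simp

lemma hf_lo (h : InN ν) : (7.09812 : ℝ) ≤ ν * mf ν ^ 2 := by
  have h1 := mf_lo h
  have h2 := h.1
  calc (7.09812 : ℝ) ≤ (9 / 5) * (1.9858 : ℝ) ^ 2 := by norm_num
    _ ≤ ν * mf ν ^ 2 := by gcongr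

lemma hf_hi (h : InN ν) : ν * mf ν ^ 2 ≤ (7.1 : ℝ) := by
  have h1 := mf_hi h
  have h2 := h.2
  have h3 := mf_pos h
  have h4 := h.pos
  calc ν * mf ν ^ 2 ≤ (18001 / 10000) * (1.986 : ℝ) ^ 2 := by gcongr
    _ ≤ (7.1 : ℝ) := by norm_num

lemma rf_lo (h : InN ν) : (0.12274 : ℝ) ≤ rf ν := by
  have h1 := hf_hi h
  have h2 := βf_lo h
  have h3 := hf_lo h
  unfold rf
  rw [le_div_iff₀ (by linarith)]
  nlinarith

lemma rf_hi (h : InN ν) : rf ν ≤ (0.12283 : ℝ) := by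
  have h1 := hf_lo h
  have h2 := βf_hi h
  unfold rf
  rw [div_le_iff₀ (by linarith)]
  nlinarith

lemma rf_pos (h : InN ν) : 0 < rf ν := by have := rf_lo h; linarith

lemma αf_lo (h : InN ν) : (0.7158 : ℝ) ≤ αf ν := by
  have h1 := rf_lo h
  have h2 := h.cube_lo
  unfold αf
  calc (0.7158 : ℝ) ≤ 0.12274 * 5.832 := by norm_num
    _ ≤ rf ν * ν ^ 3 := by gcongr

lemma αf_hi (h : InN ν) : αf ν ≤ (0.7165 : ℝ) := by
  have h1 := rf_hi h
  have h2 := h.cube_hi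
  have h3 := rf_pos h
  have h4 : 0 < ν ^ 3 := by have := h.pos; positivity
  unfold αf
  calc rf ν * ν ^ 3 ≤ 0.12283 * 5.83298 := by gcongr
    _ ≤ (0.7165 : ℝ) := by norm_num

lemma αf_pos (h : InN ν) : 0 < αf ν := by have := αf_lo h; linarith

lemma s2f_sq (_h : InN ν) : s2f ν ^ 2 = (αf ν / 2) ^ 2 + (mf ν / 2) ^ 2 := by
  unfold s2f
  exact Real.sq_sqrt (by positivity)

lemma s2f_sq_lo (h : InN ν) : (1.1139 : ℝ) ≤ s2f ν ^ 2 := by
  rw [s2f_sq h]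
  have h1 := αf_lo h
  have h2 := mf_lo h
  calc (1.1139 : ℝ) ≤ (0.7158 / 2) ^ 2 + (1.9858 / 2) ^ 2 := by norm_num
    _ ≤ (αf ν / 2) ^ 2 + (mf ν / 2) ^ 2 := by gcongr

lemma s2f_sq_hi (h : InN ν) : s2f ν ^ 2 ≤ (1.1144 : ℝ) := by
  rw [s2f_sq h]
  have h1 := αf_hi h
  have h2 := mf_hi h
  have h3 := αf_pos h
  have h4 := mf_pos h
  calc (αf ν / 2) ^ 2 + (mf ν / 2) ^ 2 ≤ (0.7165 / 2) ^ 2 + (1.986 / 2) ^ 2 := by gcongr
    _ ≤ (1.1144 : ℝ) := by norm_num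

lemma s2f_nonneg : 0 ≤ s2f ν := Real.sqrt_nonneg _

lemma s2f_lo (h : InN ν) : (1.0554 : ℝ) ≤ s2f ν := by
  have h1 := s2f_sq_lo h
  refine (pow_le_pow_iff_left₀ (by norm_num) s2f_nonneg (n := 2) (by norm_num)).mp ?_
  norm_num at h1 ⊢
  linarith

lemma s2f_hi (h : InN ν) : s2f ν ≤ (1.0558 : ℝ) := by
  have h1 := s2f_sq_hi h
  refine (pow_le_pow_iff_left₀ s2f_nonneg (by norm_num) (n := 2) (by norm_num)).mp ?_
  norm_num at h1 ⊢
  linarith

lemma s2f_pos (h : InN ν) : 0 < s2f ν := by have := s2f_lo h; linarith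

end basics

/-- A ratio estimate used repeatedly below. -/
lemma ratio_lo {x y w Δ C c : ℝ} (hy : 0 < y) (hyC : y ≤ C) (hxy : Δ * w ≤ x * y) (hΔ : 0 < Δ)
    (hw : c * C ≤ w) (hc : 0 < c) : c * Δ ≤ x := by
  have hC : 0 < C := lt_of_lt_of_le hy hyC
  have hw0 : 0 < w := lt_of_lt_of_le (mul_pos hc hC) hw
  have hx : 0 < x := by
    have : 0 < x * y := lt_of_lt_of_le (mul_pos hΔ hw0) hxy
    exact (pos_iff_pos_of_mul_pos this).mpr hy
  have h1 : x * y ≤ x * C := mul_le_mul_of_nonneg_left hyC hx.le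
  have h2 : Δ * (c * C) ≤ Δ * w := mul_le_mul_of_nonneg_left hw hΔ.le
  have h3 : (c * Δ) * C ≤ x * C := by nlinarith
  exact le_of_mul_le_mul_right h3 hC

section lipschitz

variable {ν ν' : ℝ}

/-- The parameter differences of `βf`. -/
lemma βf_diff (h : InN ν) (h' : InN ν') (hlt : ν < ν') : 2.06 * (ν' - ν) ≤ βf ν - βf ν' := by
  have hb := βf_hi h
  have hb' := βf_hi h'
  have hs := βf_sq h
  have hs' := βf_sq h'
  have hl := βf_lo h
  have hl' := βf_lo h'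
  have e : (ν' - ν) * (ν' + ν) ≤ (βf ν - βf ν') * (βf ν + βf ν') := by
    have : (βf ν - βf ν') * (βf ν + βf ν') = βf ν ^ 2 - βf ν' ^ 2 := by ring
    rw [this, hs, hs']
    apply le_of_eq; ring
  refine ratio_lo (y := βf ν + βf ν') (w := ν' + ν) (C := 1.7436) (by linarith) (by linarith) e
    (by linarith) ?_ (by norm_num)
  have := h.1
  have := h'.1
  norm_num
  linarith

/-- The parameter differences of `mf`. -/
lemma mf_diff_lo (h : InN ν) (h' : InN ν') (hlt : ν < ν') : 0.82 * (ν' - ν) ≤ mf ν' - mf ν := by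
  have hc := mf_cube h
  have hc' := mf_cube h'
  have hp := mf_pos h
  have hp' := mf_pos h'
  have hi := mf_hi h
  have hi' := mf_hi h'
  have e : (ν' - ν) * (ν' ^ 2 + ν' * ν + ν ^ 2) ≤
      (mf ν' - mf ν) * (mf ν' ^ 2 + mf ν' * mf ν + mf ν ^ 2) := by
    apply le_of_eq
    have : (mf ν' - mf ν) * (mf ν' ^ 2 + mf ν' * mf ν + mf ν ^ 2) = mf ν' ^ 3 - mf ν ^ 3 := by ring
    rw [this, hc, hc']; ring
  have hy : mf ν' ^ 2 + mf ν' * mf ν + mf ν ^ 2 ≤ 11.8326 := by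
    calc mf ν' ^ 2 + mf ν' * mf ν + mf ν ^ 2 ≤ 1.986 ^ 2 + 1.986 * 1.986 + 1.986 ^ 2 := by gcongr
      _ ≤ 11.8326 := by norm_num
  refine ratio_lo (y := mf ν' ^ 2 + mf ν' * mf ν + mf ν ^ 2) (w := ν' ^ 2 + ν' * ν + ν ^ 2)
    (C := 11.8326) (by positivity) hy e (by linarith) ?_ (by norm_num)
  have h1 := h.sq_lo
  have h2 := h'.sq_lo
  have h3 : (9 / 5 : ℝ) * (9 / 5) ≤ ν' * ν := by
    have := h.1
    have := h'.1
    gcongr
  norm_num at h3 ⊢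
  linarith

/-- The difference of `ν m ^ 2`. -/
lemma hf_diff (h : InN ν) (h' : InN ν') (hlt : ν < ν') :
    9.8 * (ν' - ν) ≤ ν' * mf ν' ^ 2 - ν * mf ν ^ 2 := by
  have hm := mf_diff_lo h h' hlt
  have hl := mf_lo h
  have hl' := mf_lo h'
  have hν := h.1
  have e : ν' * mf ν' ^ 2 - ν * mf ν ^ 2
      = (ν' - ν) * mf ν' ^ 2 + ν * ((mf ν' - mf ν) * (mf ν' + mf ν)) := by ring
  rw [e]
  have hΔ : 0 < ν' - ν := by linarith
  have h1 : (ν' - ν) * (1.9858 : ℝ) ^ 2 ≤ (ν' - ν) * mf ν' ^ 2 := by gcongr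
  have h2 : (9 / 5 : ℝ) * ((0.82 * (ν' - ν)) * (1.9858 + 1.9858)) ≤
      ν * ((mf ν' - mf ν) * (mf ν' + mf ν)) := by
    have hp : 0 ≤ 0.82 * (ν' - ν) := by positivity
    have hq : 0 ≤ mf ν' - mf ν := le_trans hp hm
    gcongr
  have h3 : (9.8 : ℝ) * (ν' - ν) ≤ (ν' - ν) * (1.9858 : ℝ) ^ 2 +
      (9 / 5 : ℝ) * ((0.82 * (ν' - ν)) * (1.9858 + 1.9858)) := by
    norm_num
    nlinarith
  linarith

/-- The radius decreases with a definite slope. -/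
lemma rf_diff (h : InN ν) (h' : InN ν') (hlt : ν < ν') : 0.45 * (ν' - ν) ≤ rf ν - rf ν' := by
  have hβ := βf_diff h h' hlt
  have hh := hf_diff h h' hlt
  have hr := rf_lo h
  have e1 := rf_mul h
  have e2 := rf_mul h'
  have hΔ : 0 < ν' - ν := by linarith
  have hy := hf_hi h'
  have hy0 := hf_lo h'
  have e : (ν' - ν) * 3.26 ≤ (rf ν - rf ν') * (ν' * mf ν' ^ 2) := by
    have : (rf ν - rf ν') * (ν' * mf ν' ^ 2)
        = rf ν * (ν' * mf ν' ^ 2 - ν * mf ν ^ 2) + (rf ν * (ν * mf ν ^ 2) - rf ν' * (ν' * mf ν' ^ 2)) := by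
      ring
    rw [this, e1, e2]
    have h1 : 0.12274 * (9.8 * (ν' - ν)) ≤ rf ν * (ν' * mf ν' ^ 2 - ν * mf ν ^ 2) := by
      have hp : 0 ≤ 9.8 * (ν' - ν) := by positivity
      gcongr
    nlinarith
  exact ratio_lo (y := ν' * mf ν' ^ 2) (w := 3.26) (C := 7.1) (by linarith) hy e hΔ
    (by norm_num) (by norm_num)

lemma cube_diff_hi (h : InN ν) (h' : InN ν') (hlt : ν < ν') :
    ν' ^ 3 - ν ^ 3 ≤ 9.73 * (ν' - ν) := by
  have e : ν' ^ 3 - ν ^ 3 = (ν' - ν) * (ν' ^ 2 + ν' * ν + ν ^ 2) := by ring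
  rw [e]
  have h1 := h.sq_hi
  have h2 := h'.sq_hi
  have h3 : ν' * ν ≤ (18001 / 10000) * (18001 / 10000) := by
    have := h.2
    have := h'.2
    have := h.pos
    have := h'.pos
    gcongr
  have hΔ : 0 < ν' - ν := by linarith
  have h4 : ν' ^ 2 + ν' * ν + ν ^ 2 ≤ 9.73 := by
    norm_num at h3 ⊢
    linarith
  nlinarith

/-- The force is strictly decreasing in the parameter. -/
lemma αf_diff (h : InN ν) (h' : InN ν') (hlt : ν < ν') : ν' - ν ≤ αf ν - αf ν' := by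
  have hr := rf_diff h h' hlt
  have hc := cube_diff_hi h h' hlt
  have hΔ : 0 < ν' - ν := by linarith
  have hl := h.cube_lo
  have hr' := rf_hi h'
  have hr0 := rf_pos h'
  have e : αf ν - αf ν' = (rf ν - rf ν') * ν ^ 3 - rf ν' * (ν' ^ 3 - ν ^ 3) := by
    unfold αf; ring
  rw [e]
  have hp : 0 ≤ 0.45 * (ν' - ν) := by positivity
  have hq : 0 ≤ rf ν - rf ν' := le_trans hp hr
  have h1 : (0.45 * (ν' - ν)) * 5.832 ≤ (rf ν - rf ν') * ν ^ 3 := by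
    gcongr
  have hc0 : 0 ≤ ν' ^ 3 - ν ^ 3 := by
    have := pow_lt_pow_left₀ hlt h.pos.le (n := 3) (by norm_num)
    linarith
  have h2 : rf ν' * (ν' ^ 3 - ν ^ 3) ≤ 0.12283 * (9.73 * (ν' - ν)) := by
    gcongr
  nlinarith

end lipschitz

/-- The algebraic identity of the isosceles family. -/
lemma family_identity {ν : ℝ} (h : InN ν) :
    1 / 2 * ν ^ 3 * rf ν ^ 2 + s2f ν ^ 2 = (ν + 1 / 2) / mf ν := by
  have hm := mf_pos h
  have hν := h.pos
  have E2 := mf_cube h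
  have E1 : rf ν ^ 2 * ν ^ 2 * mf ν ^ 4 = 4 - ν ^ 2 := by
    have h1 := rf_mul h
    have h2 := βf_sq h
    rw [← h2, ← h1]; ring
  rw [s2f_sq h, eq_div_iff hm.ne']
  unfold αf
  linear_combination (ν / 4) * E1 + (1 / 4 - rf ν ^ 2 * ν ^ 3 * mf ν / 4) * E2

/-- The potential along the family, written through the isosceles cost. -/
lemma Ubar_eq {ν : ℝ} (h : InN ν) : Ubar ν = (2 * ν + 1) / mf ν + s2f ν ^ 2 := by
  have h1 := family_identity h
  have h2 : s2f ν ^ 2 = (ν + 1 / 2) / mf ν - 1 / 2 * ν ^ 3 * rf ν ^ 2 := by linarith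
  rw [h2]
  unfold Ubar Tf
  have hm := mf_pos h
  field_simp
  ring

/-- `s2f` has a definite positive slope. -/
lemma s2f_sq_diff {ν ν' : ℝ} (h : InN ν) (h' : InN ν') (hlt : ν < ν') :
    0.24 * (ν' - ν) ≤ s2f ν' ^ 2 - s2f ν ^ 2 := by
  have id1 := family_identity h
  have id2 := family_identity h'
  have hm := mf_pos h
  have hm' := mf_pos h'
  have hΔ : 0 < ν' - ν := by linarith
  have e : s2f ν' ^ 2 - s2f ν ^ 2 = ((ν' + 1 / 2) / mf ν' - (ν + 1 / 2) / mf ν)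
      + (1 / 2 * ν ^ 3 * rf ν ^ 2 - 1 / 2 * ν' ^ 3 * rf ν' ^ 2) := by linarith
  rw [e]
  -- the first bracket is nonnegative
  have hm_diff : mf ν' - mf ν ≤ 0.8218 * (ν' - ν) := by
    have hc := mf_cube h
    have hc' := mf_cube h'
    have hl := mf_lo h
    have hl' := mf_lo h'
    have e1 : (mf ν' - mf ν) * (mf ν' ^ 2 + mf ν' * mf ν + mf ν ^ 2) = (ν' - ν) * (ν' ^ 2 + ν' * ν + ν ^ 2) := by
      have : (mf ν' - mf ν) * (mf ν' ^ 2 + mf ν' * mf ν + mf ν ^ 2) = mf ν' ^ 3 - mf ν ^ 3 := by ring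
      rw [this, hc, hc']; ring
    have hA : (11.83 : ℝ) ≤ mf ν' ^ 2 + mf ν' * mf ν + mf ν ^ 2 := by
      calc (11.83 : ℝ) ≤ 1.9858 ^ 2 + 1.9858 * 1.9858 + 1.9858 ^ 2 := by norm_num
        _ ≤ _ := by gcongr
    have hB : ν' ^ 2 + ν' * ν + ν ^ 2 ≤ 9.7212 := by
      have h1 := h.sq_hi
      have h2 := h'.sq_hi
      have h3 : ν' * ν ≤ (18001 / 10000) * (18001 / 10000) := by
        have := h.2
        have := h'.2
        have := h.pos
        have := h'.pos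
        gcongr
      norm_num at h3 ⊢
      linarith
    have hpos : 0 < mf ν' - mf ν := by
      have := mf_diff_lo h h' hlt
      nlinarith
    have : (mf ν' - mf ν) * 11.83 ≤ (ν' - ν) * 9.7212 := by
      calc (mf ν' - mf ν) * 11.83 ≤ (mf ν' - mf ν) * (mf ν' ^ 2 + mf ν' * mf ν + mf ν ^ 2) := by gcongr
        _ = (ν' - ν) * (ν' ^ 2 + ν' * ν + ν ^ 2) := e1
        _ ≤ (ν' - ν) * 9.7212 := by gcongr
    nlinarith
  have hfirst : 0 ≤ (ν' + 1 / 2) / mf ν' - (ν + 1 / 2) / mf ν := by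
    have : (ν' + 1 / 2) / mf ν' - (ν + 1 / 2) / mf ν
        = ((ν' - ν) * mf ν - (ν + 1 / 2) * (mf ν' - mf ν)) / (mf ν' * mf ν) := by
      field_simp
      ring
    rw [this]
    apply div_nonneg _ (by positivity)
    have hl := mf_lo h
    have hν2 := h'.2
    have hν0 := h.pos
    have : (ν + 1 / 2) * (mf ν' - mf ν) ≤ (18001 / 10000 + 1 / 2) * (0.8218 * (ν' - ν)) := by
      have hp : 0 ≤ mf ν' - mf ν := by
        have := mf_diff_lo h h' hlt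
        nlinarith
      have hνle : ν ≤ 18001 / 10000 := h.2
      gcongr
    nlinarith
  -- the second bracket
  have hr := rf_diff h h' hlt
  have hrl := rf_lo h
  have hrl' := rf_lo h'
  have hrh := rf_hi h
  have hrh' := rf_hi h'
  have hc := cube_diff_hi h h' hlt
  have hcl := h'.cube_lo
  have hsq : (0.45 * (ν' - ν)) * (2 * 0.12274) ≤ rf ν ^ 2 - rf ν' ^ 2 := by
    have : rf ν ^ 2 - rf ν' ^ 2 = (rf ν - rf ν') * (rf ν + rf ν') := by ring
    rw [this]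
    have hp : 0 ≤ 0.45 * (ν' - ν) := by positivity
    have hq : 0 ≤ rf ν - rf ν' := le_trans hp hr
    have : (2 * 0.12274 : ℝ) ≤ rf ν + rf ν' := by linarith
    gcongr
  have hrsq : rf ν ^ 2 ≤ 0.0151 := by
    have h0 := rf_pos h
    calc rf ν ^ 2 ≤ 0.12283 ^ 2 := by gcongr
      _ ≤ 0.0151 := by norm_num
  have hsecond : 0.24 * (ν' - ν) ≤ 1 / 2 * ν ^ 3 * rf ν ^ 2 - 1 / 2 * ν' ^ 3 * rf ν' ^ 2 := by
    have e2 : 1 / 2 * ν ^ 3 * rf ν ^ 2 - 1 / 2 * ν' ^ 3 * rf ν' ^ 2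
        = 1 / 2 * ν' ^ 3 * (rf ν ^ 2 - rf ν' ^ 2) - 1 / 2 * rf ν ^ 2 * (ν' ^ 3 - ν ^ 3) := by ring
    rw [e2]
    have h1 : 1 / 2 * 5.832 * ((0.45 * (ν' - ν)) * (2 * 0.12274)) ≤ 1 / 2 * ν' ^ 3 * (rf ν ^ 2 - rf ν' ^ 2) := by
      have hp : 0 ≤ (0.45 * (ν' - ν)) * (2 * 0.12274) := by positivity
      gcongr
    have h2 : 1 / 2 * rf ν ^ 2 * (ν' ^ 3 - ν ^ 3) ≤ 1 / 2 * 0.0151 * (9.73 * (ν' - ν)) := by
      have hp : 0 ≤ ν' ^ 3 - ν ^ 3 := by
        have := pow_lt_pow_left₀ hlt h.pos.le (n := 3) (by norm_num)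
        linarith
      have hp2 : 0 ≤ 9.73 * (ν' - ν) := by positivity
      gcongr
    nlinarith
  linarith

/-- `s2f` is strictly increasing with a definite slope. -/
lemma s2f_diff {ν ν' : ℝ} (h : InN ν) (h' : InN ν') (hlt : ν < ν') :
    0.1 * (ν' - ν) ≤ s2f ν' - s2f ν := by
  have h1 := s2f_sq_diff h h' hlt
  have hΔ : 0 < ν' - ν := by linarith
  have e : (ν' - ν) * 0.24 ≤ (s2f ν' - s2f ν) * (s2f ν' + s2f ν) := by
    have : (s2f ν' - s2f ν) * (s2f ν' + s2f ν) = s2f ν' ^ 2 - s2f ν ^ 2 := by ring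
    rw [this]; linarith
  have := s2f_hi h
  have := s2f_hi h'
  have := s2f_lo h
  have := s2f_lo h'
  exact ratio_lo (y := s2f ν' + s2f ν) (w := 0.24) (C := 2.2) (by linarith) (by linarith) e hΔ
    (by norm_num) (by norm_num)

end Vale.Agent.Lib.P121
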