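import Mathlib
import Vale.Agent.Lib.P121.Params

/-!
The collinear family: an implicitly defined parameter function, with its enclosures.
-/

open Real Set

namespace Vale.Agent.Lib.P121

/-- Monotone inverse of a decreasing function on an interval, defined on the whole line. -/
noncomputable def invAnti (f : ℝ → ℝ) (a b t : ℝ) : ℝ :=
  sSup (insert a (Icc a b ∩ {x | t ≤ f x}))

lemma invAnti_antitone (f : ℝ → ℝ) {a b : ℝ} (hab : a ≤ b) : Antitone (invAnti f a b) := by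
  intro t t' htt
  unfold invAnti
  apply csSup_le_csSup
  · refine ⟨b, ?_⟩
    rintro x (rfl | ⟨hx, -⟩)
    · exact hab
    · exact hx.2
  · exact ⟨a, mem_insert _ _⟩
  · apply insert_subset_insert
    intro x hx
    exact ⟨hx.1, le_trans htt hx.2⟩

lemma invAnti_measurable (f : ℝ → ℝ) {a b : ℝ} (hab : a ≤ b) : Measurable (invAnti f a b) :=
  (invAnti_antitone f hab).measurable

lemma invAnti_apply {f : ℝ → ℝ} {a b x : ℝ} (hf : StrictAntiOn f (Icc a b)) (hx : x ∈ Icc a b) :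
    invAnti f a b (f x) = x := by
  unfold invAnti
  apply IsGreatest.csSup_eq
  refine ⟨Or.inr ⟨hx, by simp⟩, ?_⟩
  rintro y (rfl | ⟨hy, hfy⟩)
  · exact hx.1
  · by_contra hlt
    push Not at hlt
    have := hf hx hy hlt
    simp only [mem_setOf_eq] at hfy
    linarith

/-- The third distance as a function of the first, on the cone of constant force. -/
noncomputable def D3f (d : ℝ) : ℝ := 1 / √(9 / 8 - 1 / d ^ 2)

/-- The second distance as a function of the first. -/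
noncomputable def D2f (d : ℝ) : ℝ := D3f d - d

/-- The force on the inner shell as a function of the first distance. -/
noncomputable def Gf (d : ℝ) : ℝ := 1 / d ^ 2 - 1 / D2f d ^ 2

/-- Range of the first distance. -/
def InD (d : ℝ) : Prop := 0.9983 ≤ d ∧ d ≤ 0.9985

section
variable {d d' : ℝ}

lemma InD.pos (h : InD d) : 0 < d := by have := h.1; linarith

lemma InD.inv_lo (h : InD d) : (1.003004 : ℝ) ≤ 1 / d ^ 2 := by
  have h0 := h.pos
  rw [le_div_iff₀ (by positivity)]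
  calc (1.003004 : ℝ) * d ^ 2 ≤ 1.003004 * 0.9985 ^ 2 := by
        have := h.2
        gcongr
    _ ≤ 1 := by norm_num

lemma InD.inv_hi (h : InD d) : 1 / d ^ 2 ≤ (1.00341 : ℝ) := by
  have h0 := h.pos
  rw [div_le_iff₀ (by positivity)]
  calc (1 : ℝ) ≤ 1.00341 * 0.9983 ^ 2 := by norm_num
    _ ≤ 1.00341 * d ^ 2 := by
        have := h.1
        gcongr

lemma InD.rad_pos (h : InD d) : 0 < 9 / 8 - 1 / d ^ 2 := by
  have := h.inv_hi
  linarith

lemma D3f_sq (h : InD d) : D3f d ^ 2 = 1 / (9 / 8 - 1 / d ^ 2) := by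
  unfold D3f
  rw [div_pow, Real.sq_sqrt h.rad_pos.le, one_pow]

lemma D3f_pos (h : InD d) : 0 < D3f d := by
  unfold D3f
  exact div_pos one_pos (Real.sqrt_pos.mpr h.rad_pos)

lemma D3f_identity (h : InD d) : 1 / d ^ 2 + 1 / D3f d ^ 2 = 9 / 8 := by
  rw [D3f_sq h]
  have := h.rad_pos
  field_simp
  ring

lemma D3f_lo (h : InD d) : (2.863 : ℝ) ≤ D3f d := by
  have h1 := D3f_sq h
  have h2 := h.rad_pos
  have h3 := h.inv_lo
  refine (pow_le_pow_iff_left₀ (by norm_num) (D3f_pos h).le (n := 2) (by norm_num)).mp ?_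
  rw [h1, le_div_iff₀ h2]
  nlinarith

lemma D3f_hi (h : InD d) : D3f d ≤ (2.868 : ℝ) := by
  have h1 := D3f_sq h
  have h2 := h.rad_pos
  have h3 := h.inv_hi
  refine (pow_le_pow_iff_left₀ (D3f_pos h).le (by norm_num) (n := 2) (by norm_num)).mp ?_
  rw [h1, div_le_iff₀ h2]
  nlinarith

lemma D2f_lo (h : InD d) : (1.8645 : ℝ) ≤ D2f d := by
  have := D3f_lo h
  have := h.2
  unfold D2f
  norm_num at *
  linarith

lemma D2f_hi (h : InD d) : D2f d ≤ (1.8697 : ℝ) := by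
  have := D3f_hi h
  have := h.1
  unfold D2f
  norm_num at *
  linarith

lemma D2f_pos (h : InD d) : 0 < D2f d := by have := D2f_lo h; linarith

lemma D3f_anti (h : InD d) (_h' : InD d') (hlt : d < d') : D3f d' < D3f d := by
  have h0 := h.pos
  have hinv : 1 / d' ^ 2 < 1 / d ^ 2 := by
    apply one_div_lt_one_div_of_lt (by positivity)
    exact pow_lt_pow_left₀ hlt h0.le (by norm_num)
  have hs : √(9 / 8 - 1 / d ^ 2) < √(9 / 8 - 1 / d' ^ 2) :=
    Real.sqrt_lt_sqrt h.rad_pos.le (by linarith)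
  unfold D3f
  exact one_div_lt_one_div_of_lt (Real.sqrt_pos.mpr h.rad_pos) hs

lemma D2f_anti (h : InD d) (h' : InD d') (hlt : d < d') : D2f d' < D2f d := by
  have := D3f_anti h h' hlt
  unfold D2f
  linarith

lemma Gf_anti (h : InD d) (h' : InD d') (hlt : d < d') : Gf d' < Gf d := by
  have h0 := h.pos
  have hinv : 1 / d' ^ 2 < 1 / d ^ 2 := by
    apply one_div_lt_one_div_of_lt (by positivity)
    exact pow_lt_pow_left₀ hlt h0.le (by norm_num)
  have h2 := D2f_anti h h' hlt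
  have h2p := D2f_pos h'
  have hinv2 : 1 / D2f d ^ 2 < 1 / D2f d' ^ 2 := by
    apply one_div_lt_one_div_of_lt (by positivity)
    exact pow_lt_pow_left₀ h2 h2p.le (by norm_num)
  unfold Gf
  linarith

end

lemma InD_iff {d : ℝ} : InD d ↔ d ∈ Icc (0.9983 : ℝ) 0.9985 := Iff.rfl

lemma Gf_strictAntiOn : StrictAntiOn Gf (Icc (0.9983 : ℝ) 0.9985) := by
  intro d hd d' hd' hlt
  exact Gf_anti hd hd' hlt

lemma Gf_continuousOn : ContinuousOn Gf (Icc (0.9983 : ℝ) 0.9985) := by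
  have hne : ∀ d ∈ Icc (0.9983 : ℝ) 0.9985, d ^ 2 ≠ 0 := fun d hd =>
    pow_ne_zero 2 (InD.pos hd).ne'
  have h1 : ContinuousOn (fun d : ℝ => 1 / d ^ 2) (Icc (0.9983 : ℝ) 0.9985) :=
    continuousOn_const.div (continuousOn_id.pow 2) hne
  have h2 : ContinuousOn (fun d : ℝ => √(9 / 8 - 1 / d ^ 2)) (Icc (0.9983 : ℝ) 0.9985) :=
    (continuousOn_const.sub h1).sqrt
  have h3 : ContinuousOn D3f (Icc (0.9983 : ℝ) 0.9985) :=
    continuousOn_const.div h2 (fun d hd => (Real.sqrt_pos.mpr (InD.rad_pos hd)).ne')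
  have h4 : ContinuousOn D2f (Icc (0.9983 : ℝ) 0.9985) := h3.sub continuousOn_id
  exact h1.sub (continuousOn_const.div (h4.pow 2)
    (fun d hd => pow_ne_zero 2 (D2f_pos hd).ne'))

lemma Gf_left : (0.7165 : ℝ) ≤ Gf 0.9983 := by
  have hd : InD 0.9983 := ⟨le_refl _, by norm_num⟩
  have h1 := D3f_sq hd
  have h3 : (2.8677 : ℝ) ≤ D3f 0.9983 := by
    refine (pow_le_pow_iff_left₀ (by norm_num) (D3f_pos hd).le (n := 2) (by norm_num)).mp ?_
    rw [h1]
    norm_num
  have h4 : (1.8694 : ℝ) ≤ D2f 0.9983 := by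
    unfold D2f
    norm_num at h3 ⊢
    linarith
  unfold Gf
  have h5 : 1 / D2f 0.9983 ^ 2 ≤ 1 / 1.8694 ^ 2 := by
    apply one_div_le_one_div_of_le (by norm_num)
    gcongr
  have h6 : (0.7165 : ℝ) ≤ 1 / 0.9983 ^ 2 - 1 / 1.8694 ^ 2 := by norm_num
  linarith

lemma Gf_right : Gf 0.9985 ≤ (0.7158 : ℝ) := by
  have hd : InD 0.9985 := ⟨by norm_num, le_refl _⟩
  have h1 := D3f_sq hd
  have h3 : D3f 0.9985 ≤ (2.8631 : ℝ) := by
    refine (pow_le_pow_iff_left₀ (D3f_pos hd).le (by norm_num) (n := 2) (by norm_num)).mp ?_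
    rw [h1]
    norm_num
  have h4 : D2f 0.9985 ≤ (1.8646 : ℝ) := by
    unfold D2f
    norm_num at h3 ⊢
    linarith
  have h4p := D2f_pos hd
  unfold Gf
  have h5 : 1 / 1.8646 ^ 2 ≤ 1 / D2f 0.9985 ^ 2 := by
    apply one_div_le_one_div_of_le (by positivity)
    gcongr
  have h6 : 1 / 0.9985 ^ 2 - 1 / 1.8646 ^ 2 ≤ (0.7158 : ℝ) := by norm_num
  linarith

/-- The first distance of the collinear family. -/
noncomputable def dfun (ν : ℝ) : ℝ := invAnti Gf 0.9983 0.9985 (αf ν)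

lemma dfun_spec {ν : ℝ} (h : InN ν) : InD (dfun ν) ∧ Gf (dfun ν) = αf ν := by
  have hmem : αf ν ∈ Icc (Gf 0.9985) (Gf 0.9983) :=
    ⟨le_trans Gf_right (αf_lo h), le_trans (αf_hi h) Gf_left⟩
  obtain ⟨d, hd, hG⟩ := intermediate_value_Icc' (by norm_num) Gf_continuousOn hmem
  have : dfun ν = d := by
    unfold dfun
    rw [← hG]
    exact invAnti_apply Gf_strictAntiOn hd
  rw [this]
  exact ⟨hd, hG⟩

/-- The distances of the collinear family. -/
noncomputable def D2n (ν : ℝ) : ℝ := D2f (dfun ν)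
noncomputable def D3n (ν : ℝ) : ℝ := D3f (dfun ν)

/-- The radius of the first collinear partner. -/
noncomputable def s1f (ν : ℝ) : ℝ := dfun ν - rf ν
/-- The radius of the second collinear partner. -/
noncomputable def t1f (ν : ℝ) : ℝ := D2n ν + rf ν
/-- The cost of the collinear family. -/
noncomputable def cbar1 (ν : ℝ) : ℝ := 1 / dfun ν + 1 / D2n ν + 1 / D3n ν

section
variable {ν ν' : ℝ}

lemma dfun_lo (h : InN ν) : (0.9983 : ℝ) ≤ dfun ν := (dfun_spec h).1.1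
lemma dfun_hi (h : InN ν) : dfun ν ≤ (0.9985 : ℝ) := (dfun_spec h).1.2
lemma dfun_pos (h : InN ν) : 0 < dfun ν := (dfun_spec h).1.pos
lemma D2n_lo (h : InN ν) : (1.8645 : ℝ) ≤ D2n ν := D2f_lo (dfun_spec h).1
lemma D2n_hi (h : InN ν) : D2n ν ≤ (1.8697 : ℝ) := D2f_hi (dfun_spec h).1
lemma D2n_pos (h : InN ν) : 0 < D2n ν := D2f_pos (dfun_spec h).1
lemma D3n_lo (h : InN ν) : (2.863 : ℝ) ≤ D3n ν := D3f_lo (dfun_spec h).1
lemma D3n_hi (h : InN ν) : D3n ν ≤ (2.868 : ℝ) := D3f_hi (dfun_spec h).1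
lemma D3n_pos (h : InN ν) : 0 < D3n ν := D3f_pos (dfun_spec h).1

lemma D3n_eq : D3n ν = dfun ν + D2n ν := by
  unfold D3n D2n D2f; ring

lemma force_x (h : InN ν) : 1 / dfun ν ^ 2 - 1 / D2n ν ^ 2 = αf ν := (dfun_spec h).2

lemma force_y (h : InN ν) : 1 / dfun ν ^ 2 + 1 / D3n ν ^ 2 = 9 / 8 :=
  D3f_identity (dfun_spec h).1

lemma s1f_lo (h : InN ν) : (0.87547 : ℝ) ≤ s1f ν := by
  have := dfun_lo h
  have := rf_hi h
  unfold s1f
  norm_num at *
  linarith

lemma s1f_hi (h : InN ν) : s1f ν ≤ (0.87576 : ℝ) := by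
  have := dfun_hi h
  have := rf_lo h
  unfold s1f
  norm_num at *
  linarith

lemma t1f_lo (h : InN ν) : (1.98724 : ℝ) ≤ t1f ν := by
  have := D2n_lo h
  have := rf_lo h
  unfold t1f
  norm_num at *
  linarith

lemma t1f_hi (h : InN ν) : t1f ν ≤ (1.99253 : ℝ) := by
  have := D2n_hi h
  have := rf_hi h
  unfold t1f
  norm_num at *
  linarith

lemma s1f_pos (h : InN ν) : 0 < s1f ν := by have := s1f_lo h; linarith
lemma t1f_pos (h : InN ν) : 0 < t1f ν := by have := t1f_lo h; linarith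

lemma dfun_mono (h : InN ν) (h' : InN ν') (hlt : ν < ν') : dfun ν < dfun ν' := by
  by_contra hle
  push Not at hle
  have hα := αf_diff h h' hlt
  have e1 := (dfun_spec h).2
  have e2 := (dfun_spec h').2
  rcases eq_or_lt_of_le hle with heq | hlt2
  · rw [heq] at e2
    have : αf ν = αf ν' := by rw [← e1, ← e2]
    linarith
  · have := Gf_anti (dfun_spec h').1 (dfun_spec h).1 hlt2
    rw [e1, e2] at this
    linarith

lemma D2n_anti (h : InN ν) (h' : InN ν') (hlt : ν < ν') : D2n ν' < D2n ν :=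
  D2f_anti (dfun_spec h).1 (dfun_spec h').1 (dfun_mono h h' hlt)

lemma s1f_diff (h : InN ν) (h' : InN ν') (hlt : ν < ν') : 0.45 * (ν' - ν) ≤ s1f ν' - s1f ν := by
  have h1 := dfun_mono h h' hlt
  have h2 := rf_diff h h' hlt
  unfold s1f
  linarith

lemma t1f_diff (h : InN ν) (h' : InN ν') (hlt : ν < ν') : 0.45 * (ν' - ν) ≤ t1f ν - t1f ν' := by
  have h1 := D2n_anti h h' hlt
  have h2 := rf_diff h h' hlt
  unfold t1f
  linarith

end

end Vale.Agent.Lib.P121
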