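import Mathlib

/-!
Elementary inequalities for the Coulomb cost in a real inner product space.
-/

open scoped RealInnerProductSpace

namespace Vale.Agent.Lib.P121

variable {V : Type*} [NormedAddCommGroup V] [InnerProductSpace ℝ V]

/-- Quadratic lower bound for `1/d`, tangent at `d = 1/E`. -/
lemma inv_ge_quad {d E : ℝ} (hd : 0 < d) (hE : 0 < E) :
    3 / 2 * E - 1 / 2 * E ^ 3 * d ^ 2 ≤ 1 / d := by
  have h : 1 / d - (3 / 2 * E - 1 / 2 * E ^ 3 * d ^ 2) = (E * d - 1) ^ 2 * (E * d + 2) / (2 * d) := by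
    field_simp
    ring
  have h2 : 0 ≤ (E * d - 1) ^ 2 * (E * d + 2) / (2 * d) := by positivity
  linarith

/-- Tangent line lower bound for `1/d`. -/
lemma inv_ge_tangent {d D : ℝ} (hd : 0 < d) (hD : 0 < D) :
    2 / D - d / D ^ 2 ≤ 1 / d := by
  have h : 1 / d - (2 / D - d / D ^ 2) = (d - D) ^ 2 / (d * D ^ 2) := by
    field_simp
    ring
  have h2 : 0 ≤ (d - D) ^ 2 / (d * D ^ 2) := by positivity
  linarith

/-- Equality case of the tangent line bound. -/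
lemma inv_tangent_eq {d D : ℝ} (hd : 0 < d) (hD : 0 < D) (h : 1 / d ≤ 2 / D - d / D ^ 2) :
    d = D := by
  have h1 : 1 / d - (2 / D - d / D ^ 2) = (d - D) ^ 2 / (d * D ^ 2) := by
    field_simp
    ring
  have h2 : (d - D) ^ 2 / (d * D ^ 2) ≤ 0 := by linarith
  have h3 : 0 < d * D ^ 2 := by positivity
  have h4 : (d - D) ^ 2 ≤ 0 := by
    by_contra hne
    push Not at hne
    have : 0 < (d - D) ^ 2 / (d * D ^ 2) := div_pos hne h3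
    linarith
  nlinarith [sq_nonneg (d - D)]

lemma norm_sq_three (a b c : ℝ) (x y z : V) :
    ‖a • x + b • y + c • z‖ ^ 2 = a ^ 2 * ‖x‖ ^ 2 + b ^ 2 * ‖y‖ ^ 2 + c ^ 2 * ‖z‖ ^ 2
      + 2 * (a * b) * ⟪x, y⟫ + 2 * (a * c) * ⟪x, z⟫ + 2 * (b * c) * ⟪y, z⟫ := by
  rw [← real_inner_self_eq_norm_sq]
  simp only [inner_add_left, inner_add_right, inner_smul_left, inner_smul_right,
    real_inner_self_eq_norm_sq, conj_trivial]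
  rw [real_inner_comm x y, real_inner_comm x z, real_inner_comm y z]
  ring

/-- Lagrange identity in inequality form. -/
lemma lagrange_le (A₁ A₂ A₃ : ℝ) (x y z : V) :
    A₁ * A₂ * ‖x - y‖ ^ 2 + A₁ * A₃ * ‖x - z‖ ^ 2 + A₂ * A₃ * ‖y - z‖ ^ 2
      ≤ (A₁ + A₂ + A₃) * (A₁ * ‖x‖ ^ 2 + A₂ * ‖y‖ ^ 2 + A₃ * ‖z‖ ^ 2) := by
  have h := sq_nonneg ‖A₁ • x + A₂ • y + A₃ • z‖
  rw [norm_sq_three] at h
  rw [norm_sub_sq_real x y, norm_sub_sq_real x z, norm_sub_sq_real y z]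
  nlinarith

/-- General lower bound obtained from the quadratic bounds and the Lagrange identity. -/
lemma lagrange_bound {x y z : V} (hxy : x ≠ y) (hxz : x ≠ z) (hyz : y ≠ z)
    {A₁ A₂ A₃ S E₁ E₂ E₃ : ℝ} (hS : S = A₁ + A₂ + A₃) (hSpos : 0 < S)
    (hE₁ : 0 < E₁) (hE₂ : 0 < E₂) (hE₃ : 0 < E₃)
    (h₁ : E₁ ^ 3 * S = A₁ * A₂) (h₂ : E₂ ^ 3 * S = A₁ * A₃) (h₃ : E₃ ^ 3 * S = A₂ * A₃) :
    3 / 2 * (E₁ + E₂ + E₃) - 1 / 2 * (A₁ * ‖x‖ ^ 2 + A₂ * ‖y‖ ^ 2 + A₃ * ‖z‖ ^ 2)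
      ≤ 1 / ‖x - y‖ + 1 / ‖x - z‖ + 1 / ‖y - z‖ := by
  have d₁ : 0 < ‖x - y‖ := norm_pos_iff.mpr (sub_ne_zero.mpr hxy)
  have d₂ : 0 < ‖x - z‖ := norm_pos_iff.mpr (sub_ne_zero.mpr hxz)
  have d₃ : 0 < ‖y - z‖ := norm_pos_iff.mpr (sub_ne_zero.mpr hyz)
  have b₁ := inv_ge_quad d₁ hE₁
  have b₂ := inv_ge_quad d₂ hE₂
  have b₃ := inv_ge_quad d₃ hE₃
  have hl := lagrange_le A₁ A₂ A₃ x y z
  rw [← hS, ← h₁, ← h₂, ← h₃] at hl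
  have hl2 : E₁ ^ 3 * ‖x - y‖ ^ 2 + E₂ ^ 3 * ‖x - z‖ ^ 2 + E₃ ^ 3 * ‖y - z‖ ^ 2
      ≤ A₁ * ‖x‖ ^ 2 + A₂ * ‖y‖ ^ 2 + A₃ * ‖z‖ ^ 2 := by
    have : S * (E₁ ^ 3 * ‖x - y‖ ^ 2 + E₂ ^ 3 * ‖x - z‖ ^ 2 + E₃ ^ 3 * ‖y - z‖ ^ 2)
        ≤ S * (A₁ * ‖x‖ ^ 2 + A₂ * ‖y‖ ^ 2 + A₃ * ‖z‖ ^ 2) := by
      nlinarith
    exact le_of_mul_le_mul_left this hSpos
  linarith

/-- The trap inequality for the isosceles family. -/
lemma trap_bound {x y z : V} (hxy : x ≠ y) (hxz : x ≠ z) (hyz : y ≠ z)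
    {ν m : ℝ} (hν : 0 < ν) (hm : 0 < m) (hmc : m ^ 3 = ν ^ 3 + 2) :
    3 / 2 * ((2 * ν + 1) / m) - 1 / 2 * ν ^ 3 * ‖x‖ ^ 2 - 1 / 2 * ‖y‖ ^ 2 - 1 / 2 * ‖z‖ ^ 2
      ≤ 1 / ‖x - y‖ + 1 / ‖x - z‖ + 1 / ‖y - z‖ := by
  have key := lagrange_bound (x := x) (y := y) (z := z) hxy hxz hyz
    (A₁ := ν ^ 3) (A₂ := 1) (A₃ := 1) (S := m ^ 3) (E₁ := ν / m) (E₂ := ν / m) (E₃ := 1 / m)
    (by rw [hmc]; ring) (by positivity) (by positivity) (by positivity) (by positivity)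
    (by field_simp) (by field_simp) (by field_simp)
  have e : ν / m + ν / m + 1 / m = (2 * ν + 1) / m := by ring
  rw [e] at key
  linarith

/-- The collinear lemma: the key estimate, with the common notation. -/
lemma collinear_key (x y z : V) {r s t : ℝ} (hx : ‖x‖ = r) (hy : ‖y‖ = s) (hz : ‖z‖ = t)
    (hr : 0 < r) (hs : 0 < s) (ht : 0 < t) :
    s * (2 * r * t - 2 * ⟪x, z⟫)
      ≤ (t * (r + s) ^ 3 + r * (s + t) ^ 3) *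
        ((2 * r * s + 2 * ⟪x, y⟫) / (r + s) ^ 3 + (2 * s * t + 2 * ⟪y, z⟫) / (s + t) ^ 3) := by
  set G₁ := 2 * r * s + 2 * ⟪x, y⟫ with hG₁
  set G₂ := 2 * r * t - 2 * ⟪x, z⟫ with hG₂
  set G₃ := 2 * s * t + 2 * ⟪y, z⟫ with hG₃
  set D₁ := r + s with hD₁
  set D₃ := s + t with hD₃
  have hD₁p : 0 < D₁ := by positivity
  have hD₃p : 0 < D₃ := by positivity
  set B := s • x + r • y with hB
  set C := t • y + s • z with hC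
  set A := t • x - r • z with hA
  have hBn : ‖B‖ ^ 2 = r * s * G₁ := by
    have := norm_add_sq_real (s • x) (r • y)
    rw [hB, this, norm_smul, norm_smul, inner_smul_left, inner_smul_right, hx, hy,
      Real.norm_of_nonneg hs.le, Real.norm_of_nonneg hr.le]
    simp only [conj_trivial]
    rw [hG₁]; ring
  have hCn : ‖C‖ ^ 2 = s * t * G₃ := by
    have := norm_add_sq_real (t • y) (s • z)
    rw [hC, this, norm_smul, norm_smul, inner_smul_left, inner_smul_right, hy, hz,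
      Real.norm_of_nonneg hs.le, Real.norm_of_nonneg ht.le]
    simp only [conj_trivial]
    rw [hG₃]; ring
  have hAn : ‖A‖ ^ 2 = r * t * G₂ := by
    have := norm_sub_sq_real (t • x) (r • z)
    rw [hA, this, norm_smul, norm_smul, inner_smul_left, inner_smul_right, hx, hz,
      Real.norm_of_nonneg hr.le, Real.norm_of_nonneg ht.le]
    simp only [conj_trivial]
    rw [hG₂]; ring
  have hsA : s • A = t • B - r • C := by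
    rw [hA, hB, hC]
    module
  have hnorm : s * ‖A‖ ≤ t * ‖B‖ + r * ‖C‖ := by
    have h1 : ‖s • A‖ = s * ‖A‖ := by rw [norm_smul, Real.norm_of_nonneg hs.le]
    rw [← h1, hsA]
    calc ‖t • B - r • C‖ ≤ ‖t • B‖ + ‖r • C‖ := norm_sub_le _ _
      _ = t * ‖B‖ + r * ‖C‖ := by
        rw [norm_smul, norm_smul, Real.norm_of_nonneg ht.le, Real.norm_of_nonneg hr.le]
  have hsq : s ^ 2 * ‖A‖ ^ 2 ≤ (t * ‖B‖ + r * ‖C‖) ^ 2 := by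
    have : 0 ≤ s * ‖A‖ := by positivity
    nlinarith
  set P := ‖B‖ with hP
  set Q := ‖C‖ with hQ
  set ρ := D₁ ^ 3 / D₃ ^ 3 with hρ
  have hρp : 0 < ρ := by positivity
  have hcs : (t * P + r * Q) ^ 2 ≤ (t * D₁ ^ 3 + r * D₃ ^ 3) * (t * P ^ 2 / D₁ ^ 3 + r * Q ^ 2 / D₃ ^ 3) := by
    have e : (t * D₁ ^ 3 + r * D₃ ^ 3) * (t * P ^ 2 / D₁ ^ 3 + r * Q ^ 2 / D₃ ^ 3)
        - (t * P + r * Q) ^ 2 = t * r * (ρ * Q - P) ^ 2 / ρ := by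
      rw [hρ]
      field_simp
      ring
    have h2 : 0 ≤ t * r * (ρ * Q - P) ^ 2 / ρ := by positivity
    linarith
  have hfin : s ^ 2 * (r * t * G₂) ≤
      (t * D₁ ^ 3 + r * D₃ ^ 3) * (t * (r * s * G₁) / D₁ ^ 3 + r * (s * t * G₃) / D₃ ^ 3) := by
    rw [← hAn, ← hBn, ← hCn]
    exact hsq.trans hcs
  have hpos : 0 < r * s * t := by positivity
  have e2 : (t * D₁ ^ 3 + r * D₃ ^ 3) * (t * (r * s * G₁) / D₁ ^ 3 + r * (s * t * G₃) / D₃ ^ 3)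
      = (r * s * t) * ((t * D₁ ^ 3 + r * D₃ ^ 3) * (G₁ / D₁ ^ 3 + G₃ / D₃ ^ 3)) := by
    field_simp
  have e3 : s ^ 2 * (r * t * G₂) = (r * s * t) * (s * G₂) := by ring
  rw [e2, e3] at hfin
  exact le_of_mul_le_mul_left hfin hpos

/-- The purely numerical part of the collinear bound. -/
lemma collinear_real {d₁ d₂ d₃ D₁ D₂ D₃ G₁ G₂ G₃ s L : ℝ}
    (hd₁ : 0 < d₁) (hd₂ : 0 < d₂) (hd₃ : 0 < d₃) (hD₁ : 0 < D₁) (hD₂ : 0 < D₂) (hD₃ : 0 < D₃)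
    (hs : 0 < s) (sq₁ : d₁ ^ 2 = D₁ ^ 2 - G₁) (sq₂ : d₂ ^ 2 = D₂ ^ 2 + G₂)
    (sq₃ : d₃ ^ 2 = D₃ ^ 2 - G₃) (hG₁ : 0 ≤ G₁) (hG₃ : 0 ≤ G₃)
    (key : s * G₂ ≤ L * (G₁ / D₁ ^ 3 + G₃ / D₃ ^ 3)) (hL : L < s * D₂ ^ 3) :
    1 / D₁ + 1 / D₂ + 1 / D₃ ≤ 1 / d₁ + 1 / d₂ + 1 / d₃ ∧
    (1 / d₁ + 1 / d₂ + 1 / d₃ ≤ 1 / D₁ + 1 / D₂ + 1 / D₃ → G₁ = 0 ∧ G₃ = 0) := by
  have b₁ := inv_ge_quad hd₁ (E := 1 / D₁) (by positivity)
  have b₂ := inv_ge_quad hd₂ (E := 1 / D₂) (by positivity)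
  have b₃ := inv_ge_quad hd₃ (E := 1 / D₃) (by positivity)
  rw [sq₁] at b₁
  rw [sq₂] at b₂
  rw [sq₃] at b₃
  have e₁ : 3 / 2 * (1 / D₁) - 1 / 2 * (1 / D₁) ^ 3 * (D₁ ^ 2 - G₁)
      = 1 / D₁ + 1 / 2 * (G₁ / D₁ ^ 3) := by
    field_simp; ring
  have e₂ : 3 / 2 * (1 / D₂) - 1 / 2 * (1 / D₂) ^ 3 * (D₂ ^ 2 + G₂)
      = 1 / D₂ - 1 / 2 * (G₂ / D₂ ^ 3) := by
    field_simp; ring
  have e₃ : 3 / 2 * (1 / D₃) - 1 / 2 * (1 / D₃) ^ 3 * (D₃ ^ 2 - G₃)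
      = 1 / D₃ + 1 / 2 * (G₃ / D₃ ^ 3) := by
    field_simp; ring
  rw [e₁] at b₁
  rw [e₂] at b₂
  rw [e₃] at b₃
  have hΦn₁ : 0 ≤ G₁ / D₁ ^ 3 := by positivity
  have hΦn₃ : 0 ≤ G₃ / D₃ ^ 3 := by positivity
  have hD₂c : 0 < D₂ ^ 3 := by positivity
  have hcmp : G₂ / D₂ ^ 3 ≤ G₁ / D₁ ^ 3 + G₃ / D₃ ^ 3 := by
    rw [div_le_iff₀ hD₂c]
    have h1 : s * G₂ ≤ s * ((G₁ / D₁ ^ 3 + G₃ / D₃ ^ 3) * D₂ ^ 3) := by
      calc s * G₂ ≤ L * (G₁ / D₁ ^ 3 + G₃ / D₃ ^ 3) := key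
        _ ≤ (s * D₂ ^ 3) * (G₁ / D₁ ^ 3 + G₃ / D₃ ^ 3) :=
          mul_le_mul_of_nonneg_right hL.le (add_nonneg hΦn₁ hΦn₃)
        _ = s * ((G₁ / D₁ ^ 3 + G₃ / D₃ ^ 3) * D₂ ^ 3) := by ring
    exact le_of_mul_le_mul_left h1 hs
  refine ⟨by linarith, ?_⟩
  intro hle
  have hΦ0 : G₁ / D₁ ^ 3 + G₃ / D₃ ^ 3 = 0 := by
    by_contra hne
    have hΦp : 0 < G₁ / D₁ ^ 3 + G₃ / D₃ ^ 3 :=
      lt_of_le_of_ne (add_nonneg hΦn₁ hΦn₃) (Ne.symm hne)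
    have hstr : G₂ / D₂ ^ 3 < G₁ / D₁ ^ 3 + G₃ / D₃ ^ 3 := by
      rw [div_lt_iff₀ hD₂c]
      have h1 : s * G₂ < s * ((G₁ / D₁ ^ 3 + G₃ / D₃ ^ 3) * D₂ ^ 3) := by
        calc s * G₂ ≤ L * (G₁ / D₁ ^ 3 + G₃ / D₃ ^ 3) := key
          _ < (s * D₂ ^ 3) * (G₁ / D₁ ^ 3 + G₃ / D₃ ^ 3) := mul_lt_mul_of_pos_right hL hΦp
          _ = s * ((G₁ / D₁ ^ 3 + G₃ / D₃ ^ 3) * D₂ ^ 3) := by ring
      exact lt_of_mul_lt_mul_left h1 hs.le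
    linarith
  have h₁0 : G₁ / D₁ ^ 3 = 0 := by linarith
  have h₃0 : G₃ / D₃ ^ 3 = 0 := by linarith
  constructor
  · rcases div_eq_zero_iff.mp h₁0 with h | h
    · exact h
    · exact absurd h (pow_ne_zero 3 hD₁.ne')
  · rcases div_eq_zero_iff.mp h₃0 with h | h
    · exact h
    · exact absurd h (pow_ne_zero 3 hD₃.ne')

/-- When `2 r s + 2 ⟪x,y⟫ = 0` with `|x| = r`, `|y| = s`, the two vectors are antiparallel. -/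
lemma smul_add_eq_zero_of {x y : V} {r s : ℝ} (hx : ‖x‖ = r) (hy : ‖y‖ = s)
    (hr : 0 < r) (hs : 0 < s) (hG : 2 * r * s + 2 * ⟪x, y⟫ = 0) : s • x + r • y = 0 := by
  have := norm_add_sq_real (s • x) (r • y)
  rw [norm_smul, norm_smul, inner_smul_left, inner_smul_right, hx, hy,
    Real.norm_of_nonneg hs.le, Real.norm_of_nonneg hr.le] at this
  simp only [conj_trivial] at this
  have h0 : ‖s • x + r • y‖ ^ 2 = 0 := by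
    rw [this]
    have e : ⟪x, y⟫ = - (r * s) := by linarith
    rw [e]; ring
  exact norm_eq_zero.mp (pow_eq_zero_iff (by norm_num) |>.mp h0)

/-- The collinear lower bound with its equality case. -/
lemma collinear_bound {x y z : V} {r s t : ℝ} (hx : ‖x‖ = r) (hy : ‖y‖ = s) (hz : ‖z‖ = t)
    (hr : 0 < r) (hs : 0 < s) (hrt : r < t) (hxy : x ≠ y) (hxz : x ≠ z) (hyz : y ≠ z)
    (hstar : t * (r + s) ^ 3 + r * (s + t) ^ 3 < s * (t - r) ^ 3) :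
    1 / (r + s) + 1 / (t - r) + 1 / (s + t) ≤ 1 / ‖x - y‖ + 1 / ‖x - z‖ + 1 / ‖y - z‖ ∧
    (1 / ‖x - y‖ + 1 / ‖x - z‖ + 1 / ‖y - z‖ ≤ 1 / (r + s) + 1 / (t - r) + 1 / (s + t) →
      s • x + r • y = 0 ∧ t • y + s • z = 0) := by
  have ht : 0 < t := hr.trans hrt
  have d₁ : 0 < ‖x - y‖ := norm_pos_iff.mpr (sub_ne_zero.mpr hxy)
  have d₂ : 0 < ‖x - z‖ := norm_pos_iff.mpr (sub_ne_zero.mpr hxz)
  have d₃ : 0 < ‖y - z‖ := norm_pos_iff.mpr (sub_ne_zero.mpr hyz)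
  have hD₁ : 0 < r + s := by positivity
  have hD₂ : 0 < t - r := by linarith
  have hD₃ : 0 < s + t := by positivity
  have key := collinear_key x y z hx hy hz hr hs ht
  have sq₁ : ‖x - y‖ ^ 2 = (r + s) ^ 2 - (2 * r * s + 2 * ⟪x, y⟫) := by
    rw [norm_sub_sq_real, hx, hy]; ring
  have sq₂ : ‖x - z‖ ^ 2 = (t - r) ^ 2 + (2 * r * t - 2 * ⟪x, z⟫) := by
    rw [norm_sub_sq_real, hx, hz]; ring
  have sq₃ : ‖y - z‖ ^ 2 = (s + t) ^ 2 - (2 * s * t + 2 * ⟪y, z⟫) := by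
    rw [norm_sub_sq_real, hy, hz]; ring
  have hG₁n : 0 ≤ 2 * r * s + 2 * ⟪x, y⟫ := by
    have h2 := abs_real_inner_le_norm x y
    rw [hx, hy] at h2
    have := (abs_le.mp h2).1
    linarith
  have hG₃n : 0 ≤ 2 * s * t + 2 * ⟪y, z⟫ := by
    have h2 := abs_real_inner_le_norm y z
    rw [hy, hz] at h2
    have := (abs_le.mp h2).1
    linarith
  obtain ⟨h1, h2⟩ := collinear_real d₁ d₂ d₃ hD₁ hD₂ hD₃ hs sq₁ sq₂ sq₃ hG₁n hG₃n key hstar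
  refine ⟨h1, fun hle => ?_⟩
  obtain ⟨g1, g3⟩ := h2 hle
  exact ⟨smul_add_eq_zero_of hx hy hr hs g1, smul_add_eq_zero_of hy hz hs ht g3 |> fun h => by
    simpa using h⟩

end Vale.Agent.Lib.P121
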