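import Mathlib
import Vale.Agent.Lib.P121.Ineq
import Vale.Agent.Lib.P121.Family1

/-!
The radial dual potential and the pointwise dual inequality, with its equality cases.
-/

open Real Set
open scoped RealInnerProductSpace

namespace Vale.Agent.Lib.P121

variable {V : Type*} [NormedAddCommGroup V] [InnerProductSpace ℝ V]

/-- The Coulomb cost as a real number, for distinct points. -/
noncomputable def cr (x y z : V) : ℝ := 1 / ‖x - y‖ + 1 / ‖x - z‖ + 1 / ‖y - z‖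

omit [InnerProductSpace ℝ V] in
lemma cr_swap (x y z : V) : cr x z y = cr x y z := by
  unfold cr
  rw [norm_sub_rev z y]
  ring

omit [InnerProductSpace ℝ V] in
lemma cr_rot (x y z : V) : cr y x z = cr x y z := by
  unfold cr
  rw [norm_sub_rev y x]
  ring

omit [InnerProductSpace ℝ V] in
lemma cr_nonneg (x y z : V) : 0 ≤ cr x y z := by
  unfold cr
  positivity

lemma norm_sq_orth {n f : V} (hn : ‖n‖ = 1) (hf : ‖f‖ = 1) (hnf : ⟪n, f⟫ = 0) (a b : ℝ) :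
    ‖a • n + b • f‖ ^ 2 = a ^ 2 + b ^ 2 := by
  rw [norm_add_sq_real, norm_smul, norm_smul, inner_smul_left, inner_smul_right, hnf, hn, hf]
  simp

section config

variable {ν : ℝ} {n f : V}

lemma config_key (h : InN ν) :
    ((rf ν + αf ν / 2) ^ 2 + (mf ν / 2) ^ 2) = (mf ν / ν) ^ 2 := by
  have hν := h.pos
  have E2 := mf_cube h
  have E1 : rf ν ^ 2 * ν ^ 2 * mf ν ^ 4 = 4 - ν ^ 2 := by
    have h1 := rf_mul h
    have h2 := βf_sq h
    rw [← h2, ← h1]; ring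
  have e : rf ν + αf ν / 2 = rf ν * mf ν ^ 3 / 2 := by
    rw [E2]; unfold αf; ring
  have e2 : (mf ν / ν) ^ 2 = mf ν ^ 2 / ν ^ 2 := div_pow _ _ _
  rw [e, e2, eq_div_iff (by positivity)]
  linear_combination (mf ν ^ 2 / 4) * E1

lemma config2 (hn : ‖n‖ = 1) (hf : ‖f‖ = 1) (hnf : ⟪n, f⟫ = 0) (h : InN ν) :
    ‖rf ν • n‖ = rf ν ∧
    ‖(-(αf ν / 2)) • n + (mf ν / 2) • f‖ = s2f ν ∧
    ‖(-(αf ν / 2)) • n + (-(mf ν / 2)) • f‖ = s2f ν ∧
    ‖rf ν • n - ((-(αf ν / 2)) • n + (mf ν / 2) • f)‖ = mf ν / ν ∧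
    ‖rf ν • n - ((-(αf ν / 2)) • n + (-(mf ν / 2)) • f)‖ = mf ν / ν ∧
    ‖((-(αf ν / 2)) • n + (mf ν / 2) • f) - ((-(αf ν / 2)) • n + (-(mf ν / 2)) • f)‖ = mf ν := by
  have hν := h.pos
  have hm := mf_pos h
  have hr := rf_pos h
  have hs := s2f_pos h
  have hsq := s2f_sq h
  have key := config_key h
  refine ⟨?_, ?_, ?_, ?_, ?_, ?_⟩
  · rw [norm_smul, hn, Real.norm_of_nonneg hr.le, mul_one]
  · refine (pow_left_inj₀ (norm_nonneg _) hs.le two_ne_zero).mp ?_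
    rw [norm_sq_orth hn hf hnf, hsq]; ring
  · refine (pow_left_inj₀ (norm_nonneg _) hs.le two_ne_zero).mp ?_
    rw [norm_sq_orth hn hf hnf, hsq]; ring
  · refine (pow_left_inj₀ (norm_nonneg _) (by positivity) two_ne_zero).mp ?_
    have e : rf ν • n - ((-(αf ν / 2)) • n + (mf ν / 2) • f)
        = (rf ν + αf ν / 2) • n + (-(mf ν / 2)) • f := by module
    rw [e, norm_sq_orth hn hf hnf, ← key]; ring
  · refine (pow_left_inj₀ (norm_nonneg _) (by positivity) two_ne_zero).mp ?_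
    have e : rf ν • n - ((-(αf ν / 2)) • n + (-(mf ν / 2)) • f)
        = (rf ν + αf ν / 2) • n + (mf ν / 2) • f := by module
    rw [e, norm_sq_orth hn hf hnf, ← key]
  · have e : ((-(αf ν / 2)) • n + (mf ν / 2) • f) - ((-(αf ν / 2)) • n + (-(mf ν / 2)) • f)
        = mf ν • f := by module
    rw [e, norm_smul, hf, Real.norm_of_nonneg hm.le, mul_one]

/-- The isosceles configuration has the cost computed from the family. -/
lemma config_cost (hn : ‖n‖ = 1) (hf : ‖f‖ = 1) (hnf : ⟪n, f⟫ = 0) (h : InN ν) :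
    cr (rf ν • n) ((-(αf ν / 2)) • n + (mf ν / 2) • f) ((-(αf ν / 2)) • n + (-(mf ν / 2)) • f)
      = (2 * ν + 1) / mf ν := by
  obtain ⟨-, -, -, h4, h5, h6⟩ := config2 hn hf hnf h
  unfold cr
  rw [h4, h5, h6]
  have hν := h.pos
  have hm := mf_pos h
  field_simp
  ring

lemma config_ne (hn : ‖n‖ = 1) (hf : ‖f‖ = 1) (hnf : ⟪n, f⟫ = 0) (h : InN ν) :
    rf ν • n ≠ (-(αf ν / 2)) • n + (mf ν / 2) • f ∧
    rf ν • n ≠ (-(αf ν / 2)) • n + (-(mf ν / 2)) • f ∧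
    (-(αf ν / 2)) • n + (mf ν / 2) • f ≠ (-(αf ν / 2)) • n + (-(mf ν / 2)) • f := by
  obtain ⟨-, -, -, h4, h5, h6⟩ := config2 hn hf hnf h
  have hν := h.pos
  have hm := mf_pos h
  refine ⟨?_, ?_, ?_⟩
  · intro e
    rw [e, sub_self, norm_zero] at h4
    have : 0 < mf ν / ν := by positivity
    linarith
  · intro e
    rw [e, sub_self, norm_zero] at h5
    have : 0 < mf ν / ν := by positivity
    linarith
  · intro e
    rw [e, sub_self, norm_zero] at h6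
    linarith

end config

/-- Envelope property: the potential along the family dominates all the affine functions. -/
lemma Tf_le_Ubar {ν ν₀ : ℝ} (h : InN ν) (h₀ : InN ν₀) : Tf ν (rf ν₀ ^ 2) ≤ Ubar ν₀ := by
  let n : EuclideanSpace ℝ (Fin 2) := EuclideanSpace.single 0 1
  let f : EuclideanSpace ℝ (Fin 2) := EuclideanSpace.single 1 1
  have hn : ‖n‖ = 1 := by simp [n]
  have hf : ‖f‖ = 1 := by simp [f]
  have hnf : ⟪n, f⟫ = 0 := by simp [n, f, EuclideanSpace.inner_single_left]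
  obtain ⟨h1, h2, h3, -, -, -⟩ := config2 hn hf hnf h₀
  obtain ⟨n1, n2, n3⟩ := config_ne hn hf hnf h₀
  have key := trap_bound n1 n2 n3 h.pos (mf_pos h) (mf_cube h)
  have hc := config_cost hn hf hnf h₀
  unfold cr at hc
  rw [hc, h1, h2, h3] at key
  rw [Ubar_eq h₀]
  unfold Tf
  linarith

/-- Concavity of the inner potential as a function of the radius. -/
lemma U_tangent {ν₁ ν₃ : ℝ} (h₁ : InN ν₁) (h₃ : InN ν₃) :
    Ubar ν₁ - Ubar ν₃ ≤ - αf ν₃ * (rf ν₁ - rf ν₃) := by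
  have henv := Tf_le_Ubar h₁ h₃
  have e1 : Ubar ν₁ - Tf ν₁ (rf ν₃ ^ 2) = 1 / 2 * ν₁ ^ 3 * (rf ν₃ ^ 2 - rf ν₁ ^ 2) := by
    unfold Ubar Tf; ring
  have main : 1 / 2 * ν₁ ^ 3 * (rf ν₃ ^ 2 - rf ν₁ ^ 2) ≤ - αf ν₃ * (rf ν₁ - rf ν₃) := by
    unfold αf
    rcases lt_trichotomy ν₁ ν₃ with hlt | heq | hgt
    · -- `ν₁ < ν₃`, so `rf ν₁ > rf ν₃`
      have hd := rf_diff h₁ h₃ hlt
      have hc := cube_diff_hi h₁ h₃ hlt
      have hΔ : 0 < ν₃ - ν₁ := by linarith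
      have hρ : 0 < rf ν₁ - rf ν₃ := lt_of_lt_of_le (by positivity) hd
      have hcl := h₁.cube_lo
      have hr := rf_hi h₃
      have hr0 := rf_pos h₃
      have hfac : 2 * rf ν₃ * ν₃ ^ 3 ≤ ν₁ ^ 3 * (rf ν₃ + rf ν₁) := by
        have h1 : ν₁ ^ 3 * (rf ν₁ - rf ν₃) ≥ 5.832 * (0.45 * (ν₃ - ν₁)) := by
          have hp : 0 ≤ 0.45 * (ν₃ - ν₁) := by positivity
          gcongr
        have h2 : 2 * rf ν₃ * (ν₃ ^ 3 - ν₁ ^ 3) ≤ 2 * 0.12283 * (9.73 * (ν₃ - ν₁)) := by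
          have hp : 0 ≤ ν₃ ^ 3 - ν₁ ^ 3 := by
            have := pow_lt_pow_left₀ hlt h₁.pos.le (n := 3) (by norm_num)
            linarith
          have hp2 : 0 ≤ 9.73 * (ν₃ - ν₁) := by positivity
          gcongr
        nlinarith
      have e : - (rf ν₃ * ν₃ ^ 3) * (rf ν₁ - rf ν₃) - 1 / 2 * ν₁ ^ 3 * (rf ν₃ ^ 2 - rf ν₁ ^ 2)
          = (rf ν₁ - rf ν₃) * (1 / 2 * (ν₁ ^ 3 * (rf ν₃ + rf ν₁) - 2 * rf ν₃ * ν₃ ^ 3)) := by ring
      have : 0 ≤ (rf ν₁ - rf ν₃) * (1 / 2 * (ν₁ ^ 3 * (rf ν₃ + rf ν₁) - 2 * rf ν₃ * ν₃ ^ 3)) := by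
        apply mul_nonneg hρ.le
        linarith
      linarith
    · subst heq
      simp
    · -- `ν₃ < ν₁`, so `rf ν₃ > rf ν₁`
      have hd := rf_diff h₃ h₁ hgt
      have hc := cube_diff_hi h₃ h₁ hgt
      have hΔ : 0 < ν₁ - ν₃ := by linarith
      have hρ : 0 < rf ν₃ - rf ν₁ := lt_of_lt_of_le (by positivity) hd
      have hcl := h₁.cube_lo
      have hr := rf_hi h₃
      have hr0 := rf_pos h₃
      have hfac : ν₁ ^ 3 * (rf ν₃ + rf ν₁) ≤ 2 * rf ν₃ * ν₃ ^ 3 := by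
        have h1 : ν₁ ^ 3 * (rf ν₃ - rf ν₁) ≥ 5.832 * (0.45 * (ν₁ - ν₃)) := by
          have hp : 0 ≤ 0.45 * (ν₁ - ν₃) := by positivity
          gcongr
        have h2 : 2 * rf ν₃ * (ν₁ ^ 3 - ν₃ ^ 3) ≤ 2 * 0.12283 * (9.73 * (ν₁ - ν₃)) := by
          have hp : 0 ≤ ν₁ ^ 3 - ν₃ ^ 3 := by
            have := pow_lt_pow_left₀ hgt h₃.pos.le (n := 3) (by norm_num)
            linarith
          have hp2 : 0 ≤ 9.73 * (ν₁ - ν₃) := by positivity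
          gcongr
        nlinarith
      have e : - (rf ν₃ * ν₃ ^ 3) * (rf ν₁ - rf ν₃) - 1 / 2 * ν₁ ^ 3 * (rf ν₃ ^ 2 - rf ν₁ ^ 2)
          = (rf ν₃ - rf ν₁) * (1 / 2 * (2 * rf ν₃ * ν₃ ^ 3 - ν₁ ^ 3 * (rf ν₃ + rf ν₁))) := by ring
      have : 0 ≤ (rf ν₃ - rf ν₁) * (1 / 2 * (2 * rf ν₃ * ν₃ ^ 3 - ν₁ ^ 3 * (rf ν₃ + rf ν₁))) := by
        apply mul_nonneg hρ.le
        linarith
      linarith
  linarith

/-- The parameter interval as a set. -/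
def NN : Set ℝ := Icc (9 / 5 : ℝ) (18001 / 10000)

lemma rf_strictAntiOn : StrictAntiOn rf NN := by
  intro a ha b hb hlt
  have := rf_diff ha hb hlt
  have h2 : 0 < b - a := by linarith
  nlinarith

lemma t1f_strictAntiOn : StrictAntiOn t1f NN := by
  intro a ha b hb hlt
  have := t1f_diff ha hb hlt
  have h2 : 0 < b - a := by linarith
  nlinarith

lemma s1f_strictMonoOn : StrictMonoOn s1f NN := by
  intro a ha b hb hlt
  have := s1f_diff ha hb hlt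
  have h2 : 0 < b - a := by linarith
  nlinarith

lemma s2f_strictMonoOn : StrictMonoOn s2f NN := by
  intro a ha b hb hlt
  have := s2f_diff ha hb hlt
  have h2 : 0 < b - a := by linarith
  nlinarith

/-- The set of radii of each shell. -/
def RX : Set ℝ := rf '' NN
def RS1 : Set ℝ := s1f '' NN
def RT1 : Set ℝ := t1f '' NN
def RS2 : Set ℝ := s2f '' NN

/-- The potential on the second collinear partner. -/
noncomputable def Ξf (ν : ℝ) : ℝ := cbar1 ν - Ubar ν + 7 / 10 - 973 / 1000 + 9 / 8 * s1f ν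

open Classical in
/-- The radial dual potential. -/
noncomputable def uf (ρ : ℝ) : ℝ :=
  if ρ ∈ RX then Ubar (invAnti rf (9 / 5) (18001 / 10000) ρ) - 7 / 10
  else if ρ ∈ RS1 then 973 / 1000 - 9 / 8 * ρ
  else if ρ ∈ RT1 then Ξf (invAnti t1f (9 / 5) (18001 / 10000) ρ)
  else if ρ ∈ RS2 then - (1 / 2) * ρ ^ 2 + 7 / 20
  else 0

section eval

variable {ν ν' : ℝ}


lemma uf_r (h : InN ν) : uf (rf ν) = Ubar ν - 7 / 10 := by
  unfold uf
  rw [if_pos ⟨ν, h, rfl⟩, invAnti_apply rf_strictAntiOn h]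

lemma uf_s1 (h : InN ν) : uf (s1f ν) = 973 / 1000 - 9 / 8 * s1f ν := by
  have h1 : s1f ν ∉ RX := by
    rintro ⟨a, ha, e⟩
    have h1 := rf_hi ha
    have h2 := s1f_lo h
    norm_num at *
    linarith
  unfold uf
  rw [if_neg h1, if_pos ⟨ν, h, rfl⟩]

lemma uf_t1 (h : InN ν) : uf (t1f ν) = Ξf ν := by
  have h1 : t1f ν ∉ RX := by
    rintro ⟨a, ha, e⟩
    have h1 := rf_hi ha
    have h2 := t1f_lo h
    norm_num at *
    linarith
  have h2 : t1f ν ∉ RS1 := by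
    rintro ⟨a, ha, e⟩
    have h1 := s1f_hi ha
    have h2 := t1f_lo h
    norm_num at *
    linarith
  unfold uf
  rw [if_neg h1, if_neg h2, if_pos ⟨ν, h, rfl⟩, invAnti_apply t1f_strictAntiOn h]

lemma uf_s2 (h : InN ν) : uf (s2f ν) = - (1 / 2) * s2f ν ^ 2 + 7 / 20 := by
  have h1 : s2f ν ∉ RX := by
    rintro ⟨a, ha, e⟩
    have h1 := rf_hi ha
    have h2 := s2f_lo h
    norm_num at *
    linarith
  have h2 : s2f ν ∉ RS1 := by
    rintro ⟨a, ha, e⟩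
    have h1 := s1f_hi ha
    have h2 := s2f_lo h
    norm_num at *
    linarith
  have h3 : s2f ν ∉ RT1 := by
    rintro ⟨a, ha, e⟩
    have h1 := t1f_lo ha
    have h2 := s2f_hi h
    norm_num at *
    linarith
  unfold uf
  rw [if_neg h1, if_neg h2, if_neg h3, if_pos ⟨ν, h, rfl⟩]

lemma Ubar_lo (h : InN ν) : (3.4303 : ℝ) ≤ Ubar ν := by
  have hm := mf_pos h
  have h1 := mf_hi h
  have h2 := rf_hi h
  have h3 := rf_pos h
  have h4 := h.cube_hi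
  have h5 : 0 < ν ^ 3 := by have := h.pos; positivity
  have h6 := h.1
  unfold Ubar Tf
  have a1 : (2 * (9 / 5) + 1) / 1.986 ≤ (2 * ν + 1) / mf ν := by gcongr
  have a2 : ν ^ 3 * rf ν ^ 2 ≤ 5.83298 * 0.12283 ^ 2 := by gcongr
  norm_num at a1 a2 ⊢
  linarith

lemma Ubar_hi (h : InN ν) : Ubar ν ≤ (3.4309 : ℝ) := by
  have hm := mf_lo h
  have h2 := rf_lo h
  have h4 := h.cube_lo
  have h6 := h.2
  have h7 := h.pos
  unfold Ubar Tf
  have a1 : (2 * ν + 1) / mf ν ≤ (2 * (18001 / 10000) + 1) / 1.9858 := by gcongr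
  have a2 : 5.832 * 0.12274 ^ 2 ≤ ν ^ 3 * rf ν ^ 2 := by gcongr
  norm_num at a1 a2 ⊢
  linarith

lemma cbar1_hi (h : InN ν) : cbar1 ν ≤ (1.88733 : ℝ) := by
  have h1 := dfun_lo h
  have h2 := D2n_lo h
  have h3 := D3n_lo h
  unfold cbar1
  have a1 : 1 / dfun ν ≤ 1 / 0.9983 := by
    apply one_div_le_one_div_of_le (by norm_num) h1
  have a2 : 1 / D2n ν ≤ 1 / 1.8645 := by
    apply one_div_le_one_div_of_le (by norm_num) h2
  have a3 : 1 / D3n ν ≤ 1 / 2.863 := by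
    apply one_div_le_one_div_of_le (by norm_num) h3
  norm_num at a1 a2 a3 ⊢
  linarith

lemma cbar1_lo (h : InN ν) : (1.885 : ℝ) ≤ cbar1 ν := by
  have h1 := dfun_hi h
  have h2 := D2n_hi h
  have h3 := D3n_hi h
  have p1 := dfun_pos h
  have p2 := D2n_pos h
  have p3 := D3n_pos h
  unfold cbar1
  have a1 : 1 / 0.9985 ≤ 1 / dfun ν := by
    apply one_div_le_one_div_of_le p1 h1
  have a2 : 1 / 1.8697 ≤ 1 / D2n ν := by
    apply one_div_le_one_div_of_le p2 h2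
  have a3 : 1 / 2.868 ≤ 1 / D3n ν := by
    apply one_div_le_one_div_of_le p3 h3
  norm_num at a1 a2 a3 ⊢
  linarith

lemma Ξf_hi (h : InN ν) : Ξf ν ≤ (-0.8307 : ℝ) := by
  have h1 := cbar1_hi h
  have h2 := Ubar_lo h
  have h3 := s1f_hi h
  unfold Ξf
  norm_num at *
  linarith

lemma Ξf_lo (h : InN ν) : (-0.84 : ℝ) ≤ Ξf ν := by
  have h1 := cbar1_lo h
  have h2 := Ubar_hi h
  have h3 := s1f_lo h
  unfold Ξf
  norm_num at *
  linarith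

end eval

/-- Numerical information on the shells. -/
lemma RX_bound {ρ : ℝ} (h : ρ ∈ RX) :
    (0.12274 : ℝ) ≤ ρ ∧ ρ ≤ 0.12283 ∧ uf ρ ≤ 2.7309 ∧ -1 ≤ uf ρ ∧ uf ρ ≤ 3 := by
  obtain ⟨ν, hν, rfl⟩ := h
  have h1 := Ubar_hi hν
  have h2 := Ubar_lo hν
  refine ⟨rf_lo hν, rf_hi hν, ?_, ?_, ?_⟩ <;> rw [uf_r hν] <;> norm_num at * <;> linarith

lemma RS1_bound {ρ : ℝ} (h : ρ ∈ RS1) :
    (0.87547 : ℝ) ≤ ρ ∧ ρ ≤ 0.87576 ∧ uf ρ ≤ -0.0119 ∧ -1 ≤ uf ρ ∧ uf ρ ≤ 3 := by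
  obtain ⟨ν, hν, rfl⟩ := h
  have h1 := s1f_hi hν
  have h2 := s1f_lo hν
  refine ⟨h2, h1, ?_, ?_, ?_⟩ <;> rw [uf_s1 hν] <;> norm_num at * <;> linarith

lemma RT1_bound {ρ : ℝ} (h : ρ ∈ RT1) :
    (1.98724 : ℝ) ≤ ρ ∧ ρ ≤ 1.99253 ∧ uf ρ ≤ -0.8307 ∧ -1 ≤ uf ρ ∧ uf ρ ≤ 3 := by
  obtain ⟨ν, hν, rfl⟩ := h
  have h1 := Ξf_hi hν
  have h2 := Ξf_lo hν
  refine ⟨t1f_lo hν, t1f_hi hν, ?_, ?_, ?_⟩ <;> rw [uf_t1 hν] <;> norm_num at * <;> linarith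

lemma RS2_bound {ρ : ℝ} (h : ρ ∈ RS2) :
    (1.0554 : ℝ) ≤ ρ ∧ ρ ≤ 1.0558 ∧ uf ρ ≤ -0.2069 ∧ -1 ≤ uf ρ ∧ uf ρ ≤ 3 := by
  obtain ⟨ν, hν, rfl⟩ := h
  have h1 := s2f_sq_lo hν
  have h2 := s2f_sq_hi hν
  refine ⟨s2f_lo hν, s2f_hi hν, ?_, ?_, ?_⟩ <;> rw [uf_s2 hν] <;> norm_num at * <;> linarith

end Vale.Agent.Lib.P121
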