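import Mathlib
import Vale.Agent.Lib.P121.Potential

/-!
The pointwise dual inequality between the Coulomb cost and the radial potential on the four shells,
and its equality cases.
-/

open Real Set
open scoped RealInnerProductSpace

namespace Vale.Agent.Lib.P121

variable {V : Type*} [NormedAddCommGroup V] [InnerProductSpace ℝ V]

/-- Lower bound for the cost from explicit rational weights. -/
lemma cross_num {x y z : V} (hxy : x ≠ y) (hxz : x ≠ z) (hyz : y ≠ z)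
    {e₁ e₂ e₃ R₁ R₂ R₃ : ℝ} (he₁ : 0 < e₁) (he₂ : 0 < e₂) (he₃ : 0 < e₃)
    (hx : ‖x‖ ≤ R₁) (hy : ‖y‖ ≤ R₂) (hz : ‖z‖ ≤ R₃) :
    3 / 2 * (e₁ * e₂ + e₁ * e₃ + e₂ * e₃)
      - 1 / 2 * ((e₁ ^ 3 + e₂ ^ 3 + e₃ ^ 3) * (e₁ ^ 3 * R₁ ^ 2 + e₂ ^ 3 * R₂ ^ 2 + e₃ ^ 3 * R₃ ^ 2))
      ≤ cr x y z := by
  set Z := e₁ ^ 3 + e₂ ^ 3 + e₃ ^ 3 with hZ
  have hZp : 0 < Z := by positivity
  have key := lagrange_bound (x := x) (y := y) (z := z) hxy hxz hyz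
    (A₁ := Z * e₁ ^ 3) (A₂ := Z * e₂ ^ 3) (A₃ := Z * e₃ ^ 3) (S := Z ^ 2)
    (E₁ := e₁ * e₂) (E₂ := e₁ * e₃) (E₃ := e₂ * e₃)
    (by rw [hZ]; ring) (by positivity) (by positivity) (by positivity) (by positivity)
    (by ring) (by ring) (by ring)
  have h1 : ‖x‖ ^ 2 ≤ R₁ ^ 2 := pow_le_pow_left₀ (norm_nonneg _) hx 2
  have h2 : ‖y‖ ^ 2 ≤ R₂ ^ 2 := pow_le_pow_left₀ (norm_nonneg _) hy 2
  have h3 : ‖z‖ ^ 2 ≤ R₃ ^ 2 := pow_le_pow_left₀ (norm_nonneg _) hz 2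
  have h4 : Z * e₁ ^ 3 * ‖x‖ ^ 2 + Z * e₂ ^ 3 * ‖y‖ ^ 2 + Z * e₃ ^ 3 * ‖z‖ ^ 2
      ≤ Z * (e₁ ^ 3 * R₁ ^ 2 + e₂ ^ 3 * R₂ ^ 2 + e₃ ^ 3 * R₃ ^ 2) := by
    have a1 : Z * e₁ ^ 3 * ‖x‖ ^ 2 ≤ Z * e₁ ^ 3 * R₁ ^ 2 :=
      mul_le_mul_of_nonneg_left h1 (by positivity)
    have a2 : Z * e₂ ^ 3 * ‖y‖ ^ 2 ≤ Z * e₂ ^ 3 * R₂ ^ 2 :=
      mul_le_mul_of_nonneg_left h2 (by positivity)
    have a3 : Z * e₃ ^ 3 * ‖z‖ ^ 2 ≤ Z * e₃ ^ 3 * R₃ ^ 2 :=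
      mul_le_mul_of_nonneg_left h3 (by positivity)
    linarith
  unfold cr
  linarith

omit [InnerProductSpace ℝ V] in
/-- Two points close to the origin have a large interaction. -/
lemma two_close {x y z : V} (hxy : x ≠ y) (hxz : x ≠ z) (hyz : y ≠ z) {R Ro : ℝ}
    (hx : ‖x‖ ≤ R) (hy : ‖y‖ ≤ R) (hz : ‖z‖ ≤ Ro) :
    1 / (2 * R) + 1 / (R + Ro) + 1 / (R + Ro) ≤ cr x y z := by
  have d₁ : 0 < ‖x - y‖ := norm_pos_iff.mpr (sub_ne_zero.mpr hxy)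
  have d₂ : 0 < ‖x - z‖ := norm_pos_iff.mpr (sub_ne_zero.mpr hxz)
  have d₃ : 0 < ‖y - z‖ := norm_pos_iff.mpr (sub_ne_zero.mpr hyz)
  have a₁ : ‖x - y‖ ≤ 2 * R := by
    have := norm_sub_le x y
    linarith
  have a₂ : ‖x - z‖ ≤ R + Ro := by
    have := norm_sub_le x z
    linarith
  have a₃ : ‖y - z‖ ≤ R + Ro := by
    have := norm_sub_le y z
    linarith
  unfold cr
  have b₁ := one_div_le_one_div_of_le d₁ a₁
  have b₂ := one_div_le_one_div_of_le d₂ a₂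
  have b₃ := one_div_le_one_div_of_le d₃ a₃
  linarith

/-- Purely algebraic identity behind the tangent line estimate. -/
lemma tangent_identity {D₁ D₂ r₃ r s : ℝ} (hD₁ : D₁ ≠ 0) (hD₂ : D₂ ≠ 0) (hD₃ : D₁ + D₂ ≠ 0) :
    2 / D₁ - (r + s) / D₁ ^ 2 + (2 / D₂ - ((D₂ + r₃) - r) / D₂ ^ 2)
      + (2 / (D₁ + D₂) - (s + (D₂ + r₃)) / (D₁ + D₂) ^ 2)
    = 1 / D₁ + 1 / D₂ + 1 / (D₁ + D₂) - (1 / D₁ ^ 2 - 1 / D₂ ^ 2) * (r - r₃)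
      - (1 / D₁ ^ 2 + 1 / (D₁ + D₂) ^ 2) * (s - (D₁ - r₃)) := by
  field_simp
  ring

section coll

variable {x y z : V} {ν₁ ν₂ ν₃ : ℝ}

/-- The inequality of the collinear type, with its equality case. -/
lemma coll_main (h₁ : InN ν₁) (h₂ : InN ν₂) (h₃ : InN ν₃) (hx : ‖x‖ = rf ν₁) (hy : ‖y‖ = s1f ν₂)
    (hz : ‖z‖ = t1f ν₃) (hxy : x ≠ y) (hxz : x ≠ z) (hyz : y ≠ z) :
    uf ‖x‖ + uf ‖y‖ + uf ‖z‖ ≤ cr x y z ∧
    (cr x y z ≤ uf ‖x‖ + uf ‖y‖ + uf ‖z‖ →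
      ν₂ = ν₁ ∧ ν₃ = ν₁ ∧ s1f ν₁ • x + rf ν₁ • y = 0 ∧ t1f ν₁ • y + s1f ν₁ • z = 0) := by
  have hr0 := rf_pos h₁
  have hs0 := s1f_pos h₂
  have ht0 := t1f_pos h₃
  have rl := rf_lo h₁
  have rh := rf_hi h₁
  have sl := s1f_lo h₂
  have sh := s1f_hi h₂
  have tl := t1f_lo h₃
  have th := t1f_hi h₃
  have hrt : rf ν₁ < t1f ν₃ := by norm_num at *; linarith
  have hstar : t1f ν₃ * (rf ν₁ + s1f ν₂) ^ 3 + rf ν₁ * (s1f ν₂ + t1f ν₃) ^ 3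
      < s1f ν₂ * (t1f ν₃ - rf ν₁) ^ 3 := by
    have a1 : t1f ν₃ * (rf ν₁ + s1f ν₂) ^ 3 + rf ν₁ * (s1f ν₂ + t1f ν₃) ^ 3
        ≤ 1.99253 * (0.12283 + 0.87576) ^ 3 + 0.12283 * (0.87576 + 1.99253) ^ 3 := by
      gcongr
    have a2 : 0.87547 * (1.98724 - 0.12283) ^ 3 ≤ s1f ν₂ * (t1f ν₃ - rf ν₁) ^ 3 := by
      have hp : (0 : ℝ) ≤ 1.98724 - 0.12283 := by norm_num
      gcongr
    have a3 : (1.99253 * (0.12283 + 0.87576) ^ 3 + 0.12283 * (0.87576 + 1.99253) ^ 3 : ℝ)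
        < 0.87547 * (1.98724 - 0.12283) ^ 3 := by norm_num
    linarith
  obtain ⟨hc1, hc2⟩ := collinear_bound hx hy hz hr0 hs0 hrt hxy hxz hyz hstar
  have hD₁ := dfun_pos h₃
  have hD₂ := D2n_pos h₃
  have hD₃ := D3n_pos h₃
  have hD₃e : D3n ν₃ = dfun ν₃ + D2n ν₃ := D3n_eq
  have hp1 : 0 < rf ν₁ + s1f ν₂ := by positivity
  have hp2 : 0 < t1f ν₃ - rf ν₁ := by linarith
  have hp3 : 0 < s1f ν₂ + t1f ν₃ := by positivity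
  have t1 := inv_ge_tangent hp1 hD₁
  have t2 := inv_ge_tangent hp2 hD₂
  have t3 := inv_ge_tangent hp3 hD₃
  have hid := tangent_identity (D₁ := dfun ν₃) (D₂ := D2n ν₃) (r₃ := rf ν₃) (r := rf ν₁)
    (s := s1f ν₂) hD₁.ne' hD₂.ne' (by rw [← hD₃e]; exact hD₃.ne')
  have ht1 : t1f ν₃ = D2n ν₃ + rf ν₃ := rfl
  have hs3 : s1f ν₃ = dfun ν₃ - rf ν₃ := rfl
  have hfx := force_x h₃
  have hfy := force_y h₃
  rw [← hD₃e, hfx, hfy, ← ht1, ← hs3] at hid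
  have hU := U_tangent h₁ h₃
  have hsum : uf ‖x‖ + uf ‖y‖ + uf ‖z‖
      = Ubar ν₁ - Ubar ν₃ + cbar1 ν₃ - 9 / 8 * (s1f ν₂ - s1f ν₃) := by
    rw [hx, hy, hz, uf_r h₁, uf_s1 h₂, uf_t1 h₃]
    unfold Ξf
    ring
  have hcb : cbar1 ν₃ = 1 / dfun ν₃ + 1 / D2n ν₃ + 1 / D3n ν₃ := rfl
  have hcr : cr x y z = 1 / ‖x - y‖ + 1 / ‖x - z‖ + 1 / ‖y - z‖ := rfl
  rw [hsum]
  refine ⟨by linarith, ?_⟩
  intro hle
  have hle2 : 1 / ‖x - y‖ + 1 / ‖x - z‖ + 1 / ‖y - z‖ ≤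
      1 / (rf ν₁ + s1f ν₂) + 1 / (t1f ν₃ - rf ν₁) + 1 / (s1f ν₂ + t1f ν₃) := by
    linarith
  obtain ⟨v1, v2⟩ := hc2 hle2
  have e1 : rf ν₁ + s1f ν₂ = dfun ν₃ := by
    refine inv_tangent_eq hp1 hD₁ ?_
    linarith
  have e2 : t1f ν₃ - rf ν₁ = D2n ν₃ := by
    refine inv_tangent_eq hp2 hD₂ ?_
    linarith
  have e3 : rf ν₁ = rf ν₃ := by linarith
  have e4 : ν₁ = ν₃ := rf_strictAntiOn.injOn h₁ h₃ e3
  have e5 : s1f ν₂ = s1f ν₃ := by linarith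
  have e6 : ν₂ = ν₃ := s1f_strictMonoOn.injOn h₂ h₃ e5
  subst e4
  subst e6
  exact ⟨rfl, rfl, v1, v2⟩

/-- The inequality of the isosceles type. -/
lemma trap_main (h₁ : InN ν₁) (hx : ‖x‖ = rf ν₁) (hy : ‖y‖ ∈ RS2) (hz : ‖z‖ ∈ RS2)
    (hxy : x ≠ y) (hxz : x ≠ z) (hyz : y ≠ z) : uf ‖x‖ + uf ‖y‖ + uf ‖z‖ ≤ cr x y z := by
  have key := trap_bound hxy hxz hyz h₁.pos (mf_pos h₁) (mf_cube h₁)
  obtain ⟨a, ha, ea⟩ := hy
  obtain ⟨b, hb, eb⟩ := hz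
  have hu : uf ‖y‖ = - (1 / 2) * ‖y‖ ^ 2 + 7 / 20 := by rw [← ea, uf_s2 ha]
  have hv : uf ‖z‖ = - (1 / 2) * ‖z‖ ^ 2 + 7 / 20 := by rw [← eb, uf_s2 hb]
  rw [hu, hv, hx, uf_r h₁]
  rw [hx] at key
  unfold cr
  unfold Ubar Tf
  linarith

lemma strict_S1S1 (hx : ‖x‖ ∈ RX) (hy : ‖y‖ ∈ RS1) (hz : ‖z‖ ∈ RS1)
    (hxy : x ≠ y) (hxz : x ≠ z) (hyz : y ≠ z) : uf ‖x‖ + uf ‖y‖ + uf ‖z‖ < cr x y z := by
  obtain ⟨-, a1, a2, -, -⟩ := RX_bound hx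
  obtain ⟨-, b1, b2, -, -⟩ := RS1_bound hy
  obtain ⟨-, c1, c2, -, -⟩ := RS1_bound hz
  have key := cross_num hxy hxz hyz (e₁ := 1.37) (e₂ := 0.785) (e₃ := 0.785) (by norm_num)
    (by norm_num) (by norm_num) a1 b1 c1
  norm_num at key a2 b2 c2
  linarith

lemma strict_S1S2 (hx : ‖x‖ ∈ RX) (hy : ‖y‖ ∈ RS1) (hz : ‖z‖ ∈ RS2)
    (hxy : x ≠ y) (hxz : x ≠ z) (hyz : y ≠ z) : uf ‖x‖ + uf ‖y‖ + uf ‖z‖ < cr x y z := by
  obtain ⟨-, a1, a2, -, -⟩ := RX_bound hx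
  obtain ⟨-, b1, b2, -, -⟩ := RS1_bound hy
  obtain ⟨-, c1, c2, -, -⟩ := RS2_bound hz
  have key := cross_num hxy hxz hyz (e₁ := 1.33) (e₂ := 0.79) (e₃ := 0.70) (by norm_num)
    (by norm_num) (by norm_num) a1 b1 c1
  norm_num at key a2 b2 c2
  linarith

lemma strict_T1T1 (hx : ‖x‖ ∈ RX) (hy : ‖y‖ ∈ RT1) (hz : ‖z‖ ∈ RT1)
    (hxy : x ≠ y) (hxz : x ≠ z) (hyz : y ≠ z) : uf ‖x‖ + uf ‖y‖ + uf ‖z‖ < cr x y z := by
  obtain ⟨-, a1, a2, -, -⟩ := RX_bound hx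
  obtain ⟨-, b1, b2, -, -⟩ := RT1_bound hy
  obtain ⟨-, c1, c2, -, -⟩ := RT1_bound hz
  have key := cross_num hxy hxz hyz (e₁ := 0.975) (e₂ := 0.507) (e₃ := 0.507) (by norm_num)
    (by norm_num) (by norm_num) a1 b1 c1
  norm_num at key a2 b2 c2
  linarith

lemma strict_T1S2 (hx : ‖x‖ ∈ RX) (hy : ‖y‖ ∈ RT1) (hz : ‖z‖ ∈ RS2)
    (hxy : x ≠ y) (hxz : x ≠ z) (hyz : y ≠ z) : uf ‖x‖ + uf ‖y‖ + uf ‖z‖ < cr x y z := by
  obtain ⟨-, a1, a2, -, -⟩ := RX_bound hx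
  obtain ⟨-, b1, b2, -, -⟩ := RT1_bound hy
  obtain ⟨-, c1, c2, -, -⟩ := RS2_bound hz
  have key := cross_num hxy hxz hyz (e₁ := 1.18) (e₂ := 0.455) (e₃ := 0.72) (by norm_num)
    (by norm_num) (by norm_num) a1 b1 c1
  norm_num at key a2 b2 c2
  linarith

/-- All radii of the four shells. -/
def InAll (ρ : ℝ) : Prop := ρ ∈ RX ∨ ρ ∈ RS1 ∨ ρ ∈ RT1 ∨ ρ ∈ RS2

lemma strict_XX (hx : ‖x‖ ∈ RX) (hy : ‖y‖ ∈ RX) (hz : InAll ‖z‖)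
    (hxy : x ≠ y) (hxz : x ≠ z) (hyz : y ≠ z) : uf ‖x‖ + uf ‖y‖ + uf ‖z‖ < cr x y z := by
  obtain ⟨-, a1, a2, -, -⟩ := RX_bound hx
  obtain ⟨-, b1, b2, -, -⟩ := RX_bound hy
  rcases hz with hz | hz | hz | hz
  · obtain ⟨-, c1, c2, -, -⟩ := RX_bound hz
    have key := two_close hxy hxz hyz a1 b1 c1
    norm_num at key a2 b2 c2
    linarith
  · obtain ⟨-, c1, c2, -, -⟩ := RS1_bound hz
    have key := two_close hxy hxz hyz a1 b1 c1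
    norm_num at key a2 b2 c2
    linarith
  · obtain ⟨-, c1, c2, -, -⟩ := RT1_bound hz
    have key := two_close hxy hxz hyz a1 b1 c1
    norm_num at key a2 b2 c2
    linarith
  · obtain ⟨-, c1, c2, -, -⟩ := RS2_bound hz
    have key := two_close hxy hxz hyz a1 b1 c1
    norm_num at key a2 b2 c2
    linarith

omit [InnerProductSpace ℝ V] in
lemma sum_swap_lt (h : uf ‖x‖ + uf ‖z‖ + uf ‖y‖ < cr x z y) :
    uf ‖x‖ + uf ‖y‖ + uf ‖z‖ < cr x y z := by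
  rw [cr_swap] at h
  linarith

/-- The dual inequality when the first point is in the inner shell. -/
lemma dual_X (hx : ‖x‖ ∈ RX) (hy : InAll ‖y‖) (hz : InAll ‖z‖)
    (hxy : x ≠ y) (hxz : x ≠ z) (hyz : y ≠ z) : uf ‖x‖ + uf ‖y‖ + uf ‖z‖ ≤ cr x y z := by
  obtain ⟨a, ha, ea⟩ := id hx
  rcases hy with hy | hy | hy | hy
  · exact (strict_XX hx hy hz hxy hxz hyz).le
  · rcases hz with hz | hz | hz | hz
    · exact (sum_swap_lt (strict_XX hx hz (Or.inr (Or.inl hy)) hxz hxy hyz.symm)).le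
    · exact (strict_S1S1 hx hy hz hxy hxz hyz).le
    · obtain ⟨b, hb, eb⟩ := hy
      obtain ⟨d, hd, ed⟩ := hz
      exact (coll_main ha hb hd ea.symm eb.symm ed.symm hxy hxz hyz).1
    · exact (strict_S1S2 hx hy hz hxy hxz hyz).le
  · rcases hz with hz | hz | hz | hz
    · exact (sum_swap_lt (strict_XX hx hz (Or.inr (Or.inr (Or.inl hy))) hxz hxy hyz.symm)).le
    · obtain ⟨b, hb, eb⟩ := hy
      obtain ⟨d, hd, ed⟩ := hz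
      have := (coll_main ha hd hb ea.symm ed.symm eb.symm hxz hxy hyz.symm).1
      rw [cr_swap] at this
      linarith
    · exact (strict_T1T1 hx hy hz hxy hxz hyz).le
    · exact (strict_T1S2 hx hy hz hxy hxz hyz).le
  · rcases hz with hz | hz | hz | hz
    · exact (sum_swap_lt (strict_XX hx hz (Or.inr (Or.inr (Or.inr hy))) hxz hxy hyz.symm)).le
    · exact (sum_swap_lt (strict_S1S2 hx hz hy hxz hxy hyz.symm)).le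
    · exact (sum_swap_lt (strict_T1S2 hx hz hy hxz hxy hyz.symm)).le
    · exact trap_main ha ea.symm hy hz hxy hxz hyz

lemma uf_nonpos_of {ρ : ℝ} (h : ρ ∈ RS1 ∨ ρ ∈ RT1 ∨ ρ ∈ RS2) : uf ρ ≤ 0 := by
  rcases h with h | h | h
  · obtain ⟨-, -, a, -, -⟩ := RS1_bound h
    norm_num at a
    linarith
  · obtain ⟨-, -, a, -, -⟩ := RT1_bound h
    norm_num at a
    linarith
  · obtain ⟨-, -, a, -, -⟩ := RS2_bound h
    norm_num at a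
    linarith

/-- The dual inequality on all triples of points of the shells. -/
theorem dual_all (hx : InAll ‖x‖) (hy : InAll ‖y‖) (hz : InAll ‖z‖)
    (hxy : x ≠ y) (hxz : x ≠ z) (hyz : y ≠ z) : uf ‖x‖ + uf ‖y‖ + uf ‖z‖ ≤ cr x y z := by
  by_cases h1 : ‖x‖ ∈ RX
  · exact dual_X h1 hy hz hxy hxz hyz
  by_cases h2 : ‖y‖ ∈ RX
  · have := dual_X h2 hx hz hxy.symm hyz hxz
    rw [cr_rot] at this
    linarith
  by_cases h3 : ‖z‖ ∈ RX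
  · have := dual_X h3 hx hy hxz.symm hyz.symm hxy
    have e : cr z x y = cr x y z := by
      rw [cr_rot x z y, cr_swap x y z]
    rw [e] at this
    linarith
  have a1 : uf ‖x‖ ≤ 0 := uf_nonpos_of (hx.resolve_left h1)
  have a2 : uf ‖y‖ ≤ 0 := uf_nonpos_of (hy.resolve_left h2)
  have a3 : uf ‖z‖ ≤ 0 := uf_nonpos_of (hz.resolve_left h3)
  have := cr_nonneg x y z
  linarith

/-- The equality cases when the first point is on the inner shell. -/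
theorem classify_real {ν : ℝ} (h : InN ν) (hx : ‖x‖ = rf ν) (hy : InAll ‖y‖) (hz : InAll ‖z‖)
    (hxy : x ≠ y) (hxz : x ≠ z) (hyz : y ≠ z)
    (heq : cr x y z ≤ uf ‖x‖ + uf ‖y‖ + uf ‖z‖) :
    (‖y‖ ∈ RS1 → rf ν • y = (- s1f ν) • x) ∧ (‖y‖ ∈ RT1 → rf ν • y = t1f ν • x) ∧ ‖y‖ ∉ RX := by
  have hxR : ‖x‖ ∈ RX := ⟨ν, h, hx.symm⟩
  refine ⟨?_, ?_, ?_⟩
  · intro hy1
    rcases hz with hz | hz | hz | hz
    · exact absurd heq (not_le.mpr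
        (sum_swap_lt (strict_XX hxR hz (Or.inr (Or.inl hy1)) hxz hxy hyz.symm)))
    · exact absurd heq (not_le.mpr (strict_S1S1 hxR hy1 hz hxy hxz hyz))
    · obtain ⟨b, hb, eb⟩ := hy1
      obtain ⟨d, hd, ed⟩ := hz
      obtain ⟨-, -, v1, -⟩ := (coll_main h hb hd hx eb.symm ed.symm hxy hxz hyz).2 heq
      have : rf ν • y = - (s1f ν • x) := by
        rw [eq_neg_iff_add_eq_zero, add_comm]; exact v1
      rw [this, neg_smul]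
    · exact absurd heq (not_le.mpr (strict_S1S2 hxR hy1 hz hxy hxz hyz))
  · intro hy1
    rcases hz with hz | hz | hz | hz
    · exact absurd heq (not_le.mpr
        (sum_swap_lt (strict_XX hxR hz (Or.inr (Or.inr (Or.inl hy1))) hxz hxy hyz.symm)))
    · obtain ⟨b, hb, eb⟩ := hy1
      obtain ⟨d, hd, ed⟩ := hz
      have heq' : cr x z y ≤ uf ‖x‖ + uf ‖z‖ + uf ‖y‖ := by
        rw [cr_swap]; linarith
      obtain ⟨-, -, v1, v2⟩ :=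
        (coll_main h hd hb hx ed.symm eb.symm hxz hxy hyz.symm).2 heq'
      have hs := s1f_pos h
      have e : s1f ν • (rf ν • y - t1f ν • x)
          = rf ν • (t1f ν • z + s1f ν • y) - t1f ν • (s1f ν • x + rf ν • z) := by module
      rw [v1, v2] at e
      simp only [smul_zero, sub_zero] at e
      have e2 := (smul_eq_zero.mp e).resolve_left hs.ne'
      exact sub_eq_zero.mp e2
    · exact absurd heq (not_le.mpr (strict_T1T1 hxR hy1 hz hxy hxz hyz))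
    · exact absurd heq (not_le.mpr (strict_T1S2 hxR hy1 hz hxy hxz hyz))
  · intro hy1
    exact absurd heq (not_le.mpr (strict_XX hxR hy1 hz hxy hxz hyz))

end coll

end Vale.Agent.Lib.P121
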