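import Mathlib
import Vale.Agent.Lib.P121.Defs
import Vale.Agent.Lib.P121.DualIneq

/-!
Spherical unit vectors, the maps of the two families, and the absolute continuity
of their push-forwards.
-/

open Real Set MeasureTheory
open scoped RealInnerProductSpace ENNReal NNReal

namespace Vale.Agent.Lib.P121

/-- Spherical unit vector. -/
noncomputable def nv (θ ω : ℝ) : E3 := !₂[sin θ * cos ω, sin θ * sin ω, cos θ]

@[simp] lemma nv_0 (θ ω : ℝ) : nv θ ω 0 = sin θ * cos ω := rfl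
@[simp] lemma nv_1 (θ ω : ℝ) : nv θ ω 1 = sin θ * sin ω := rfl
@[simp] lemma nv_2 (θ ω : ℝ) : nv θ ω 2 = cos θ := rfl

lemma inner_E3 (x y : E3) : ⟪x, y⟫ = x 0 * y 0 + x 1 * y 1 + x 2 * y 2 := by
  simp [PiLp.inner_apply, Fin.sum_univ_three]
  ring

lemma nv_inner (θ ω θ' ω' : ℝ) :
    ⟪nv θ ω, nv θ' ω'⟫ = sin θ * sin θ' * cos (ω - ω') + cos θ * cos θ' := by
  rw [inner_E3]
  simp only [nv_0, nv_1, nv_2]
  rw [cos_sub]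
  ring

lemma nv_norm (θ ω : ℝ) : ‖nv θ ω‖ = 1 := by
  have h : ‖nv θ ω‖ ^ 2 = 1 := by
    rw [← real_inner_self_eq_norm_sq, nv_inner]
    have h1 := sin_sq_add_cos_sq θ
    simp only [sub_self, cos_zero]
    nlinarith
  have h2 := norm_nonneg (nv θ ω)
  nlinarith [sq_nonneg (‖nv θ ω‖ - 1)]

lemma nv_orth (θ ω : ℝ) : ⟪nv θ ω, nv (θ + π / 2) ω⟫ = 0 := by
  rw [nv_inner, sin_add_pi_div_two, cos_add_pi_div_two]
  simp only [sub_self, cos_zero]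
  ring

lemma nv_add (θ ψ ω : ℝ) : nv (θ + ψ) ω = cos ψ • nv θ ω + sin ψ • nv (θ + π / 2) ω := by
  ext i
  fin_cases i
  · simp [sin_add]
    ring
  · simp [sin_add]
    ring
  · simp [cos_add]
    ring

lemma nv_sub (θ ψ ω : ℝ) : nv (θ - ψ) ω = cos ψ • nv θ ω + (- sin ψ) • nv (θ + π / 2) ω := by
  have := nv_add θ (-ψ) ω
  rw [cos_neg, sin_neg, ← sub_eq_add_neg] at this
  exact this

/-- Distance formula for spherical coordinates. -/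
lemma nv_dist_sq (ρ ρ' θ θ' ω ω' : ℝ) :
    ‖ρ • nv θ ω - ρ' • nv θ' ω'‖ ^ 2 = (ρ - ρ') ^ 2 +
      ρ * ρ' * (4 * sin ((θ - θ') / 2) ^ 2 + 4 * (sin θ * sin θ') * sin ((ω - ω') / 2) ^ 2) := by
  have h1 : ‖ρ • nv θ ω - ρ' • nv θ' ω'‖ ^ 2
      = ρ ^ 2 + ρ' ^ 2 - 2 * (ρ * ρ') * ⟪nv θ ω, nv θ' ω'⟫ := by
    rw [norm_sub_sq_real, norm_smul, norm_smul, nv_norm, nv_norm, inner_smul_left, inner_smul_right]
    simp only [conj_trivial, Real.norm_eq_abs, mul_one, sq_abs]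
    ring
  have hc1 : cos (θ - θ') = 1 - 2 * sin ((θ - θ') / 2) ^ 2 := by
    have := cos_sq' ((θ - θ') / 2)
    have h2 := cos_two_mul ((θ - θ') / 2)
    rw [show 2 * ((θ - θ') / 2) = θ - θ' by ring] at h2
    nlinarith
  have hc2 : cos (ω - ω') = 1 - 2 * sin ((ω - ω') / 2) ^ 2 := by
    have := cos_sq' ((ω - ω') / 2)
    have h2 := cos_two_mul ((ω - ω') / 2)
    rw [show 2 * ((ω - ω') / 2) = ω - ω' by ring] at h2
    nlinarith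
  have hcs : cos θ * cos θ' = cos (θ - θ') - sin θ * sin θ' := by
    rw [cos_sub]; ring
  rw [h1, nv_inner, hcs, hc1, hc2]
  ring

lemma sin_half_sq_ge {u : ℝ} (hu : |u| ≤ π) : (u / π) ^ 2 ≤ sin (u / 2) ^ 2 := by
  have hπ := pi_pos
  have key : ∀ v : ℝ, 0 ≤ v → v ≤ π → (v / π) ^ 2 ≤ sin (v / 2) ^ 2 := by
    intro v hv hvπ
    have h1 : 2 / π * (v / 2) ≤ sin (v / 2) :=
      mul_le_sin (by positivity) (by linarith)
    have h2 : 2 / π * (v / 2) = v / π := by field_simp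
    rw [h2] at h1
    exact pow_le_pow_left₀ (by positivity) h1 2
  rcases le_total 0 u with h | h
  · exact key u h ((le_abs_self u).trans hu)
  · have := key (-u) (by linarith) (by rw [abs_of_nonpos h] at hu; exact hu)
    have e : -u / 2 = -(u / 2) := by ring
    rw [e, sin_neg] at this
    have e2 : (-u / π) ^ 2 = (u / π) ^ 2 := by
      rw [neg_div, neg_sq]
    rw [e2] at this
    simpa using this

lemma norm_sq_E3 (p : E3) : ‖p‖ ^ 2 = p 0 ^ 2 + p 1 ^ 2 + p 2 ^ 2 := by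
  rw [← real_inner_self_eq_norm_sq, inner_E3]
  ring

/-- The parameter box. -/
def Box : Set E3 := {p | p 0 ∈ NN ∧ p 1 ∈ Icc (1 / 2 : ℝ) (3 / 5) ∧ p 2 ∈ Icc (0 : ℝ) 1}

/-- Maps of the form `ρ(ν) • nv (ϑ + σ(ν)) ω`. -/
noncomputable def Φmap (ρ σ : ℝ → ℝ) (p : E3) : E3 := ρ (p 0) • nv (p 1 + σ (p 0)) (p 2)

/-- Real variable part of the distance estimate. -/
lemma three_bounds {D Δρ P Sθ Sω ss a κ₁ κ₂ Δν A B : ℝ} (hD : D = Δρ ^ 2 + P * (4 * Sθ + 4 * ss * Sω))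
    (hκ₁ : 0 < κ₁) (hκ₂ : 0 < κ₂) (hP : κ₁ ≤ P) (hss : κ₂ ≤ ss) (hA : A ≤ Sθ) (hB : B ≤ Sω)
    (hA0 : 0 ≤ A) (hB0 : 0 ≤ B) (hν : (a * |Δν|) ^ 2 ≤ Δρ ^ 2) :
    a ^ 2 * Δν ^ 2 ≤ D ∧ κ₁ * (4 * A) ≤ D ∧ κ₁ * (κ₂ * (4 * B)) ≤ D := by
  have hP0 : 0 ≤ P := hκ₁.le.trans hP
  have hss0 : 0 ≤ ss := hκ₂.le.trans hss
  have hSθ : 0 ≤ Sθ := hA0.trans hA
  have hSω : 0 ≤ Sω := hB0.trans hB
  have hrest : 0 ≤ P * (4 * Sθ + 4 * ss * Sω) := by positivity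
  have hΔ := sq_nonneg Δρ
  refine ⟨?_, ?_, ?_⟩
  · have : (a * |Δν|) ^ 2 = a ^ 2 * Δν ^ 2 := by rw [mul_pow, sq_abs]
    rw [hD]; linarith
  · rw [hD]
    have a1 : κ₁ * (4 * A) ≤ P * (4 * Sθ + 4 * ss * Sω) := by
      apply mul_le_mul hP _ (by positivity) hP0
      have : 0 ≤ 4 * ss * Sω := by positivity
      linarith
    linarith
  · rw [hD]
    have a1 : κ₁ * (κ₂ * (4 * B)) ≤ P * (4 * Sθ + 4 * ss * Sω) := by
      apply mul_le_mul hP _ (by positivity) hP0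
      have a2 : κ₂ * (4 * B) ≤ ss * (4 * Sω) :=
        mul_le_mul hss (by linarith) (by positivity) hss0
      have a3 : 0 ≤ 4 * Sθ := by positivity
      nlinarith
    linarith

/-- Combining the three bounds. -/
lemma combine_bounds {D a κ₁ κ₂ L Δν Δϑ Δω Δθ Δσ π' : ℝ} (ha : 0 < a) (hκ₁ : 0 < κ₁) (hκ₂ : 0 < κ₂)
    (hπ : 0 < π') (hD0 : 0 ≤ D)
    (h1 : a ^ 2 * Δν ^ 2 ≤ D) (h2 : κ₁ * (4 * (Δθ / π') ^ 2) ≤ D)
    (h3 : κ₁ * (κ₂ * (4 * (Δω / π') ^ 2)) ≤ D) (hσ : Δσ ^ 2 ≤ L ^ 2 * Δν ^ 2)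
    (hϑ : Δϑ = Δθ - Δσ) :
    Δν ^ 2 + Δϑ ^ 2 + Δω ^ 2 ≤
      (1 / a ^ 2 + 2 * L ^ 2 / a ^ 2 + π' ^ 2 / (2 * κ₁) + π' ^ 2 / (4 * (κ₁ * κ₂))) * D := by
  have c1 : Δν ^ 2 ≤ 1 / a ^ 2 * D := by
    rw [div_mul_eq_mul_div, one_mul, le_div_iff₀ (by positivity)]
    linarith
  have c2 : Δθ ^ 2 ≤ π' ^ 2 / (4 * κ₁) * D := by
    rw [div_mul_eq_mul_div, le_div_iff₀ (by positivity)]
    have e : κ₁ * (4 * (Δθ / π') ^ 2) = 4 * κ₁ * Δθ ^ 2 / π' ^ 2 := by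
      field_simp
    rw [e, div_le_iff₀ (by positivity)] at h2
    linarith
  have c3 : Δω ^ 2 ≤ π' ^ 2 / (4 * (κ₁ * κ₂)) * D := by
    rw [div_mul_eq_mul_div, le_div_iff₀ (by positivity)]
    have e : κ₁ * (κ₂ * (4 * (Δω / π') ^ 2)) = 4 * (κ₁ * κ₂) * Δω ^ 2 / π' ^ 2 := by
      field_simp
    rw [e, div_le_iff₀ (by positivity)] at h3
    linarith
  have c5 : Δϑ ^ 2 ≤ 2 * Δθ ^ 2 + 2 * Δσ ^ 2 := by
    rw [hϑ]
    nlinarith [sq_nonneg (Δθ + Δσ)]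
  have c6 : L ^ 2 * Δν ^ 2 ≤ L ^ 2 * (1 / a ^ 2 * D) :=
    mul_le_mul_of_nonneg_left c1 (by positivity)
  have e : (1 / a ^ 2 + 2 * L ^ 2 / a ^ 2 + π' ^ 2 / (2 * κ₁) + π' ^ 2 / (4 * (κ₁ * κ₂))) * D
      = 1 / a ^ 2 * D + 2 * (π' ^ 2 / (4 * κ₁) * D) + 2 * (L ^ 2 * (1 / a ^ 2 * D))
        + π' ^ 2 / (4 * (κ₁ * κ₂)) * D := by
    field_simp
    ring
  rw [e]
  linarith

lemma norm_sub_sq_E3 (p p' : E3) :
    ‖p - p'‖ ^ 2 = (p 0 - p' 0) ^ 2 + (p 1 - p' 1) ^ 2 + (p 2 - p' 2) ^ 2 := by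
  rw [norm_sq_E3]
  simp

/-- A lower bound for distances in the image, in squared form. -/
lemma Φmap_antilip_sq {ρ σ : ℝ → ℝ} {a κ₁ κ₂ L : ℝ} (ha : 0 < a) (hκ₁ : 0 < κ₁) (hκ₂ : 0 < κ₂)
    (hρ : ∀ ν ∈ NN, ∀ ν' ∈ NN, a * |ν - ν'| ≤ |ρ ν - ρ ν'|)
    (hρρ : ∀ ν ∈ NN, ∀ ν' ∈ NN, κ₁ ≤ ρ ν * ρ ν')
    (hσ : ∀ ν ∈ NN, ∀ ν' ∈ NN, |σ ν - σ ν'| ≤ L * |ν - ν'|)
    (hσ3 : ∀ ν ∈ NN, ∀ ν' ∈ NN, |σ ν - σ ν'| ≤ 3)
    (hsin : ∀ p ∈ Box, ∀ p' ∈ Box, κ₂ ≤ sin (p 1 + σ (p 0)) * sin (p' 1 + σ (p' 0))) :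
    ∃ C : ℝ, 0 ≤ C ∧ ∀ p ∈ Box, ∀ p' ∈ Box,
      ‖p - p'‖ ^ 2 ≤ C * ‖Φmap ρ σ p - Φmap ρ σ p'‖ ^ 2 := by
  have hπ := pi_pos
  refine ⟨1 / a ^ 2 + 2 * L ^ 2 / a ^ 2 + π ^ 2 / (2 * κ₁) + π ^ 2 / (4 * (κ₁ * κ₂)), by positivity, ?_⟩
  intro p hp p' hp'
  have hform : ‖Φmap ρ σ p - Φmap ρ σ p'‖ ^ 2 = (ρ (p 0) - ρ (p' 0)) ^ 2 + ρ (p 0) * ρ (p' 0) *
      (4 * sin (((p 1 + σ (p 0)) - (p' 1 + σ (p' 0))) / 2) ^ 2 +
        4 * (sin (p 1 + σ (p 0)) * sin (p' 1 + σ (p' 0))) * sin ((p 2 - p' 2) / 2) ^ 2) := by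
    unfold Φmap
    rw [nv_dist_sq]
  have hθabs : |(p 1 + σ (p 0)) - (p' 1 + σ (p' 0))| ≤ π := by
    have e : (p 1 + σ (p 0)) - (p' 1 + σ (p' 0)) = (p 1 - p' 1) + (σ (p 0) - σ (p' 0)) := by ring
    rw [e]
    have h1 := hσ3 _ hp.1 _ hp'.1
    have h2 : |p 1 - p' 1| ≤ 1 / 10 := by
      rw [abs_le]
      have := hp.2.1.1
      have := hp.2.1.2
      have := hp'.2.1.1
      have := hp'.2.1.2
      constructor <;> linarith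
    have h3 := abs_add_le (p 1 - p' 1) (σ (p 0) - σ (p' 0))
    have := pi_gt_d2
    linarith
  have hωabs : |p 2 - p' 2| ≤ π := by
    have h2 : |p 2 - p' 2| ≤ 1 := by
      rw [abs_le]
      have := hp.2.2.1
      have := hp.2.2.2
      have := hp'.2.2.1
      have := hp'.2.2.2
      constructor <;> linarith
    have := pi_gt_three
    linarith
  have b1 : (a * |p 0 - p' 0|) ^ 2 ≤ (ρ (p 0) - ρ (p' 0)) ^ 2 := by
    have := hρ _ hp.1 _ hp'.1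
    rw [← sq_abs (ρ (p 0) - ρ (p' 0))]
    exact pow_le_pow_left₀ (by positivity) this 2
  obtain ⟨h1, h2, h3⟩ := three_bounds hform hκ₁ hκ₂ (hρρ _ hp.1 _ hp'.1) (hsin p hp p' hp')
    (sin_half_sq_ge hθabs) (sin_half_sq_ge hωabs) (by positivity) (by positivity) b1
  have c4 : (σ (p 0) - σ (p' 0)) ^ 2 ≤ L ^ 2 * (p 0 - p' 0) ^ 2 := by
    have h1 := hσ _ hp.1 _ hp'.1
    rw [← sq_abs (σ (p 0) - σ (p' 0)), ← sq_abs (p 0 - p' 0), ← mul_pow]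
    exact pow_le_pow_left₀ (abs_nonneg _) h1 2
  rw [norm_sub_sq_E3]
  exact combine_bounds ha hκ₁ hκ₂ hπ (by positivity) h1 h2 h3 c4 (by ring)

/-- From the squared form to the extended distance form. -/
lemma edist_le_of_sq {Φ : E3 → E3} {C : ℝ} (hC : 0 ≤ C)
    (h : ∀ p ∈ Box, ∀ p' ∈ Box, ‖p - p'‖ ^ 2 ≤ C * ‖Φ p - Φ p'‖ ^ 2) :
    ∃ K : ℝ≥0, ∀ p ∈ Box, ∀ p' ∈ Box, edist p p' ≤ K * edist (Φ p) (Φ p') := by
  refine ⟨(√C).toNNReal, fun p hp p' hp' => ?_⟩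
  have h1 : ‖p - p'‖ ≤ √C * ‖Φ p - Φ p'‖ := by
    have := h p hp p' hp'
    refine abs_le_of_sq_le_sq' ?_ (by positivity) |>.2
    rw [mul_pow, Real.sq_sqrt hC]
    exact this
  rw [edist_dist, edist_dist, dist_eq_norm, dist_eq_norm]
  change ENNReal.ofReal _ ≤ ENNReal.ofReal (√C) * _
  rw [← ENNReal.ofReal_mul (Real.sqrt_nonneg _)]
  exact ENNReal.ofReal_le_ofReal h1

/-- Null sets pull back to null sets under a map that is anti-Lipschitz on a set. -/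
lemma preimage_null_of_antilip {S : Set E3} {Φ : E3 → E3} {K : ℝ≥0}
    (hK : ∀ p ∈ S, ∀ p' ∈ S, edist p p' ≤ K * edist (Φ p) (Φ p')) {A : Set E3}
    (hA : volume A = 0) : volume (S ∩ Φ ⁻¹' A) = 0 := by
  classical
  set d : ℝ := (Module.finrank ℝ E3 : ℝ) with hd
  have hd0 : 0 ≤ d := by positivity
  set ψ := Function.invFunOn Φ S with hψ
  have hψmem : ∀ y ∈ Φ '' S, ψ y ∈ S ∧ Φ (ψ y) = y := fun y hy =>
    ⟨Function.invFunOn_mem hy, Function.invFunOn_eq hy⟩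
  have hLip : LipschitzOnWith K ψ (Φ '' S) := by
    intro y hy y' hy'
    obtain ⟨h1, h2⟩ := hψmem y hy
    obtain ⟨h3, h4⟩ := hψmem y' hy'
    have := hK _ h1 _ h3
    rwa [h2, h4] at this
  have hH := isAddHaarMeasure_hausdorffMeasure (E := E3)
  have hac1 : (volume : Measure E3) ≪ (Measure.hausdorffMeasure d) :=
    Measure.absolutelyContinuous_isAddHaarMeasure _ _
  have hac2 : (Measure.hausdorffMeasure d : Measure E3) ≪ volume :=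
    Measure.absolutelyContinuous_isAddHaarMeasure _ _
  have hA2 : (Measure.hausdorffMeasure d : Measure E3) (A ∩ Φ '' S) = 0 :=
    measure_mono_null inter_subset_left (hac2 hA)
  have himg := (hLip.mono (inter_subset_right (s := A))).hausdorffMeasure_image_le hd0
  rw [hA2, mul_zero] at himg
  have hsub : S ∩ Φ ⁻¹' A ⊆ ψ '' (A ∩ Φ '' S) := by
    rintro p ⟨hp, hpA⟩
    have hy : Φ p ∈ Φ '' S := ⟨p, hp, rfl⟩
    refine ⟨Φ p, ⟨hpA, hy⟩, ?_⟩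
    obtain ⟨h1, h2⟩ := hψmem _ hy
    have := hK _ h1 _ hp
    rw [h2, edist_self, mul_zero] at this
    exact edist_le_zero.mp this
  exact hac1 (measure_mono_null hsub (le_antisymm himg zero_le))

end Vale.Agent.Lib.P121
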