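import Mathlib
import Vale.Agent.Lib.P121.Maps

/-!
The rotation angle, measurability of all parameter functions, and the five maps.
-/

open Real Set MeasureTheory
open scoped RealInnerProductSpace ENNReal NNReal

namespace Vale.Agent.Lib.P121

/-- The rotation angle of the isosceles family. -/
noncomputable def ψf (ν : ℝ) : ℝ := π / 2 + arctan (βf ν * ν ^ 2 / (ν ^ 3 + 2))

lemma ψf_gratio {ν : ℝ} (h : InN ν) : βf ν * ν ^ 2 / (ν ^ 3 + 2) = αf ν / mf ν := by
  have hm := mf_pos h
  have hν := h.pos
  have e1 := rf_mul h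
  have e2 := mf_cube h
  unfold αf
  rw [← e2, ← e1]
  field_simp

lemma s2f_eq_sqrt {ν : ℝ} (h : InN ν) :
    √(1 + (αf ν / mf ν) ^ 2) = 2 * s2f ν / mf ν := by
  have hm := mf_pos h
  have hs := s2f_pos h
  have e := s2f_sq h
  refine (Real.sqrt_eq_iff_mul_self_eq (by positivity) (by positivity)).mpr ?_
  have : (2 * s2f ν / mf ν) * (2 * s2f ν / mf ν) = 4 * s2f ν ^ 2 / mf ν ^ 2 := by ring
  rw [this, e]
  field_simp
  ring

lemma ψf_cos {ν : ℝ} (h : InN ν) : s2f ν * cos (ψf ν) = - (αf ν / 2) := by
  have hm := mf_pos h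
  have hs := s2f_pos h
  unfold ψf
  rw [ψf_gratio h, cos_add, cos_pi_div_two, sin_pi_div_two, sin_arctan, s2f_eq_sqrt h]
  field_simp
  ring

lemma ψf_sin {ν : ℝ} (h : InN ν) : s2f ν * sin (ψf ν) = mf ν / 2 := by
  have hm := mf_pos h
  have hs := s2f_pos h
  unfold ψf
  rw [ψf_gratio h, sin_add, cos_pi_div_two, sin_pi_div_two, cos_arctan, s2f_eq_sqrt h]
  field_simp
  ring

lemma ψf_bounds {ν : ℝ} (h : InN ν) : π / 2 ≤ ψf ν ∧ ψf ν ≤ 3 * π / 4 := by
  have hg0 : 0 ≤ αf ν / mf ν := div_nonneg (αf_pos h).le (mf_pos h).le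
  have hg1 : αf ν / mf ν ≤ 1 := by
    rw [div_le_one (mf_pos h)]
    have := αf_hi h
    have := mf_lo h
    norm_num at *
    linarith
  unfold ψf
  rw [ψf_gratio h]
  have h0 : 0 ≤ arctan (αf ν / mf ν) := arctan_nonneg.mpr hg0
  have h1 : arctan (αf ν / mf ν) ≤ π / 4 := by
    rw [← arctan_one]
    exact arctan_strictMono.monotone hg1
  constructor <;> linarith

lemma ψf_contDiffOn : ContDiffOn ℝ 1 ψf NN := by
  unfold ψf βf
  refine contDiffOn_const.add (ContDiffOn.arctan ?_)
  have hsq : ContDiffOn ℝ 1 (fun ν : ℝ => √(4 - ν ^ 2)) NN := by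
    refine ContDiffOn.sqrt (by fun_prop) ?_
    intro ν hν
    have := InN.sq_hi hν
    norm_num at *
    linarith
  refine ContDiffOn.div (hsq.mul (by fun_prop)) (by fun_prop) ?_
  intro ν hν
  have := InN.cube_lo hν
  norm_num at *
  linarith

lemma NN_convex : Convex ℝ NN := convex_Icc _ _
lemma NN_compact : IsCompact NN := isCompact_Icc

lemma ψf_lipschitz : ∃ L : ℝ, 0 ≤ L ∧ ∀ ν ∈ NN, ∀ ν' ∈ NN, |ψf ν - ψf ν'| ≤ L * |ν - ν'| := by
  obtain ⟨K, hK⟩ := ψf_contDiffOn.exists_lipschitzOnWith one_ne_zero NN_convex NN_compact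
  refine ⟨K, K.2, fun ν hν ν' hν' => ?_⟩
  have := hK.dist_le_mul ν hν ν' hν'
  simpa [Real.dist_eq] using this

lemma sin_lower {a b : ℝ} (hab : a ≤ b) (ha : 0 < a) (hb : b < π) :
    ∃ κ : ℝ, 0 < κ ∧ ∀ θ ∈ Icc a b, κ ≤ sin θ := by
  obtain ⟨θ₀, hθ₀, hmin⟩ := isCompact_Icc.exists_isMinOn (nonempty_Icc.mpr hab)
    continuous_sin.continuousOn
  refine ⟨sin θ₀, sin_pos_of_pos_of_lt_pi (by linarith [hθ₀.1]) (by linarith [hθ₀.2]), ?_⟩
  intro θ hθ
  exact hmin hθ

/-! ### Measurability -/

lemma coord_continuous (i : Fin 3) : Continuous (fun p : E3 => p i) := by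
  fun_prop

lemma mf_measurable : Measurable mf := by
  unfold mf
  fun_prop

lemma βf_measurable : Measurable βf := by
  unfold βf
  fun_prop

lemma rf_measurable : Measurable rf := by
  have h1 := mf_measurable
  have h2 := βf_measurable
  unfold rf
  fun_prop

lemma αf_measurable : Measurable αf := by
  have h1 := rf_measurable
  unfold αf
  fun_prop

lemma s2f_measurable : Measurable s2f := by
  have h1 := αf_measurable
  have h2 := mf_measurable
  unfold s2f
  fun_prop

lemma ψf_measurable : Measurable ψf := by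
  have h2 := βf_measurable
  unfold ψf
  have : Measurable arctan := continuous_arctan.measurable
  fun_prop

lemma dfun_measurable : Measurable dfun := by
  unfold dfun
  exact (invAnti_measurable Gf (by norm_num)).comp αf_measurable

lemma D3f_measurable : Measurable D3f := by
  unfold D3f
  fun_prop

lemma D2f_measurable : Measurable D2f := by
  have := D3f_measurable
  unfold D2f
  fun_prop

lemma D2n_measurable : Measurable D2n := by
  unfold D2n
  exact D2f_measurable.comp dfun_measurable

lemma D3n_measurable : Measurable D3n := by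
  unfold D3n
  exact D3f_measurable.comp dfun_measurable

lemma s1f_measurable : Measurable s1f := by
  have h1 := dfun_measurable
  have h2 := rf_measurable
  unfold s1f
  fun_prop

lemma t1f_measurable : Measurable t1f := by
  have h1 := D2n_measurable
  have h2 := rf_measurable
  unfold t1f
  fun_prop

lemma Tf_Ubar_measurable : Measurable Ubar := by
  have h1 := mf_measurable
  have h2 := rf_measurable
  unfold Ubar Tf
  fun_prop

lemma cbar1_measurable : Measurable cbar1 := by
  have h1 := dfun_measurable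
  have h2 := D2n_measurable
  have h3 := D3n_measurable
  unfold cbar1
  fun_prop

lemma Ξf_measurable : Measurable Ξf := by
  have h1 := cbar1_measurable
  have h2 := Tf_Ubar_measurable
  have h3 := s1f_measurable
  unfold Ξf
  fun_prop

lemma RX_measurable : MeasurableSet RX :=
  measurableSet_Icc.image_of_measurable_injOn rf_measurable rf_strictAntiOn.injOn

lemma RS1_measurable : MeasurableSet RS1 :=
  measurableSet_Icc.image_of_measurable_injOn s1f_measurable s1f_strictMonoOn.injOn

lemma RT1_measurable : MeasurableSet RT1 :=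
  measurableSet_Icc.image_of_measurable_injOn t1f_measurable t1f_strictAntiOn.injOn

lemma RS2_measurable : MeasurableSet RS2 :=
  measurableSet_Icc.image_of_measurable_injOn s2f_measurable s2f_strictMonoOn.injOn

lemma uf_measurable : Measurable uf := by
  classical
  have h1 : Measurable fun ρ => Ubar (invAnti rf (9 / 5) (18001 / 10000) ρ) - 7 / 10 :=
    (Tf_Ubar_measurable.comp (invAnti_measurable rf (by norm_num))).sub_const _
  have h2 : Measurable fun ρ : ℝ => (973 / 1000 : ℝ) - 9 / 8 * ρ := by fun_prop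
  have h3 : Measurable fun ρ => Ξf (invAnti t1f (9 / 5) (18001 / 10000) ρ) :=
    Ξf_measurable.comp (invAnti_measurable t1f (by norm_num))
  have h4 : Measurable fun ρ : ℝ => - (1 / 2 : ℝ) * ρ ^ 2 + 7 / 20 := by fun_prop
  unfold uf
  exact Measurable.ite RX_measurable h1 (Measurable.ite RS1_measurable h2
    (Measurable.ite RT1_measurable h3 (Measurable.ite RS2_measurable h4 measurable_const)))

lemma uf_bounds (ρ : ℝ) : -1 ≤ uf ρ ∧ uf ρ ≤ 3 := by
  by_cases h1 : ρ ∈ RX
  · obtain ⟨-, -, -, a, b⟩ := RX_bound h1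
    exact ⟨a, b⟩
  by_cases h2 : ρ ∈ RS1
  · obtain ⟨-, -, -, a, b⟩ := RS1_bound h2
    exact ⟨a, b⟩
  by_cases h3 : ρ ∈ RT1
  · obtain ⟨-, -, -, a, b⟩ := RT1_bound h3
    exact ⟨a, b⟩
  by_cases h4 : ρ ∈ RS2
  · obtain ⟨-, -, -, a, b⟩ := RS2_bound h4
    exact ⟨a, b⟩
  have : uf ρ = 0 := by
    unfold uf
    rw [if_neg h1, if_neg h2, if_neg h3, if_neg h4]
  rw [this]
  norm_num

/-! ### The five maps -/

lemma nv_continuous : Continuous (fun q : ℝ × ℝ => nv q.1 q.2) := by
  unfold nv
  refine (PiLp.continuous_toLp 2 _).comp (continuous_pi fun i => ?_)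
  fin_cases i <;> simp <;> fun_prop

lemma Φmap_measurable {ρ σ : ℝ → ℝ} (hρ : Measurable ρ) (hσ : Measurable σ) :
    Measurable (Φmap ρ σ) := by
  have h0 : Measurable fun p : E3 => p 0 := (coord_continuous 0).measurable
  have h1 : Measurable fun p : E3 => p 1 := (coord_continuous 1).measurable
  have h2 : Measurable fun p : E3 => p 2 := (coord_continuous 2).measurable
  have h3 : Measurable fun p : E3 => σ (p 0) := hσ.comp h0
  have h4 : Measurable fun p : E3 => p 1 + σ (p 0) := h1.add h3
  have h5 : Measurable fun p : E3 => ((p 1 + σ (p 0)), p 2) := Measurable.prodMk h4 h2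
  have h6 := nv_continuous.measurable.comp h5
  have hn : Measurable fun p : E3 => nv (p 1 + σ (p 0)) (p 2) := h6
  have h7 : Measurable fun p : E3 => ρ (p 0) := hρ.comp h0
  exact h7.smul hn

/-- The maps of the two families. -/
noncomputable def Xmap : E3 → E3 := Φmap rf (fun _ => 0)
noncomputable def Y1map : E3 → E3 := Φmap (fun ν => - s1f ν) (fun _ => 0)
noncomputable def Z1map : E3 → E3 := Φmap t1f (fun _ => 0)
noncomputable def Y2map : E3 → E3 := Φmap s2f ψf
noncomputable def Z2map : E3 → E3 := Φmap s2f (fun ν => - ψf ν)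

lemma Xmap_meas : Measurable Xmap := Φmap_measurable rf_measurable measurable_const
lemma Y1map_meas : Measurable Y1map := Φmap_measurable s1f_measurable.neg measurable_const
lemma Z1map_meas : Measurable Z1map := Φmap_measurable t1f_measurable measurable_const
lemma Y2map_meas : Measurable Y2map := Φmap_measurable s2f_measurable ψf_measurable
lemma Z2map_meas : Measurable Z2map := Φmap_measurable s2f_measurable ψf_measurable.neg

end Vale.Agent.Lib.P121
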