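import Mathlib
import Vale.Agent.Lib.P121.Abstract
import Vale.Agent.Lib.P121.Maps2

/-!
Assembling the certificate.
-/

open Real Set MeasureTheory
open scoped RealInnerProductSpace ENNReal NNReal

namespace Vale.Agent.Lib.P121

/-! ### The parameter measure -/

lemma Box_measurable : MeasurableSet Box := by
  have h0 := (coord_continuous 0).measurable
  have h1 := (coord_continuous 1).measurable
  have h2 := (coord_continuous 2).measurable
  exact (h0 measurableSet_Icc).inter ((h1 measurableSet_Icc).inter (h2 measurableSet_Icc))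

lemma Box_ne_top : volume Box ≠ ⊤ := by
  have hsub : Box ⊆ Metric.closedBall (0 : E3) 3 := by
    intro p hp
    rw [mem_closedBall_zero_iff]
    have h := norm_sq_E3 p
    obtain ⟨⟨a1, a2⟩, ⟨b1, b2⟩, ⟨c1, c2⟩⟩ := hp
    have e1 : p 0 ^ 2 ≤ 4 := by nlinarith
    have e2 : p 1 ^ 2 ≤ 1 := by nlinarith
    have e3 : p 2 ^ 2 ≤ 1 := by nlinarith
    have e4 : ‖p‖ ^ 2 ≤ 3 ^ 2 := by rw [h]; linarith
    exact abs_le_of_sq_le_sq' e4 (by norm_num) |>.2 |> fun h => by simpa using h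
  exact ne_top_of_le_ne_top measure_closedBall_lt_top.ne (measure_mono hsub)

lemma Box_ne_zero : volume Box ≠ 0 := by
  set O : Set E3 := {p | p 0 ∈ Ioo (9 / 5 : ℝ) (18001 / 10000) ∧ p 1 ∈ Ioo (1 / 2 : ℝ) (3 / 5) ∧
    p 2 ∈ Ioo (0 : ℝ) 1} with hO
  have hOopen : IsOpen O :=
    (isOpen_Ioo.preimage (coord_continuous 0)).inter
      ((isOpen_Ioo.preimage (coord_continuous 1)).inter (isOpen_Ioo.preimage (coord_continuous 2)))
  have hOne : O.Nonempty := by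
    refine ⟨!₂[1.80005, 0.55, 0.5], ?_, ?_, ?_⟩ <;> simp <;> norm_num
  have hpos : 0 < volume O := hOopen.measure_pos volume hOne
  have hsub : O ⊆ Box := by
    rintro p ⟨⟨a1, a2⟩, ⟨b1, b2⟩, ⟨c1, c2⟩⟩
    exact ⟨⟨a1.le, a2.le⟩, ⟨b1.le, b2.le⟩, ⟨c1.le, c2.le⟩⟩
  exact (lt_of_lt_of_le hpos (measure_mono hsub)).ne'

/-- Normalised Lebesgue measure on the box. -/
noncomputable def βm : Measure E3 := (volume Box)⁻¹ • volume.restrict Box

lemma βm_prob : IsProbabilityMeasure βm := by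
  constructor
  simp only [βm, Measure.smul_apply, Measure.restrict_apply MeasurableSet.univ, univ_inter,
    smul_eq_mul]
  exact ENNReal.inv_mul_cancel Box_ne_zero Box_ne_top

lemma βm_ae : ∀ᵐ p ∂βm, p ∈ Box := by
  have h : ∀ᵐ p ∂(volume.restrict Box), p ∈ Box := ae_restrict_mem Box_measurable
  exact Measure.ae_smul_measure h _

lemma ac_of_antilip {Φ : E3 → E3} (hΦ : Measurable Φ) {K : ℝ≥0}
    (hK : ∀ p ∈ Box, ∀ p' ∈ Box, edist p p' ≤ K * edist (Φ p) (Φ p')) : βm.map Φ ≪ volume := by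
  refine Measure.AbsolutelyContinuous.mk ?_
  intro A hA h0
  rw [Measure.map_apply hΦ hA]
  simp only [βm, Measure.smul_apply, smul_eq_mul]
  rw [Measure.restrict_apply (hΦ hA), inter_comm, preimage_null_of_antilip hK h0, mul_zero]

lemma injOn_of_antilip {Φ : E3 → E3} {K : ℝ≥0}
    (hK : ∀ p ∈ Box, ∀ p' ∈ Box, edist p p' ≤ K * edist (Φ p) (Φ p')) : InjOn Φ Box := by
  intro p hp p' hp' e
  have := hK p hp p' hp'
  rw [e, edist_self, mul_zero] at this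
  exact edist_le_zero.mp this

/-! ### Anti-Lipschitz properties of the five maps -/

lemma antilip_of_mono {f : ℝ → ℝ} {a : ℝ} (_ha : 0 < a)
    (h : ∀ ν ∈ NN, ∀ ν' ∈ NN, ν < ν' → a * (ν' - ν) ≤ f ν' - f ν) :
    ∀ ν ∈ NN, ∀ ν' ∈ NN, a * |ν - ν'| ≤ |f ν - f ν'| := by
  intro ν hν ν' hν'
  rcases lt_trichotomy ν ν' with hlt | heq | hgt
  · have := h ν hν ν' hν' hlt
    rw [abs_sub_comm ν ν', abs_sub_comm (f ν) (f ν'), abs_of_pos (by linarith : 0 < ν' - ν)]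
    exact this.trans (le_abs_self _)
  · subst heq; simp
  · have := h ν' hν' ν hν hgt
    rw [abs_of_pos (by linarith : 0 < ν - ν')]
    exact this.trans (le_abs_self _)

lemma antilip_of_anti {f : ℝ → ℝ} {a : ℝ} (ha : 0 < a)
    (h : ∀ ν ∈ NN, ∀ ν' ∈ NN, ν < ν' → a * (ν' - ν) ≤ f ν - f ν') :
    ∀ ν ∈ NN, ∀ ν' ∈ NN, a * |ν - ν'| ≤ |f ν - f ν'| := by
  have := antilip_of_mono (f := fun ν => - f ν) ha (fun ν hν ν' hν' hlt => by
    have := h ν hν ν' hν' hlt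
    linarith)
  intro ν hν ν' hν'
  have h2 := this ν hν ν' hν'
  rwa [show - f ν - - f ν' = -(f ν - f ν') by ring, abs_neg] at h2

/-- The lower sine bound for the parameter `ϑ` itself. -/
lemma sin_bound_zero : ∃ κ : ℝ, 0 < κ ∧ ∀ p ∈ Box, ∀ p' ∈ Box,
    κ ≤ sin (p 1 + (fun _ : ℝ => (0 : ℝ)) (p 0)) * sin (p' 1 + (fun _ : ℝ => (0 : ℝ)) (p' 0)) := by
  have := pi_gt_three
  obtain ⟨κ, hκ, h⟩ := sin_lower (a := 1 / 2) (b := 3 / 5) (by norm_num) (by norm_num) (by linarith)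
  refine ⟨κ * κ, by positivity, fun p hp p' hp' => ?_⟩
  simp only [add_zero]
  exact mul_le_mul (h _ hp.2.1) (h _ hp'.2.1) hκ.le ((hκ.le).trans (h _ hp.2.1))

lemma sin_bound_plus : ∃ κ : ℝ, 0 < κ ∧ ∀ p ∈ Box, ∀ p' ∈ Box,
    κ ≤ sin (p 1 + ψf (p 0)) * sin (p' 1 + ψf (p' 0)) := by
  have hπ := pi_gt_three
  have hπ2 := pi_gt_d2
  obtain ⟨κ, hκ, h⟩ := sin_lower (a := 1 / 2 + π / 2) (b := 3 / 5 + 3 * π / 4)
    (by linarith) (by linarith) (by linarith)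
  have hm : ∀ p ∈ Box, p 1 + ψf (p 0) ∈ Icc (1 / 2 + π / 2) (3 / 5 + 3 * π / 4) := fun p hp => by
    obtain ⟨b1, b2⟩ := ψf_bounds hp.1
    exact ⟨by linarith [hp.2.1.1], by linarith [hp.2.1.2]⟩
  refine ⟨κ * κ, by positivity, fun p hp p' hp' => ?_⟩
  exact mul_le_mul (h _ (hm p hp)) (h _ (hm p' hp')) hκ.le ((hκ.le).trans (h _ (hm p hp)))

lemma sin_bound_minus : ∃ κ : ℝ, 0 < κ ∧ ∀ p ∈ Box, ∀ p' ∈ Box,
    κ ≤ sin (p 1 + (fun ν => - ψf ν) (p 0)) * sin (p' 1 + (fun ν => - ψf ν) (p' 0)) := by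
  have hπ := pi_gt_three
  have hπ2 := pi_gt_d2
  obtain ⟨κ, hκ, h⟩ := sin_lower (a := π / 2 - 3 / 5) (b := 3 * π / 4 - 1 / 2)
    (by linarith) (by linarith) (by linarith)
  have hm : ∀ p ∈ Box, ψf (p 0) - p 1 ∈ Icc (π / 2 - 3 / 5) (3 * π / 4 - 1 / 2) := fun p hp => by
    obtain ⟨b1, b2⟩ := ψf_bounds hp.1
    exact ⟨by linarith [hp.2.1.2], by linarith [hp.2.1.1]⟩
  refine ⟨κ * κ, by positivity, fun p hp p' hp' => ?_⟩
  have e : ∀ q : E3, sin (q 1 + (fun ν => - ψf ν) (q 0)) = - sin (ψf (q 0) - q 1) := by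
    intro q
    rw [← sin_neg]
    congr 1
    simp only
    ring
  rw [e, e, neg_mul_neg]
  exact mul_le_mul (h _ (hm p hp)) (h _ (hm p' hp')) hκ.le ((hκ.le).trans (h _ (hm p hp)))

lemma zero_lip : ∀ ν ∈ NN, ∀ ν' ∈ NN,
    |(fun _ : ℝ => (0 : ℝ)) ν - (fun _ : ℝ => (0 : ℝ)) ν'| ≤ 0 * |ν - ν'| := by
  intro ν _ ν' _
  simp

lemma zero_three : ∀ ν ∈ NN, ∀ ν' ∈ NN,
    |(fun _ : ℝ => (0 : ℝ)) ν - (fun _ : ℝ => (0 : ℝ)) ν'| ≤ 3 := by
  intro ν _ ν' _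
  simp

lemma ψ_three : ∀ ν ∈ NN, ∀ ν' ∈ NN, |ψf ν - ψf ν'| ≤ 3 := by
  intro ν hν ν' hν'
  obtain ⟨a1, a2⟩ := ψf_bounds hν
  obtain ⟨b1, b2⟩ := ψf_bounds hν'
  have hπ := pi_lt_d2
  rw [abs_le]
  constructor <;> linarith

lemma Xmap_anti : ∃ K : ℝ≥0, ∀ p ∈ Box, ∀ p' ∈ Box, edist p p' ≤ K * edist (Xmap p) (Xmap p') := by
  obtain ⟨κ, hκ, hs⟩ := sin_bound_zero
  obtain ⟨C, hC, h⟩ := Φmap_antilip_sq (ρ := rf) (σ := fun _ => 0) (a := 0.45) (κ₁ := 0.01)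
    (L := 0) (by norm_num) (by norm_num) hκ
    (antilip_of_anti (by norm_num) (fun ν hν ν' hν' hlt => rf_diff hν hν' hlt))
    (fun ν hν ν' hν' => by
      have h1 := rf_lo hν
      have h2 := rf_lo hν'
      nlinarith)
    zero_lip zero_three hs
  exact edist_le_of_sq hC h

lemma Y1map_anti : ∃ K : ℝ≥0, ∀ p ∈ Box, ∀ p' ∈ Box, edist p p' ≤ K * edist (Y1map p) (Y1map p') := by
  obtain ⟨κ, hκ, hs⟩ := sin_bound_zero
  obtain ⟨C, hC, h⟩ := Φmap_antilip_sq (ρ := fun ν => - s1f ν) (σ := fun _ => 0) (a := 0.45)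
    (κ₁ := 0.5) (L := 0) (by norm_num) (by norm_num) hκ
    (antilip_of_anti (by norm_num) (fun ν hν ν' hν' hlt => by
      have := s1f_diff hν hν' hlt
      linarith))
    (fun ν hν ν' hν' => by
      have h1 := s1f_lo hν
      have h2 := s1f_lo hν'
      nlinarith)
    zero_lip zero_three hs
  exact edist_le_of_sq hC h

lemma Z1map_anti : ∃ K : ℝ≥0, ∀ p ∈ Box, ∀ p' ∈ Box, edist p p' ≤ K * edist (Z1map p) (Z1map p') := by
  obtain ⟨κ, hκ, hs⟩ := sin_bound_zero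
  obtain ⟨C, hC, h⟩ := Φmap_antilip_sq (ρ := t1f) (σ := fun _ => 0) (a := 0.45)
    (κ₁ := 1) (L := 0) (by norm_num) (by norm_num) hκ
    (antilip_of_anti (by norm_num) (fun ν hν ν' hν' hlt => t1f_diff hν hν' hlt))
    (fun ν hν ν' hν' => by
      have h1 := t1f_lo hν
      have h2 := t1f_lo hν'
      nlinarith)
    zero_lip zero_three hs
  exact edist_le_of_sq hC h

lemma Y2map_anti : ∃ K : ℝ≥0, ∀ p ∈ Box, ∀ p' ∈ Box, edist p p' ≤ K * edist (Y2map p) (Y2map p') := by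
  obtain ⟨κ, hκ, hs⟩ := sin_bound_plus
  obtain ⟨L, hL, hl⟩ := ψf_lipschitz
  obtain ⟨C, hC, h⟩ := Φmap_antilip_sq (ρ := s2f) (σ := ψf) (a := 0.1)
    (κ₁ := 1) (L := L) (by norm_num) (by norm_num) hκ
    (antilip_of_mono (by norm_num) (fun ν hν ν' hν' hlt => s2f_diff hν hν' hlt))
    (fun ν hν ν' hν' => by
      have h1 := s2f_lo hν
      have h2 := s2f_lo hν'
      nlinarith)
    hl ψ_three hs
  exact edist_le_of_sq hC h

lemma Z2map_anti : ∃ K : ℝ≥0, ∀ p ∈ Box, ∀ p' ∈ Box, edist p p' ≤ K * edist (Z2map p) (Z2map p') := by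
  obtain ⟨κ, hκ, hs⟩ := sin_bound_minus
  obtain ⟨L, hL, hl⟩ := ψf_lipschitz
  obtain ⟨C, hC, h⟩ := Φmap_antilip_sq (ρ := s2f) (σ := fun ν => - ψf ν) (a := 0.1)
    (κ₁ := 1) (L := L) (by norm_num) (by norm_num) hκ
    (antilip_of_mono (by norm_num) (fun ν hν ν' hν' hlt => s2f_diff hν hν' hlt))
    (fun ν hν ν' hν' => by
      have h1 := s2f_lo hν
      have h2 := s2f_lo hν'
      nlinarith)
    (fun ν hν ν' hν' => by
      have := hl ν hν ν' hν'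
      rwa [show - ψf ν - - ψf ν' = -(ψf ν - ψf ν') by ring, abs_neg])
    (fun ν hν ν' hν' => by
      have := ψ_three ν hν ν' hν'
      rwa [show - ψf ν - - ψf ν' = -(ψf ν - ψf ν') by ring, abs_neg])
    hs
  exact edist_le_of_sq hC h

/-! ### Shells -/

/-- The shells in space. -/
def SXs : Set E3 := {x | ‖x‖ ∈ RX}
def S1s : Set E3 := {x | ‖x‖ ∈ RS1}
def T1s : Set E3 := {x | ‖x‖ ∈ RT1}
def S2s : Set E3 := {x | ‖x‖ ∈ RS2}

lemma shell_meas {R : Set ℝ} (h : MeasurableSet R) : MeasurableSet ({x : E3 | ‖x‖ ∈ R}) :=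
  measurable_norm h

lemma norm_Φmap (ρ σ : ℝ → ℝ) (p : E3) : ‖Φmap ρ σ p‖ = |ρ (p 0)| := by
  unfold Φmap
  rw [norm_smul, nv_norm, mul_one, Real.norm_eq_abs]

lemma norm_Xmap {p : E3} (hp : p ∈ Box) : ‖Xmap p‖ = rf (p 0) := by
  unfold Xmap
  rw [norm_Φmap, abs_of_pos (rf_pos hp.1)]

lemma norm_Y1map {p : E3} (hp : p ∈ Box) : ‖Y1map p‖ = s1f (p 0) := by
  unfold Y1map
  rw [norm_Φmap, abs_neg, abs_of_pos (s1f_pos hp.1)]

lemma norm_Z1map {p : E3} (hp : p ∈ Box) : ‖Z1map p‖ = t1f (p 0) := by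
  unfold Z1map
  rw [norm_Φmap, abs_of_pos (t1f_pos hp.1)]

lemma norm_Y2map {p : E3} (hp : p ∈ Box) : ‖Y2map p‖ = s2f (p 0) := by
  unfold Y2map
  rw [norm_Φmap, abs_of_pos (s2f_pos hp.1)]

lemma norm_Z2map {p : E3} (hp : p ∈ Box) : ‖Z2map p‖ = s2f (p 0) := by
  unfold Z2map
  rw [norm_Φmap, abs_of_pos (s2f_pos hp.1)]

/-! ### Conversion between the extended and the real cost -/

lemma coulomb_eq_ofReal {x y z : E3} (hxy : x ≠ y) (hxz : x ≠ z) (hyz : y ≠ z) :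
    coulomb x y z = ENNReal.ofReal (cr x y z) := by
  have d₁ : 0 < ‖x - y‖ := norm_pos_iff.mpr (sub_ne_zero.mpr hxy)
  have d₂ : 0 < ‖x - z‖ := norm_pos_iff.mpr (sub_ne_zero.mpr hxz)
  have d₃ : 0 < ‖y - z‖ := norm_pos_iff.mpr (sub_ne_zero.mpr hyz)
  unfold coulomb cr
  rw [ENNReal.ofReal_add (by positivity) (by positivity), ENNReal.ofReal_add (by positivity) (by positivity),
    edist_dist, edist_dist, edist_dist, dist_eq_norm, dist_eq_norm, dist_eq_norm,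
    one_div, one_div, one_div, ENNReal.ofReal_inv_of_pos d₁, ENNReal.ofReal_inv_of_pos d₂,
    ENNReal.ofReal_inv_of_pos d₃]

lemma coulomb_top_of {x y z : E3} (h : ¬ (x ≠ y ∧ x ≠ z ∧ y ≠ z)) : coulomb x y z = ⊤ := by
  unfold coulomb
  by_cases h1 : x = y
  · subst h1; simp
  by_cases h2 : x = z
  · subst h2; simp
  by_cases h3 : y = z
  · subst h3; simp
  exact absurd ⟨h1, h2, h3⟩ h

/-- The nonnegative shift of the potential. -/
noncomputable def hfun (x : E3) : ℝ≥0∞ := ENNReal.ofReal (uf ‖x‖ + 1)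

lemma hfun_measurable : Measurable hfun := by
  unfold hfun
  exact ENNReal.measurable_ofReal.comp ((uf_measurable.comp measurable_norm).add_const _)

lemma hfun_le (x : E3) : hfun x ≤ ENNReal.ofReal 4 := by
  unfold hfun
  apply ENNReal.ofReal_le_ofReal
  have := (uf_bounds ‖x‖).2
  linarith

lemma hfun_sum (x y z : E3) :
    hfun x + hfun y + hfun z = ENNReal.ofReal (uf ‖x‖ + uf ‖y‖ + uf ‖z‖ + 3) := by
  have a := (uf_bounds ‖x‖).1
  have b := (uf_bounds ‖y‖).1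
  have c := (uf_bounds ‖z‖).1
  unfold hfun
  rw [← ENNReal.ofReal_add (by linarith) (by linarith),
    ← ENNReal.ofReal_add (by linarith) (by linarith)]
  congr 1
  ring

lemma coulomb_add_three {x y z : E3} (hxy : x ≠ y) (hxz : x ≠ z) (hyz : y ≠ z) :
    coulomb x y z + ENNReal.ofReal 3 = ENNReal.ofReal (cr x y z + 3) := by
  rw [coulomb_eq_ofReal hxy hxz hyz, ← ENNReal.ofReal_add (cr_nonneg _ _ _) (by norm_num)]

lemma mem_union_iff {x : E3} : x ∈ SXs ∪ S1s ∪ T1s ∪ S2s ↔ InAll ‖x‖ := by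
  constructor
  · rintro (((h | h) | h) | h)
    · exact Or.inl h
    · exact Or.inr (Or.inl h)
    · exact Or.inr (Or.inr (Or.inl h))
    · exact Or.inr (Or.inr (Or.inr h))
  · rintro (h | h | h | h)
    · exact Or.inl (Or.inl (Or.inl h))
    · exact Or.inl (Or.inl (Or.inr h))
    · exact Or.inl (Or.inr h)
    · exact Or.inr h

end Vale.Agent.Lib.P121
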