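import Mathlib
import Vale.Agent.Lib.P121.Assemble

/-!
The certificate and the final statement.
-/

open Real Set MeasureTheory
open scoped RealInnerProductSpace ENNReal NNReal

namespace Vale.Agent.Lib.P121

lemma Xmap_eq (p : E3) : Xmap p = rf (p 0) • nv (p 1) (p 2) := by
  unfold Xmap Φmap
  simp

lemma Y1map_eq (p : E3) : Y1map p = (- s1f (p 0)) • nv (p 1) (p 2) := by
  unfold Y1map Φmap
  simp

lemma Z1map_eq (p : E3) : Z1map p = t1f (p 0) • nv (p 1) (p 2) := by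
  unfold Z1map Φmap
  simp

lemma Y2map_eq {p : E3} (hp : p ∈ Box) : Y2map p =
    (- (αf (p 0) / 2)) • nv (p 1) (p 2) + (mf (p 0) / 2) • nv (p 1 + π / 2) (p 2) := by
  unfold Y2map Φmap
  rw [nv_add, smul_add, smul_smul, smul_smul, ψf_cos hp.1, ψf_sin hp.1]

lemma Z2map_eq {p : E3} (hp : p ∈ Box) : Z2map p =
    (- (αf (p 0) / 2)) • nv (p 1) (p 2) + (- (mf (p 0) / 2)) • nv (p 1 + π / 2) (p 2) := by
  unfold Z2map Φmap
  rw [← sub_eq_add_neg, nv_sub, smul_add, smul_smul, smul_smul, ψf_cos hp.1, mul_neg, ψf_sin hp.1]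

/-- Equality of the first family. -/
lemma contact1_real {p : E3} (hp : p ∈ Box) :
    Xmap p ≠ Y1map p ∧ Xmap p ≠ Z1map p ∧ Y1map p ≠ Z1map p ∧
      uf ‖Xmap p‖ + uf ‖Y1map p‖ + uf ‖Z1map p‖ = cr (Xmap p) (Y1map p) (Z1map p) := by
  have h := hp.1
  set ν := p 0 with hν
  set n := nv (p 1) (p 2) with hn
  have hnn : ‖n‖ = 1 := nv_norm _ _
  have e1 : Xmap p - Y1map p = (dfun ν) • n := by
    rw [Xmap_eq, Y1map_eq, ← sub_smul]
    congr 1
    unfold s1f; ring
  have e2 : Xmap p - Z1map p = (- D2n ν) • n := by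
    rw [Xmap_eq, Z1map_eq, ← sub_smul]
    congr 1
    unfold t1f; ring
  have e3 : Y1map p - Z1map p = (- D3n ν) • n := by
    rw [Y1map_eq, Z1map_eq, ← sub_smul, D3n_eq]
    congr 1
    unfold s1f t1f; ring
  have n1 : ‖Xmap p - Y1map p‖ = dfun ν := by
    rw [e1, norm_smul, hnn, mul_one, Real.norm_of_nonneg (dfun_pos h).le]
  have n2 : ‖Xmap p - Z1map p‖ = D2n ν := by
    rw [e2, norm_smul, hnn, mul_one, norm_neg, Real.norm_of_nonneg (D2n_pos h).le]
  have n3 : ‖Y1map p - Z1map p‖ = D3n ν := by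
    rw [e3, norm_smul, hnn, mul_one, norm_neg, Real.norm_of_nonneg (D3n_pos h).le]
  refine ⟨?_, ?_, ?_, ?_⟩
  · intro e
    rw [e, sub_self, norm_zero] at n1
    have := dfun_pos h
    linarith
  · intro e
    rw [e, sub_self, norm_zero] at n2
    have := D2n_pos h
    linarith
  · intro e
    rw [e, sub_self, norm_zero] at n3
    have := D3n_pos h
    linarith
  · rw [norm_Xmap hp, norm_Y1map hp, norm_Z1map hp, uf_r h, uf_s1 h, uf_t1 h]
    unfold cr
    rw [n1, n2, n3]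
    unfold Ξf cbar1
    ring

/-- Equality of the second family. -/
lemma contact2_real {p : E3} (hp : p ∈ Box) :
    Xmap p ≠ Y2map p ∧ Xmap p ≠ Z2map p ∧ Y2map p ≠ Z2map p ∧
      uf ‖Xmap p‖ + uf ‖Y2map p‖ + uf ‖Z2map p‖ = cr (Xmap p) (Y2map p) (Z2map p) := by
  have h := hp.1
  have hn := nv_norm (p 1) (p 2)
  have hf := nv_norm (p 1 + π / 2) (p 2)
  have hnf := nv_orth (p 1) (p 2)
  rw [Xmap_eq, Y2map_eq hp, Z2map_eq hp]
  obtain ⟨n1, n2, n3⟩ := config_ne hn hf hnf h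
  refine ⟨n1, n2, n3, ?_⟩
  obtain ⟨h1, h2, h3, -, -, -⟩ := config2 hn hf hnf h
  rw [config_cost hn hf hnf h, h1, h2, h3, uf_r h, uf_s2 h, Ubar_eq h]
  ring

/-- The certificate. -/
noncomputable def theCert : Cert where
  β := βm
  prob := βm_prob
  Box := Box
  Box_meas := Box_measurable
  Box_ae := βm_ae
  X := Xmap
  Y1 := Y1map
  Z1 := Z1map
  Y2 := Y2map
  Z2 := Z2map
  X_meas := Xmap_meas
  Y1_meas := Y1map_meas
  Z1_meas := Z1map_meas
  Y2_meas := Y2map_meas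
  Z2_meas := Z2map_meas
  SX := SXs
  S1 := S1s
  T1 := T1s
  S2 := S2s
  SX_meas := shell_meas RX_measurable
  S1_meas := shell_meas RS1_measurable
  T1_meas := shell_meas RT1_measurable
  S2_meas := shell_meas RS2_measurable
  disj_X1 := Set.disjoint_left.mpr fun x h1 h2 => by
    obtain ⟨-, a, -⟩ := RX_bound h1
    obtain ⟨b, -⟩ := RS1_bound h2
    norm_num at a b
    linarith
  disj_XT := Set.disjoint_left.mpr fun x h1 h2 => by
    obtain ⟨-, a, -⟩ := RX_bound h1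
    obtain ⟨b, -⟩ := RT1_bound h2
    norm_num at a b
    linarith
  disj_X2 := Set.disjoint_left.mpr fun x h1 h2 => by
    obtain ⟨-, a, -⟩ := RX_bound h1
    obtain ⟨b, -⟩ := RS2_bound h2
    norm_num at a b
    linarith
  disj_1T := Set.disjoint_left.mpr fun x h1 h2 => by
    obtain ⟨-, a, -⟩ := RS1_bound h1
    obtain ⟨b, -⟩ := RT1_bound h2
    norm_num at a b
    linarith
  disj_12 := Set.disjoint_left.mpr fun x h1 h2 => by
    obtain ⟨-, a, -⟩ := RS1_bound h1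
    obtain ⟨b, -⟩ := RS2_bound h2
    norm_num at a b
    linarith
  disj_T2 := Set.disjoint_left.mpr fun x h1 h2 => by
    obtain ⟨b, -⟩ := RT1_bound h1
    obtain ⟨-, a, -⟩ := RS2_bound h2
    norm_num at a b
    linarith
  X_maps := fun p hp => by
    change ‖Xmap p‖ ∈ RX
    rw [norm_Xmap hp]
    exact ⟨_, hp.1, rfl⟩
  Y1_maps := fun p hp => by
    change ‖Y1map p‖ ∈ RS1
    rw [norm_Y1map hp]
    exact ⟨_, hp.1, rfl⟩
  Z1_maps := fun p hp => by
    change ‖Z1map p‖ ∈ RT1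
    rw [norm_Z1map hp]
    exact ⟨_, hp.1, rfl⟩
  Y2_maps := fun p hp => by
    change ‖Y2map p‖ ∈ RS2
    rw [norm_Y2map hp]
    exact ⟨_, hp.1, rfl⟩
  Z2_maps := fun p hp => by
    change ‖Z2map p‖ ∈ RS2
    rw [norm_Z2map hp]
    exact ⟨_, hp.1, rfl⟩
  X_inj := let ⟨_, hK⟩ := Xmap_anti; injOn_of_antilip hK
  Y1_inj := let ⟨_, hK⟩ := Y1map_anti; injOn_of_antilip hK
  Z1_inj := let ⟨_, hK⟩ := Z1map_anti; injOn_of_antilip hK
  X_ac := let ⟨_, hK⟩ := Xmap_anti; ac_of_antilip Xmap_meas hK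
  Y1_ac := let ⟨_, hK⟩ := Y1map_anti; ac_of_antilip Y1map_meas hK
  Z1_ac := let ⟨_, hK⟩ := Z1map_anti; ac_of_antilip Z1map_meas hK
  Y2_ac := let ⟨_, hK⟩ := Y2map_anti; ac_of_antilip Y2map_meas hK
  Z2_ac := let ⟨_, hK⟩ := Z2map_anti; ac_of_antilip Z2map_meas hK
  h := hfun
  h_meas := hfun_measurable
  K := ENNReal.ofReal 4
  K_ne_top := ENNReal.ofReal_ne_top
  h_le := hfun_le
  C := ENNReal.ofReal 3
  C_ne_top := ENNReal.ofReal_ne_top
  ineq := fun x hx y hy z hz => by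
    by_cases hd : x ≠ y ∧ x ≠ z ∧ y ≠ z
    · obtain ⟨hxy, hxz, hyz⟩ := hd
      rw [hfun_sum, coulomb_add_three hxy hxz hyz]
      apply ENNReal.ofReal_le_ofReal
      have := dual_all (mem_union_iff.mp hx) (mem_union_iff.mp hy) (mem_union_iff.mp hz) hxy hxz hyz
      linarith
    · rw [coulomb_top_of hd]
      simp
  contact1 := fun p hp => by
    obtain ⟨n1, n2, n3, e⟩ := contact1_real hp
    rw [hfun_sum, coulomb_add_three n1 n2 n3, e]
  contact2 := fun p hp => by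
    obtain ⟨n1, n2, n3, e⟩ := contact2_real hp
    rw [hfun_sum, coulomb_add_three n1 n2 n3, e]
  classify := fun p hp y hy z hz heq => by
    have hne : coulomb (Xmap p) y z ≠ ⊤ := by
      intro htop
      rw [htop, hfun_sum] at heq
      simp at heq
    have hd : Xmap p ≠ y ∧ Xmap p ≠ z ∧ y ≠ z := by
      by_contra hd
      exact hne (coulomb_top_of hd)
    obtain ⟨hxy, hxz, hyz⟩ := hd
    rw [hfun_sum, coulomb_add_three hxy hxz hyz] at heq
    have hb1 := (uf_bounds ‖Xmap p‖).1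
    have hb2 := (uf_bounds ‖y‖).1
    have hb3 := (uf_bounds ‖z‖).1
    have hc := cr_nonneg (Xmap p) y z
    have hreal := (ENNReal.ofReal_eq_ofReal_iff (by linarith) (by linarith)).mp heq
    obtain ⟨c1, c2, c3⟩ := classify_real hp.1 (norm_Xmap hp) (mem_union_iff.mp hy)
      (mem_union_iff.mp hz) hxy hxz hyz (by linarith)
    have hr := rf_pos hp.1
    refine ⟨fun hys => ?_, fun hyt => ?_, c3⟩
    · have e := c1 hys
      rw [Xmap_eq, smul_comm] at e
      rw [Y1map_eq]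
      exact smul_right_injective E3 hr.ne' e
    · have e := c2 hyt
      rw [Xmap_eq, smul_comm] at e
      rw [Z1map_eq]
      exact smul_right_injective E3 hr.ne' e

/-- Main theorem: there is an absolutely continuous probability measure on three-dimensional space
with finite Coulomb value and no optimal Monge plan. -/
theorem exists_no_optimal_monge :
    ∃ μ : Measure E3, IsProbabilityMeasure μ ∧ μ ≪ volume ∧ kantorovichValue μ < ⊤ ∧
      ¬ ∃ T₂ T₃ : E3 → E3, Measurable T₂ ∧ Measurable T₃ ∧ μ.map T₂ = μ ∧ μ.map T₃ = μ ∧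
        ∫⁻ x, coulomb x (T₂ x) (T₃ x) ∂μ = kantorovichValue μ :=
  ⟨theCert.μ, theCert.conclusion⟩

end Vale.Agent.Lib.P121
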